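import Vale.Agent.P328.U.Defs

/-! # P328, binary margins: fibre averages and the abstract duality (helper5) -/

namespace Vale.P328B.DUALA
open Finset BigOperators Vale.P328U

universe u v

variable {ι : Type u} [Fintype ι] [DecidableEq ι] {κ : Type v} [Fintype κ] [DecidableEq κ]

/-- the fibre of `X` for row `k`: tables with the same rows `i ≠ k` (hub excepted) -/
def fib (r : ι → ℕ) (c : κ → ℕ) (k : ι) (X : ι → κ → ℕ) : Finset (ι → κ → ℕ) :=
  (Om r c).filter fun Y => ∀ i, i ≠ k → Y i = X i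

/-- average over the fibre of row `k` -/
noncomputable def av (r : ι → ℕ) (c : κ → ℕ) (k : ι) (f : (ι → κ → ℕ) → ℝ)
    (X : ι → κ → ℕ) : ℝ :=
  (∑ Y ∈ fib r c k X, f Y) / ((fib r c k X).card : ℝ)

theorem mem_fib {r : ι → ℕ} {c : κ → ℕ} {k : ι} {X Y : ι → κ → ℕ} :
    Y ∈ fib r c k X ↔ Y ∈ Om r c ∧ ∀ i, i ≠ k → Y i = X i := by
  unfold fib
  rw [mem_filter]

theorem self_mem {r : ι → ℕ} {c : κ → ℕ} {k : ι} {X : ι → κ → ℕ} (hX : X ∈ Om r c) :
    X ∈ fib r c k X := mem_fib.mpr ⟨hX, fun _ _ => rfl⟩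

theorem fib_eq {r : ι → ℕ} {c : κ → ℕ} {k : ι} {X Y : ι → κ → ℕ}
    (h : ∀ i, i ≠ k → Y i = X i) : fib r c k Y = fib r c k X := by
  ext Z
  rw [mem_fib, mem_fib]
  constructor
  · rintro ⟨h1, h2⟩
    exact ⟨h1, fun i hi => (h2 i hi).trans (h i hi)⟩
  · rintro ⟨h1, h2⟩
    exact ⟨h1, fun i hi => (h2 i hi).trans (h i hi).symm⟩

/-- a function with mean zero on the fibres is orthogonal to fibre averages -/
theorem orth (r : ι → ℕ) (c : κ → ℕ) (k : ι) (f g : (ι → κ → ℕ) → ℝ)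
    (hg : ∀ X ∈ Om r c, ∑ Y ∈ fib r c k X, g Y = 0) :
    ∑ X ∈ Om r c, av r c k f X * g X = 0 := by
  have h1 : ∀ X ∈ Om r c, av r c k f X * g X =
      ∑ Y ∈ Om r c, if (∀ i, i ≠ k → Y i = X i) then
        f Y * g X / ((fib r c k Y).card : ℝ) else 0 := by
    intro X hX
    rw [← sum_filter]
    unfold av
    rw [div_mul_eq_mul_div, sum_mul, sum_div]
    refine sum_congr rfl fun Y hY => ?_
    rw [fib_eq (mem_fib.mp hY).2]
  rw [sum_congr rfl h1, sum_comm]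
  refine sum_eq_zero fun Y hY => ?_
  have h2 : ∀ X ∈ Om r c, (if (∀ i, i ≠ k → Y i = X i) then
        f Y * g X / ((fib r c k Y).card : ℝ) else 0) =
      if (∀ i, i ≠ k → X i = Y i) then
        f Y / ((fib r c k Y).card : ℝ) * g X else 0 := by
    intro X _
    by_cases h : ∀ i, i ≠ k → X i = Y i
    · rw [if_pos h, if_pos (fun i hi => (h i hi).symm)]
      ring
    · rw [if_neg h, if_neg (fun h' => h fun i hi => (h' i hi).symm)]
  rw [sum_congr rfl h2, ← sum_filter, ← mul_sum]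
  have h3 := hg Y hY
  unfold fib at h3
  rw [h3, mul_zero]

/-- the abstract duality -/
theorem dual (r : ι → ℕ) (c : κ → ℕ) (f : (ι → κ → ℕ) → ℝ) (g : ι → (ι → κ → ℕ) → ℝ)
    (hg : ∀ k, ∀ X ∈ Om r c, ∑ Y ∈ fib r c k X, g k Y = 0)
    (hs : ∀ X ∈ Om r c, ∑ k, g k X = f X) :
    (∑ X ∈ Om r c, f X ^ 2) ^ 2 ≤
      (∑ k, ∑ X ∈ Om r c, (f X - av r c k f X) ^ 2) * ∑ k, ∑ X ∈ Om r c, g k X ^ 2 := by
  have h1 : ∑ X ∈ Om r c, f X ^ 2 = ∑ k, ∑ X ∈ Om r c, (f X - av r c k f X) * g k X := by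
    have e1 : ∑ X ∈ Om r c, f X ^ 2 = ∑ k, ∑ X ∈ Om r c, f X * g k X := by
      rw [sum_comm]
      refine sum_congr rfl fun X hX => ?_
      rw [← mul_sum, hs X hX]
      ring
    rw [e1]
    refine sum_congr rfl fun k _ => ?_
    have := orth r c k f (g k) (hg k)
    simp only [sub_mul, sum_sub_distrib]
    rw [this, sub_zero]
  rw [h1]
  have h2 : ∀ a : ι → (ι → κ → ℕ) → ℝ, ∑ k, ∑ X ∈ Om r c, a k X =
      ∑ q ∈ (univ : Finset ι) ×ˢ Om r c, a q.1 q.2 := by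
    intro a
    rw [sum_product]
  rw [h2 (fun k X => (f X - av r c k f X) * g k X), h2 (fun k X => (f X - av r c k f X) ^ 2),
    h2 (fun k X => g k X ^ 2)]
  exact sum_mul_sq_le_sq_mul_sq _ _ _

/-- duality, final form -/
theorem dual_le (r : ι → ℕ) (c : κ → ℕ) (f : (ι → κ → ℕ) → ℝ) (g : ι → (ι → κ → ℕ) → ℝ)
    (C : ℝ) (hC : 0 ≤ C)
    (hg : ∀ k, ∀ X ∈ Om r c, ∑ Y ∈ fib r c k X, g k Y = 0)
    (hs : ∀ X ∈ Om r c, ∑ k, g k X = f X)
    (hn : ∑ k, ∑ X ∈ Om r c, g k X ^ 2 ≤ C * ∑ X ∈ Om r c, f X ^ 2) :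
    ∑ X ∈ Om r c, f X ^ 2 ≤ C * ∑ k, ∑ X ∈ Om r c, (f X - av r c k f X) ^ 2 := by
  set S := ∑ X ∈ Om r c, f X ^ 2 with hS
  set D := ∑ k, ∑ X ∈ Om r c, (f X - av r c k f X) ^ 2 with hD
  have hS0 : 0 ≤ S := sum_nonneg fun _ _ => sq_nonneg _
  have hD0 : 0 ≤ D := sum_nonneg fun _ _ => sum_nonneg fun _ _ => sq_nonneg _
  have h1 := dual r c f g hg hs
  have h2 : S ^ 2 ≤ D * (C * S) := h1.trans (mul_le_mul_of_nonneg_left hn hD0)
  rcases hS0.eq_or_lt with h0 | hpos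
  · rw [← h0]
    positivity
  · have h3 : S * S ≤ (C * D) * S := by nlinarith
    exact le_of_mul_le_mul_right h3 hpos

theorem E_row_ne {k i : ι} (j : κ) (h : i ≠ k) : (E k j : ι → κ → ℕ) i = 0 := by
  unfold E
  rw [Pi.single_eq_of_ne h]

/-- `LL c F k` has sum zero on every fibre of row `k` -/
theorem LL_fib (hDIR : StmtDIR.{u, v}) (r : ι → ℕ) (c : κ → ℕ) (F : (ι → κ → ℕ) → ℝ) (k : ι)
    (X : ι → κ → ℕ) : ∑ Y ∈ fib r c k X, LL c F k Y = 0 := by
  classical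
  set G : (ι → κ → ℕ) → ℝ := fun Y => if (∀ i, i ≠ k → Y i = X i) then 1 else 0 with hG
  have h1 := (hDIR ι κ r c F G k).1
  have h2 : DD r c F G k = 0 := by
    unfold DD
    have : ∀ (W : ι → κ → ℕ) (j l : κ), G (W - E k j) - G (W - E k l) = 0 := by
      intro W j l
      have e1 : ∀ j : κ, ∀ i, i ≠ k → (W - E k j) i = W i := by
        intro j i hi
        rw [Pi.sub_apply, E_row_ne j hi]
        funext a
        simp
      have e2 : ∀ j : κ, G (W - E k j) = G W := by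
        intro j
        simp only [hG]
        have : (∀ i, i ≠ k → (W - E k j) i = X i) ↔ (∀ i, i ≠ k → W i = X i) := by
          constructor
          · intro h i hi
            rw [← e1 j i hi]
            exact h i hi
          · intro h i hi
            rw [e1 j i hi]
            exact h i hi
        simp only [this]
      rw [e2, e2, sub_self]
    simp only [this, mul_zero, sum_const_zero]
  rw [h2] at h1
  have h3 : ∑ Y ∈ fib r c k X, LL c F k Y = - ∑ Y ∈ Om r c, G Y * (- LL c F k Y) := by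
    unfold fib
    rw [sum_filter, ← sum_neg_distrib]
    refine sum_congr rfl fun Y _ => ?_
    simp only [hG]
    by_cases h : ∀ i, i ≠ k → Y i = X i
    · rw [if_pos h, if_pos h]; ring
    · rw [if_neg h, if_neg h]; ring
  rw [h3, h1, neg_zero]

end Vale.P328B.DUALA
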