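import Vale.Agent.P328.U.ROW
import Vale.Agent.P328.U.SOSW

/-! # P328 binary margins, module REG: the regular part of the generator -/

namespace Vale.P328U.REG

open Finset

universe u v

variable {ι : Type u} [Fintype ι] [DecidableEq ι] {κ : Type v} [Fintype κ] [DecidableEq κ]

/-- the wall flux -/
noncomputable def CK (c : κ → ℕ) (F : (ι → κ → ℕ) → ℝ) (k : ι) (l : (ι → κ → ℕ) → κ)
    (X : ι → κ → ℕ) : ℝ :=
  ∑ j, if ∑ i, X i j < c j then 0 else VV F k j (X + E k (l X))

theorem sum_VV (F : (ι → κ → ℕ) → ℝ) (k : ι) (W : ι → κ → ℕ) : ∑ j, VV F k j W = 0 := by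
  unfold VV
  simp only [mul_sum]
  have h1 : ∑ j, ∑ l, (W k j : ℝ) * ((W k l : ℝ) * (F (W - E k j) - F (W - E k l))) =
      - ∑ j, ∑ l, (W k j : ℝ) * ((W k l : ℝ) * (F (W - E k j) - F (W - E k l))) := by
    conv_lhs => rw [sum_comm]
    rw [← sum_neg_distrib]
    refine sum_congr rfl (fun j _ => ?_)
    rw [← sum_neg_distrib]
    exact sum_congr rfl (fun l _ => by ring)
  linarith

theorem VV_sub (F : (ι → κ → ℕ) → ℝ) (k : ι) (j a : κ) (Z : ι → κ → ℕ) :
    VV F k j (Z - E k a) = V (fun x => F (Function.update Z k x)) j (Z k - e a) := by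
  rw [← ROW.VV_upd, ← ROW.upd_sub, Function.update_eq_self]

theorem QQ_self (F : (ι → κ → ℕ) → ℝ) (k : ι) (Z : ι → κ → ℕ) :
    QQ F k Z = Q (fun x => F (Function.update Z k x)) (Z k) := by
  rw [← ROW.QQ_upd, Function.update_eq_self]

theorem QQ_nonneg (F : (ι → κ → ℕ) → ℝ) (k : ι) (Z : ι → κ → ℕ) : 0 ≤ QQ F k Z := by
  rw [QQ_self]
  exact SOSW.q0 κ _ _

theorem diff_le (F : (ι → κ → ℕ) → ℝ) (k : ι) (j l : κ) (X : ι → κ → ℕ) (hjl : j ≠ l)
    (hx : X k j ≤ X k l) :
    (VV F k j (X + E k l) - VV F k j (X + E k j)) ^ 2 ≤ 4 * QQ F k (X + E k j + E k l) := by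
  set Z := X + E k j + E k l with hZ
  have h1 : X + E k l = Z - E k j := by
    rw [hZ, add_right_comm, add_tsub_cancel_right]
  have h2 : X + E k j = Z - E k l := by
    rw [hZ, add_tsub_cancel_right]
  have hj : Z k j = X k j + 1 := by
    rw [hZ]
    simp [E, e, hjl]
  have hl : Z k l = X k l + 1 := by
    rw [hZ]
    simp [E, e, hjl.symm]
  rw [h1, h2, VV_sub, VV_sub, QQ_self]
  refine (SOSW.thm κ _ (Z k) j j l (by omega) (by omega)).trans ?_
  refine mul_le_mul_of_nonneg_right ?_ (SOSW.q0 κ _ _)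
  have hjpos : (0 : ℝ) < Z k j := by
    rw [hj]
    positivity
  have hlpos : (0 : ℝ) < Z k l := by
    rw [hl]
    positivity
  have hle : (Z k j : ℝ) / Z k l ≤ 1 := by
    rw [div_le_one hlpos]
    exact_mod_cast (by omega : Z k j ≤ Z k l)
  rw [div_self hjpos.ne']
  linarith

theorem mem_two {r : ι → ℕ} {c : κ → ℕ} {k : ι} {j l : κ} {X : ι → κ → ℕ} (hX : X ∈ Om r c)
    (hjl : j ≠ l) (hj : ∑ i, X i j < c j) (hl : ∑ i, X i l < c l) :
    X + E k j + E k l ∈ Om (r + Pi.single k 2) c := by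
  rw [ROW.mem_Om] at hX ⊢
  have hE : ∀ (a b : κ), ∑ i, E k a i b = if b = a then 1 else 0 := by
    intro a b
    rw [Finset.sum_eq_single k]
    · simp [E, e, Pi.single_apply]
    · intro i _ hi
      simp [E, hi]
    · intro h
      exact absurd (mem_univ k) h
  constructor
  · intro i
    simp only [Pi.add_apply]
    rw [sum_add_distrib, sum_add_distrib, hX.1 i]
    by_cases hi : i = k
    · subst hi
      simp [E, e]
    · simp [E, hi]
  · intro b
    simp only [Pi.add_apply]
    rw [sum_add_distrib, sum_add_distrib, hE, hE]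
    have := hX.2 b
    by_cases h1 : b = j
    · subst h1
      rw [if_pos rfl, if_neg hjl]
      omega
    · rw [if_neg h1]
      by_cases h2 : b = l
      · subst h2
        rw [if_pos rfl]
        omega
      · rw [if_neg h2]
        omega

/-- REG -/
theorem thm (r : ι → ℕ) (c : κ → ℕ) (F : (ι → κ → ℕ) → ℝ) (k : ι) (l : (ι → κ → ℕ) → κ)
    (hl : ∀ X ∈ Om r c, ∑ i, X i (l X) < c (l X) ∧
      ∀ j, ∑ i, X i j < c j → X k j ≤ X k (l X)) :
    ∑ X ∈ Om r c, (LL c F k X - CK c F k l X) ^ 2 ≤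
      4 * (Fintype.card κ : ℝ) ^ 3 * ∑ Z ∈ Om (r + Pi.single k 2) c, QQ F k Z := by
  classical
  set n : ℝ := (Fintype.card κ : ℝ) with hn
  set SZ := ∑ Z ∈ Om (r + Pi.single k 2) c, QQ F k Z with hSZ
  have hSZ0 : 0 ≤ SZ := sum_nonneg (fun Z _ => QQ_nonneg F k Z)
  -- pointwise formula
  have hpt : ∀ X, LL c F k X - CK c F k l X = ∑ j, if ∑ i, X i j < c j then
      VV F k j (X + E k (l X)) - VV F k j (X + E k j) else 0 := by
    intro X
    have h0 := sum_VV F k (X + E k (l X))
    have h1 : ∑ j, VV F k j (X + E k (l X)) = ∑ j, ((if ∑ i, X i j < c j then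
        VV F k j (X + E k (l X)) else 0) + (if ∑ i, X i j < c j then 0 else
        VV F k j (X + E k (l X)))) := by
      refine sum_congr rfl (fun j _ => ?_)
      split_ifs <;> simp
    rw [h1, sum_add_distrib] at h0
    unfold LL CK
    have h2 : ∀ j, (if ∑ i, X i j < c j then
        VV F k j (X + E k (l X)) - VV F k j (X + E k j) else 0) =
        (if ∑ i, X i j < c j then VV F k j (X + E k (l X)) else 0) -
        (if ∑ i, X i j < c j then VV F k j (X + E k j) else 0) := by
      intro j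
      split_ifs <;> simp
    rw [sum_congr rfl (fun j _ => h2 j), sum_sub_distrib]
    linarith
  have hsq : ∀ X ∈ Om r c, (LL c F k X - CK c F k l X) ^ 2 ≤ n * ∑ j,
      (if j ≠ l X ∧ ∑ i, X i j < c j then 4 * QQ F k (X + E k j + E k (l X)) else 0) := by
    intro X hX
    rw [hpt X]
    refine (sq_sum_le_card_mul_sum_sq).trans ?_
    rw [card_univ]
    refine mul_le_mul_of_nonneg_left (sum_le_sum (fun j _ => ?_)) (Nat.cast_nonneg _)
    by_cases h1 : ∑ i, X i j < c j
    · rw [if_pos h1]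
      by_cases h2 : j = l X
      · rw [← h2, sub_self, if_neg (fun h => h.1 rfl)]
        norm_num
      · rw [if_pos ⟨h2, h1⟩]
        exact diff_le F k j (l X) X h2 ((hl X hX).2 j h1)
    · rw [if_neg h1, if_neg (fun h => h1 h.2)]
      norm_num
  refine (sum_le_sum hsq).trans ?_
  rw [← mul_sum, sum_comm]
  have hj : ∀ j : κ, ∑ X ∈ Om r c,
      (if j ≠ l X ∧ ∑ i, X i j < c j then 4 * QQ F k (X + E k j + E k (l X)) else 0) ≤
      n * (4 * SZ) := by
    intro j
    have h1 : ∀ X, (if j ≠ l X ∧ ∑ i, X i j < c j then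
        4 * QQ F k (X + E k j + E k (l X)) else 0) = ∑ a, if (l X = a ∧ j ≠ a) ∧
        ∑ i, X i j < c j then 4 * QQ F k (X + E k j + E k a) else 0 := by
      intro X
      rw [Finset.sum_eq_single (l X)]
      · simp
      · intro b _ hb
        rw [if_neg (fun h => hb h.1.1.symm)]
      · intro h
        exact absurd (mem_univ _) h
    rw [sum_congr rfl (fun X _ => h1 X), sum_comm]
    have h2 : ∀ a : κ, ∑ X ∈ Om r c, (if (l X = a ∧ j ≠ a) ∧ ∑ i, X i j < c j then
        4 * QQ F k (X + E k j + E k a) else 0) ≤ 4 * SZ := by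
      intro a
      rw [← sum_filter]
      rw [hSZ, mul_sum, ← sum_image (f := fun Z => 4 * QQ F k Z)
        (g := fun X => X + E k j + E k a)
        (s := (Om r c).filter (fun X => (l X = a ∧ j ≠ a) ∧ ∑ i, X i j < c j))
        (fun X _ X' _ h => add_right_cancel (add_right_cancel h))]
      refine sum_le_sum_of_subset_of_nonneg ?_
        (fun Z _ _ => mul_nonneg (by norm_num) (QQ_nonneg F k Z))
      intro Z hZ
      obtain ⟨X, hX, rfl⟩ := mem_image.1 hZ
      rw [mem_filter] at hX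
      obtain ⟨hX1, ⟨⟨hX2, hX3⟩, hX4⟩⟩ := hX
      refine mem_two hX1 hX3 hX4 ?_
      have := (hl X hX1).1
      rw [hX2] at this
      exact this
    refine (sum_le_sum (fun a _ => h2 a)).trans ?_
    rw [sum_const, card_univ, nsmul_eq_mul]
  refine (mul_le_mul_of_nonneg_left (sum_le_sum (fun j _ => hj j)) (Nat.cast_nonneg _)).trans ?_
  rw [sum_const, card_univ, nsmul_eq_mul]
  refine le_of_eq ?_
  rw [← hn]
  ring

end Vale.P328U.REG
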