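import Vale.Agent.P328.U.Defs
import Vale.Agent.P328.B.REG
import Vale.Agent.P328.B.DUALA

/-!
# P328, binary margins: statements for the assembly of the scale-free Poincare inequality (helper3)

`REG.CK` = wall flux, `REG.thm` proved, `DUALA.fib`, `DUALA.av` = fibres and fibre averages.
-/

namespace Vale.P328B
open Finset BigOperators Vale.P328U

universe u v

/-- FLX: the wall flux, scale-free (owner helper26) -/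
def StmtFLX (CF : ℕ → ℕ → ℝ) : Prop :=
  ∀ (ι : Type u) [Fintype ι] [DecidableEq ι] (κ : Type v) [Fintype κ] [DecidableEq κ]
    (r : ι → ℕ) (c : κ → ℕ) (F : (ι → κ → ℕ) → ℝ) (k : ι) (l : (ι → κ → ℕ) → κ),
    (∀ X ∈ Om r c, ∑ i, X i (l X) < c (l X)) → ∑ i, r i + r k + 1 ≤ ∑ j, c j →
    ∑ X ∈ Om r c, ∑ j, (if ∑ i, X i j < c j then 0 else
        VV F k j (X + E k (l X)) ^ 2 / (X k j : ℝ)) ≤
      CF (Fintype.card κ) (r k) * ∑ Z ∈ Om (r + Pi.single k 2) c, QQ F k Z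

/-- SMEAR (owner helper20) -/
def StmtSMEAR (CS : ℕ → ℝ) : Prop :=
  ∀ (ι : Type u) [Fintype ι] [DecidableEq ι] (κ : Type v) [Fintype κ] [DecidableEq κ]
    (r : ι → ℕ) (c : κ → ℕ) (k k' : ι) (jk jl : (ι → κ → ℕ) → κ) (ψ : (ι → κ → ℕ) → ℝ),
    k ≠ k' → ∑ i, r i + r k + 1 ≤ ∑ j, c j → ∑ i, r i + r k' + 1 ≤ ∑ j, c j →
    (∀ X ∈ Om r c, ψ X ≠ 0 → ∑ i, X i (jk X) = c (jk X) ∧ ∑ i, X i (jl X) = c (jl X) ∧
      1 ≤ X k (jk X) ∧ 1 ≤ X k' (jl X)) →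
    ∃ η : (ι → κ → ℕ) → ℝ,
      (∀ X ∈ Om r c, ∑ Y ∈ DUALA.fib r c k X, η Y = 0) ∧
      (∀ X ∈ Om r c, ∑ Y ∈ DUALA.fib r c k' X, η Y = 0) ∧
      ∑ X ∈ Om r c, (η X - ψ X) ^ 2 ≤ CS (Fintype.card κ) *
        ∑ X ∈ Om r c, ψ X ^ 2 * (1 / (X k (jk X) : ℝ) + 1 / (X k' (jl X) : ℝ))

/-- ASM1 (owner helper8): the decomposition with norm bound, `K` = total constant -/
def StmtASM1 (K : ℕ → ℕ → ℕ → ℝ) : Prop :=
  ∀ (ι : Type u) [Fintype ι] [DecidableEq ι] (κ : Type v) [Fintype κ] [DecidableEq κ]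
    (r : ι → ℕ) (c : κ → ℕ) (R : ℕ) (f F : (ι → κ → ℕ) → ℝ),
    (∀ k, r k ≤ R) → (∀ k, ∑ i, r i + r k + 1 ≤ ∑ j, c j) → ∑ i, r i + 1 ≤ ∑ j, c j →
    (∀ X ∈ Om r c, ∑ k, LL c F k X = f X) →
    ∃ g : ι → (ι → κ → ℕ) → ℝ,
      (∀ k, ∀ X ∈ Om r c, ∑ Y ∈ DUALA.fib r c k X, g k Y = 0) ∧
      (∀ X ∈ Om r c, ∑ k, g k X = f X) ∧
      ∑ k, ∑ X ∈ Om r c, g k X ^ 2 ≤
        K (Fintype.card ι) (Fintype.card κ) R * ∑ X ∈ Om r c, f X ^ 2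

/-- POIB: the scale-free Poincare inequality for the row-pair resampling -/
def StmtPOIB (K : ℕ → ℕ → ℕ → ℝ) : Prop :=
  ∀ (ι : Type u) [Fintype ι] [DecidableEq ι] (κ : Type v) [Fintype κ] [DecidableEq κ]
    (r : ι → ℕ) (c : κ → ℕ) (R : ℕ) (F : (ι → κ → ℕ) → ℝ),
    (∀ k, r k ≤ R) → (∀ k, ∑ i, r i + r k + 1 ≤ ∑ j, c j) → ∑ i, r i + 1 ≤ ∑ j, c j →
    ∑ X ∈ Om r c, F X = 0 →
    ∑ X ∈ Om r c, F X ^ 2 ≤ K (Fintype.card ι) (Fintype.card κ) R *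
      ∑ k, ∑ X ∈ Om r c, (F X - DUALA.av r c k F X) ^ 2

end Vale.P328B
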