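import Vale.Agent.P328.U.PATHW
import Vale.Agent.P328.U.SOSW
import Vale.Agent.P328.U.ROW

/-!
# P328, binary margins, module FLX (helper26): the hub-wall flux
-/

namespace Vale.P328B.FLX
open Finset BigOperators Vale.P328U

universe u v

set_option linter.unusedSectionVars false

section slice
variable {κ : Type v} [Fintype κ] [DecidableEq κ]

theorem V_zero (f : (κ → ℕ) → ℝ) (j : κ) (v : κ → ℕ) (h : v j = 0) : V f j v = 0 := by
  unfold V
  rw [h]
  simp

theorem V_corner (f : (κ → ℕ) → ℝ) (j : κ) (v : κ → ℕ) (h : ∑ i, v i ≤ v j) :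
    V f j v = 0 := by
  unfold V
  have h0 : ∀ l, l ≠ j → v l = 0 := by
    intro l hl
    have h1 := Finset.add_sum_erase univ v (mem_univ j)
    have h2 : v l ≤ ∑ i ∈ univ.erase j, v i :=
      single_le_sum (f := v) (fun _ _ => Nat.zero_le _) (mem_erase.2 ⟨hl, mem_univ l⟩)
    omega
  have h3 : ∑ l, (v l : ℝ) * (f (v - e j) - f (v - e l)) = 0 := by
    refine sum_eq_zero fun l _ => ?_
    by_cases hl : l = j
    · subst hl
      ring
    · rw [h0 l hl]
      simp
  rw [h3, mul_zero]

/-- slice version: the flux at the wall `v j = s j` -/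
theorem slice (f : (κ → ℕ) → ℝ) (s : κ → ℕ) (p : ℕ) (j : κ) (hs : 2 * p + 1 ≤ ∑ c, s c) :
    ∑ v ∈ B s (p + 1), (if v j = s j then (V f j v) ^ 2 / (v j : ℝ) else 0) ≤
      2 * (1 + (Fintype.card κ : ℝ) * (1 + Real.log ((p : ℝ) + 2))) *
        (Fintype.card κ : ℝ) * ∑ w ∈ B s (p + 2), Q f w := by
  have hlog : 0 ≤ Real.log ((p : ℝ) + 2) := Real.log_nonneg (by
    have : (0 : ℝ) ≤ p := Nat.cast_nonneg _
    linarith)
  have hQ : 0 ≤ ∑ w ∈ B s (p + 2), Q f w := sum_nonneg fun w _ => SOSW.q0 κ f w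
  have hC : 0 ≤ 2 * (1 + (Fintype.card κ : ℝ) * (1 + Real.log ((p : ℝ) + 2))) *
        (Fintype.card κ : ℝ) * ∑ w ∈ B s (p + 2), Q f w := by positivity
  rcases Nat.eq_zero_or_pos (s j) with h0 | hpos
  · refine le_trans (le_of_eq ?_) hC
    refine sum_eq_zero fun v _ => ?_
    split_ifs with hv
    · rw [V_zero f j v (by rw [hv, h0])]
      simp
    · rfl
  · by_cases hp : s j ≤ p
    · have h := PATHW.thm κ f s p j hs hpos hp
      rw [← sum_filter]
      have hsj : (0 : ℝ) < (s j : ℝ) := by exact_mod_cast hpos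
      have e1 : ∑ v ∈ (B s (p + 1)).filter (fun v => v j = s j), (V f j v) ^ 2 / (v j : ℝ) =
          (∑ v ∈ (B s (p + 1)).filter (fun v => v j = s j), (V f j v) ^ 2) / (s j : ℝ) := by
        rw [sum_div]
        refine sum_congr rfl fun v hv => ?_
        rw [(mem_filter.1 hv).2]
      rw [e1, div_le_iff₀ hsj]
      refine h.trans (le_of_eq ?_)
      ring
    · refine le_trans (le_of_eq ?_) hC
      refine sum_eq_zero fun v hv => ?_
      split_ifs with hvj
      · rw [V_corner f j v]
        · simp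
        · have := (ROW.mem_B.1 hv).2
          omega
      · rfl

end slice

section full
variable {ι : Type u} [Fintype ι] [DecidableEq ι] {κ : Type v} [Fintype κ] [DecidableEq κ]

theorem E_apply (k : ι) (j : κ) (i : ι) (a : κ) :
    E k j i a = if i = k ∧ a = j then 1 else 0 := by
  unfold E e
  by_cases hi : i = k
  · subst hi
    by_cases ha : a = j
    · subst ha
      simp
    · simp [ha]
  · simp [hi]

theorem E_row (k : ι) (j : κ) (i : ι) : ∑ a, E k j i a = if i = k then 1 else 0 := by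
  simp only [E_apply]
  by_cases hi : i = k
  · simp [hi]
  · simp [hi]

theorem E_col (k : ι) (j : κ) (a : κ) : ∑ i, E k j i a = if a = j then 1 else 0 := by
  simp only [E_apply]
  by_cases ha : a = j
  · simp [ha]
  · simp [ha]

theorem add_mem {r : ι → ℕ} {c : κ → ℕ} {X : ι → κ → ℕ} (hX : X ∈ Om r c) {k : ι} {l : κ}
    (hl : ∑ i, X i l < c l) : X + E k l ∈ Om (r + Pi.single k 1) c := by
  rw [ROW.mem_Om] at hX ⊢
  constructor
  · intro i
    simp only [Pi.add_apply, sum_add_distrib, E_row, hX.1 i, Pi.single_apply]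
  · intro a
    simp only [Pi.add_apply, sum_add_distrib, E_col]
    have h0 := hX.2 a
    by_cases h2 : a = l
    · subst h2
      simp only [if_true]
      omega
    · simp only [if_neg h2]
      omega

theorem QQ_nonneg (F : (ι → κ → ℕ) → ℝ) (k : ι) (Z : ι → κ → ℕ) : 0 ≤ QQ F k Z := by
  have e2 : QQ F k Z = Q (fun x => F (Function.update Z k x)) (Z k) := by
    rw [← ROW.QQ_upd, Function.update_eq_self]
  rw [e2]
  exact SOSW.q0 κ _ _

/-- the summand at the wall, as a function of the table with one more unit -/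
noncomputable def gg (c : κ → ℕ) (F : (ι → κ → ℕ) → ℝ) (k : ι) (j : κ) (W : ι → κ → ℕ) : ℝ :=
  if ∑ i, W i j = c j then (VV F k j W) ^ 2 / (W k j : ℝ) else 0

theorem gg_nonneg (c : κ → ℕ) (F : (ι → κ → ℕ) → ℝ) (k : ι) (j : κ) (W : ι → κ → ℕ) :
    0 ≤ gg c F k j W := by
  unfold gg
  split_ifs
  · positivity
  · exact le_rfl

/-- one row in the full space -/
theorem row (r : ι → ℕ) (c : κ → ℕ) (F : (ι → κ → ℕ) → ℝ) (k : ι) (j : κ)
    (hrc : ∑ i, r i + r k + 1 ≤ ∑ j, c j) :
    ∑ W ∈ Om (r + Pi.single k 1) c, gg c F k j W ≤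
      2 * (1 + (Fintype.card κ : ℝ) * (1 + Real.log ((r k : ℝ) + 2))) *
        (Fintype.card κ : ℝ) * ∑ Z ∈ Om (r + Pi.single k 2) c, QQ F k Z := by
  have e1 : r + Pi.single k 1 = Function.update r k (r k + 1) := by
    funext i
    by_cases h : i = k
    · subst h
      simp
    · simp [h]
  have e2 : r + Pi.single k 2 = Function.update r k (r k + 2) := by
    funext i
    by_cases h : i = k
    · subst h
      simp
    · simp [h]
  rw [e1, e2, ROW.fiber r c k (r k + 1), ROW.fiber r c k (r k + 2), Finset.mul_sum]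
  apply Finset.sum_le_sum
  intro Y hY
  rw [ROW.mem_Om] at hY
  have hYk : ∀ a, Y k a = 0 := by
    intro a
    have h1 := hY.1 k
    rw [Function.update_self] at h1
    exact (Finset.sum_eq_zero_iff.1 h1) a (mem_univ a)
  simp only [ROW.QQ_upd]
  have h1 : ∑ j, (c j - ∑ i, Y i j) + ∑ j, ∑ i, Y i j = ∑ j, c j := by
    rw [← Finset.sum_add_distrib]
    apply Finset.sum_congr rfl
    intro j _
    have := hY.2 j
    omega
  have h2 : ∑ j, ∑ i, Y i j = ∑ i, (Function.update r k 0) i := by
    rw [Finset.sum_comm]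
    exact Finset.sum_congr rfl fun i _ => hY.1 i
  have h3 : ∑ i, (Function.update r k 0) i + r k = ∑ i, r i := by
    rw [← Finset.add_sum_erase univ (Function.update r k 0) (mem_univ k),
      ← Finset.add_sum_erase univ r (mem_univ k), Function.update_self]
    have : ∑ i ∈ univ.erase k, (Function.update r k 0) i = ∑ i ∈ univ.erase k, r i := by
      apply Finset.sum_congr rfl
      intro i hi
      rw [Function.update_of_ne (ne_of_mem_erase hi)]
    rw [this]
    omega
  have hs := slice (fun x => F (Function.update Y k x)) (fun j => c j - ∑ i, Y i j) (r k) j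
    (by omega)
  refine le_trans (le_of_eq ?_) hs
  refine sum_congr rfl fun w _ => ?_
  unfold gg
  rw [ROW.sum_upd Y k w j (hYk j), ROW.VV_upd, Function.update_self]
  have h4 := hY.2 j
  by_cases h5 : w j = c j - ∑ i, Y i j
  · rw [if_pos h5, if_pos (by omega)]
  · rw [if_neg h5, if_neg (by omega)]

/-- FLX -/
theorem thm (r : ι → ℕ) (c : κ → ℕ) (F : (ι → κ → ℕ) → ℝ) (k : ι) (l : (ι → κ → ℕ) → κ)
    (hrc : ∑ i, r i + r k + 1 ≤ ∑ j, c j)
    (hl : ∀ X ∈ Om r c, ∑ i, X i (l X) < c (l X)) :
    ∑ X ∈ Om r c, ∑ j, (if ∑ i, X i j < c j then 0 else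
        VV F k j (X + E k (l X)) ^ 2 / (X k j : ℝ)) ≤
      (2 * (Fintype.card κ : ℝ) ^ 3 *
        (1 + (Fintype.card κ : ℝ) * (1 + Real.log ((r k : ℝ) + 2)))) *
        ∑ Z ∈ Om (r + Pi.single k 2) c, QQ F k Z := by
  set n : ℝ := (Fintype.card κ : ℝ) with hn
  set K : ℝ := 1 + n * (1 + Real.log ((r k : ℝ) + 2)) with hK
  set SZ : ℝ := ∑ Z ∈ Om (r + Pi.single k 2) c, QQ F k Z with hSZ
  -- pointwise comparison
  have hp : ∀ X ∈ Om r c, ∀ j, (if ∑ i, X i j < c j then 0 else
      VV F k j (X + E k (l X)) ^ 2 / (X k j : ℝ)) ≤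
      ∑ a, (if l X = a then gg c F k j (X + E k a) else 0) := by
    intro X hX j
    rw [Finset.sum_ite_eq univ (l X) (fun a => gg c F k j (X + E k a)), if_pos (mem_univ _)]
    split_ifs with hj
    · exact gg_nonneg _ _ _ _ _
    · have hlX := hl X hX
      have hXc := (ROW.mem_Om.1 hX).2 j
      have hne : j ≠ l X := by
        intro h
        rw [← h] at hlX
        exact hj hlX
      have hsum : ∑ i, (X + E k (l X)) i j = c j := by
        simp only [Pi.add_apply, sum_add_distrib, E_col, if_neg hne]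
        omega
      have hkj : (X + E k (l X)) k j = X k j := by
        simp [E_apply, hne]
      unfold gg
      rw [if_pos hsum, hkj]
  have h1 : ∀ j, ∑ X ∈ Om r c, (if ∑ i, X i j < c j then 0 else
      VV F k j (X + E k (l X)) ^ 2 / (X k j : ℝ)) ≤ n * (2 * K * n * SZ) := by
    intro j
    calc ∑ X ∈ Om r c, (if ∑ i, X i j < c j then 0 else
          VV F k j (X + E k (l X)) ^ 2 / (X k j : ℝ))
        ≤ ∑ X ∈ Om r c, ∑ a, (if l X = a then gg c F k j (X + E k a) else 0) :=
          sum_le_sum fun X hX => hp X hX j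
      _ = ∑ a, ∑ X ∈ Om r c, (if l X = a then gg c F k j (X + E k a) else 0) := sum_comm
      _ ≤ ∑ _a : κ, ∑ W ∈ Om (r + Pi.single k 1) c, gg c F k j W := by
          refine sum_le_sum fun a _ => ?_
          rw [← sum_filter]
          have hinj : Set.InjOn (fun X : ι → κ → ℕ => X + E k a)
              ((Om r c).filter (fun X => l X = a) : Finset _) := by
            intro X _ Y _ h
            exact add_right_cancel h
          rw [← sum_image (f := fun W => gg c F k j W) (g := fun X : ι → κ → ℕ => X + E k a) hinj]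
          refine sum_le_sum_of_subset_of_nonneg ?_ fun W _ _ => gg_nonneg _ _ _ _ _
          intro W hW
          rw [mem_image] at hW
          obtain ⟨X, hX, rfl⟩ := hW
          rw [mem_filter] at hX
          have hlX := hl X hX.1
          rw [hX.2] at hlX
          exact add_mem hX.1 hlX
      _ = n * ∑ W ∈ Om (r + Pi.single k 1) c, gg c F k j W := by
          rw [sum_const, card_univ, nsmul_eq_mul]
      _ ≤ n * (2 * K * n * SZ) :=
          mul_le_mul_of_nonneg_left (row r c F k j hrc) (Nat.cast_nonneg _)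
  rw [sum_comm]
  calc _ ≤ ∑ _j : κ, n * (2 * K * n * SZ) := sum_le_sum fun j _ => h1 j
    _ = (2 * n ^ 3 * K) * SZ := by
        rw [sum_const, card_univ, nsmul_eq_mul, ← hn]
        ring

end full

end Vale.P328B.FLX
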