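import Mathlib

/-! # P328, binary margins: matching lemma (helper28)

Given finitely many reals `c k`, there is an antisymmetric `ψ` with `|ψ k l| ≤ min |c k| |c l|` and
`|c k - ∑ l, ψ k l| ≤ |∑ l, c l|`. -/

namespace Vale.P328B.MATCH
open Finset BigOperators

/-- the explicit matching -/
noncomputable def psi {ι : Type*} [Fintype ι] (c : ι → ℝ) (k l : ι) : ℝ :=
  (max (c k) 0 * max (-c l) 0 - max (-c k) 0 * max (c l) 0) /
    max (∑ i, max (c i) 0) (∑ i, max (-c i) 0)

theorem psi_antisymm {ι : Type*} [Fintype ι] (c : ι → ℝ) (k l : ι) :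
    psi c k l = - psi c l k := by
  unfold psi
  rw [← neg_div]
  congr 1
  ring

theorem arith1 (x y M : ℝ) (hM : 0 ≤ M) (h1 : max y 0 ≤ M) (h2 : max (-y) 0 ≤ M) :
    |(max x 0 * max (-y) 0 - max (-x) 0 * max y 0) / M| ≤ |x| := by
  rcases eq_or_lt_of_le hM with h0 | h0
  · rw [← h0, div_zero, abs_zero]
    exact abs_nonneg x
  · rw [abs_div, abs_of_pos h0, div_le_iff₀ h0]
    have hy1 : 0 ≤ max y 0 := le_max_right _ _
    have hy2 : 0 ≤ max (-y) 0 := le_max_right _ _
    rcases le_total 0 x with hx | hx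
    · rw [max_eq_left hx, max_eq_right (by linarith : -x ≤ 0), zero_mul, sub_zero, abs_mul,
        abs_of_nonneg hy2]
      exact mul_le_mul_of_nonneg_left h2 (abs_nonneg x)
    · rw [max_eq_right hx, max_eq_left (by linarith : (0 : ℝ) ≤ -x), zero_mul, zero_sub, abs_neg,
        abs_mul, abs_neg, abs_of_nonneg hy1]
      exact mul_le_mul_of_nonneg_left h1 (abs_nonneg x)

theorem psi_le {ι : Type*} [Fintype ι] (c : ι → ℝ) (k l : ι) : |psi c k l| ≤ |c k| := by
  unfold psi
  have h1 : max (c l) 0 ≤ ∑ i, max (c i) 0 :=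
    Finset.single_le_sum (f := fun i => max (c i) 0) (fun i _ => le_max_right _ _)
      (Finset.mem_univ l)
  have h2 : max (-c l) 0 ≤ ∑ i, max (-c i) 0 :=
    Finset.single_le_sum (f := fun i => max (-c i) 0) (fun i _ => le_max_right _ _)
      (Finset.mem_univ l)
  refine arith1 (c k) (c l) _ ?_ ?_ ?_
  · exact le_trans (le_trans (le_max_right _ _) h1) (le_max_left _ _)
  · exact le_trans h1 (le_max_left _ _)
  · exact le_trans h2 (le_max_right _ _)

theorem arith2 (x A B : ℝ) (hA : max x 0 ≤ A) (hB : max (-x) 0 ≤ B) :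
    |x - (max x 0 * B - max (-x) 0 * A) / max A B| ≤ |A - B| := by
  have hA0 : 0 ≤ A := le_trans (le_max_right _ _) hA
  have hB0 : 0 ≤ B := le_trans (le_max_right _ _) hB
  have hx : x = max x 0 - max (-x) 0 := by
    rcases le_total 0 x with h | h
    · rw [max_eq_left h, max_eq_right (by linarith : -x ≤ 0), sub_zero]
    · rw [max_eq_right h, max_eq_left (by linarith : (0 : ℝ) ≤ -x)]
      ring
  have hp : 0 ≤ max x 0 := le_max_right _ _
  have hn : 0 ≤ max (-x) 0 := le_max_right _ _
  generalize max x 0 = p at *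
  generalize max (-x) 0 = q at *
  rcases le_total B A with hBA | hAB
  · rw [max_eq_left hBA, abs_of_nonneg (by linarith : 0 ≤ A - B)]
    rcases eq_or_lt_of_le hA0 with h0 | h0
    · have hp0 : p = 0 := le_antisymm (by linarith) hp
      have hq0 : q = 0 := le_antisymm (by linarith) hn
      rw [hx, hp0, hq0, ← h0]
      simp
      linarith
    · have he : x - (p * B - q * A) / A = p * (A - B) / A := by
        rw [hx]
        field_simp
        ring
      rw [he, abs_of_nonneg (div_nonneg (mul_nonneg hp (by linarith)) hA0), div_le_iff₀ h0]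
      nlinarith
  · rw [max_eq_right hAB, abs_of_nonpos (by linarith : A - B ≤ 0)]
    rcases eq_or_lt_of_le hB0 with h0 | h0
    · have hp0 : p = 0 := le_antisymm (by linarith) hp
      have hq0 : q = 0 := le_antisymm (by linarith) hn
      rw [hx, hp0, hq0, ← h0]
      simp
      linarith
    · have he : x - (p * B - q * A) / B = - (q * (B - A) / B) := by
        rw [hx]
        field_simp
        ring
      rw [he, abs_neg, abs_of_nonneg (div_nonneg (mul_nonneg hn (by linarith)) hB0),
        div_le_iff₀ h0]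
      nlinarith

theorem sum_pos_sub_neg {ι : Type*} [Fintype ι] (c : ι → ℝ) :
    (∑ i, max (c i) 0) - (∑ i, max (-c i) 0) = ∑ i, c i := by
  rw [← Finset.sum_sub_distrib]
  refine Finset.sum_congr rfl fun i _ => ?_
  rcases le_total 0 (c i) with h | h
  · rw [max_eq_left h, max_eq_right (by linarith : -c i ≤ 0), sub_zero]
  · rw [max_eq_right h, max_eq_left (by linarith : (0 : ℝ) ≤ -c i)]
    ring

theorem psi_rem {ι : Type*} [Fintype ι] (c : ι → ℝ) (k : ι) :
    |c k - ∑ l, psi c k l| ≤ |∑ l, c l| := by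
  have hs : ∑ l, psi c k l = (max (c k) 0 * (∑ i, max (-c i) 0) -
      max (-c k) 0 * (∑ i, max (c i) 0)) / max (∑ i, max (c i) 0) (∑ i, max (-c i) 0) := by
    unfold psi
    rw [← Finset.sum_div, Finset.sum_sub_distrib, ← Finset.mul_sum, ← Finset.mul_sum]
  rw [hs, ← sum_pos_sub_neg c]
  refine arith2 (c k) _ _ ?_ ?_
  · exact Finset.single_le_sum (f := fun i => max (c i) 0) (fun i _ => le_max_right _ _)
      (Finset.mem_univ k)
  · exact Finset.single_le_sum (f := fun i => max (-c i) 0) (fun i _ => le_max_right _ _)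
      (Finset.mem_univ k)

theorem thm {ι : Type*} [Fintype ι] (c : ι → ℝ) :
    ∃ ψ : ι → ι → ℝ, (∀ k l, ψ k l = - ψ l k) ∧ (∀ k l, |ψ k l| ≤ |c k|) ∧
      (∀ k l, |ψ k l| ≤ |c l|) ∧ ∀ k, |c k - ∑ l, ψ k l| ≤ |∑ l, c l| := by
  refine ⟨psi c, psi_antisymm c, psi_le c, fun k l => ?_, psi_rem c⟩
  rw [psi_antisymm, abs_neg]
  exact psi_le c l k

end Vale.P328B.MATCH
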