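import Vale.Agent.P328.B.DualDefs
import Vale.Agent.P328.U.POI

/-!
# P328, binary margins, module POIB (helper3): from the decomposition (ASM1) to the Poincare
inequality for the row-pair resampling
-/

namespace Vale.P328B.POIB
open Finset BigOperators Vale.P328U

universe u v

theorem thm (K : ℕ → ℕ → ℕ → ℝ) (hK : ∀ a b R, 0 ≤ K a b R) (hASM : StmtASM1.{u, v} K)
    (hDIR : StmtDIR.{u, v}) (hCON : StmtCON.{u, v}) : StmtPOIB.{u, v} K := by
  intro ι _ _ κ _ _ r c R F hR hc hlt hF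
  obtain ⟨G, hG⟩ := POI.solv hDIR hCON r c F hlt hF
  obtain ⟨g, hg1, hg2, hg3⟩ := hASM ι κ r c R F G hR hc hlt hG
  exact DUALA.dual_le r c F g _ (hK _ _ _) hg1 hg2 hg3

end Vale.P328B.POIB
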