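import Vale.Agent.P328.U.POI
import Vale.Agent.P328.U.ROW
import Vale.Agent.P328.B.MATCH
import Vale.Agent.P328.B.REG
import Vale.Agent.P328.B.FLX
import Vale.Agent.P328.B.DualDefs
import Vale.Agent.P328.B.POIB
import Vale.Agent.P328.Bin.SMEAR
import Vale.Agent.P328.U.DIR
import Vale.Agent.P328.U.BOC
import Vale.Agent.P328.U.CRS
import Vale.Agent.P328.U.CONN

/-! # P328, binary margins: the decomposition `f = ∑ g k` with `g k` of mean zero on the `k`-fibres
(helper8), after helper25's proof. -/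

namespace Vale.P328B.ASM1
open Finset BigOperators Vale.P328U

universe u v

section
variable {ι : Type u} [Fintype ι] [DecidableEq ι] {κ : Type v} [Fintype κ] [DecidableEq κ]

/-- mean zero on all `k`-fibres -/
def MZ (r : ι → ℕ) (c : κ → ℕ) (k : ι) (g : (ι → κ → ℕ) → ℝ) : Prop :=
  ∀ Y ∈ Om r c, ∑ X ∈ (Om r c).filter (fun X => ∀ i, i ≠ k → X i = Y i), g X = 0

/-- wall flux of row `k` -/
noncomputable def CK (c : κ → ℕ) (F : (ι → κ → ℕ) → ℝ) (k : ι) (l : (ι → κ → ℕ) → κ)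
    (X : ι → κ → ℕ) : ℝ :=
  ∑ j, if ∑ i, X i j < c j then 0 else VV F k j (X + E k (l X))

/-- `LL` has mean zero on the fibres -/
lemma LL_mz (hDIR : StmtDIR.{u, v}) (r : ι → ℕ) (c : κ → ℕ) (F : (ι → κ → ℕ) → ℝ) (k : ι) :
    MZ r c k (LL c F k) := by
  intro Y _
  have h := (hDIR ι κ r c F (fun X => if ∀ i, i ≠ k → X i = Y i then 1 else 0) k).1
  have h2 : DD r c F (fun X => if ∀ i, i ≠ k → X i = Y i then 1 else 0) k = 0 := by
    unfold DD
    rw [mul_eq_zero]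
    right
    refine sum_eq_zero fun W _ => sum_eq_zero fun j _ => sum_eq_zero fun l _ => ?_
    have h3 : ∀ a : κ, (∀ i, i ≠ k → (W - E k a) i = Y i) ↔ (∀ i, i ≠ k → W i = Y i) := by
      intro a
      refine forall_congr' fun i => forall_congr' fun hi => ?_
      have : (W - E k a) i = W i := by
        funext b
        simp [E, hi]
      rw [this]
    simp only [h3, sub_self, mul_zero]
  rw [h2] at h
  rw [sum_filter]
  have h4 : ∑ X ∈ Om r c, (if ∀ i, i ≠ k → X i = Y i then LL c F k X else 0) =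
      - ∑ X ∈ Om r c, (if ∀ i, i ≠ k → X i = Y i then (1 : ℝ) else 0) * (- LL c F k X) := by
    rw [← sum_neg_distrib]
    refine sum_congr rfl fun X _ => ?_
    split_ifs <;> simp
  rw [h4, h, neg_zero]

lemma MZ_sub {r : ι → ℕ} {c : κ → ℕ} {k : ι} {g h : (ι → κ → ℕ) → ℝ} (hg : MZ r c k g)
    (hh : MZ r c k h) : MZ r c k (fun X => g X - h X) := by
  intro Y hY
  rw [sum_sub_distrib, hg Y hY, hh Y hY, sub_zero]

lemma MZ_smul {r : ι → ℕ} {c : κ → ℕ} {k : ι} {g : (ι → κ → ℕ) → ℝ} (a : ℝ) (hg : MZ r c k g) :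
    MZ r c k (fun X => a * g X) := by
  intro Y hY
  rw [← mul_sum, hg Y hY, mul_zero]

lemma MZ_sum {r : ι → ℕ} {c : κ → ℕ} {k : ι} {g : ι → (ι → κ → ℕ) → ℝ}
    (hg : ∀ l, MZ r c k (g l)) : MZ r c k (fun X => ∑ l, g l X) := by
  intro Y hY
  rw [sum_comm]
  exact sum_eq_zero fun l _ => hg l Y hY

/-- choice of the regular column -/
lemma ex_l (r : ι → ℕ) (c : κ → ℕ) (hlt : ∑ i, r i + 1 ≤ ∑ j, c j) (k : ι) :
    ∃ l : (ι → κ → ℕ) → κ, ∀ X ∈ Om r c, ∑ i, X i (l X) < c (l X) ∧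
      ∀ j, ∑ i, X i j < c j → X k j ≤ X k (l X) := by
  have hne : Nonempty κ := by
    by_contra h
    rw [not_nonempty_iff] at h
    simp at hlt
  have h : ∀ X : ι → κ → ℕ, ∃ a : κ, X ∈ Om r c → ∑ i, X i a < c a ∧
      ∀ j, ∑ i, X i j < c j → X k j ≤ X k a := by
    intro X
    by_cases hX : X ∈ Om r c
    · rw [ROW.mem_Om] at hX
      have hex : (univ.filter fun j => ∑ i, X i j < c j).Nonempty := by
        by_contra hcon
        rw [not_nonempty_iff_eq_empty, filter_eq_empty_iff] at hcon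
        have h1 : ∑ j, c j ≤ ∑ j, ∑ i, X i j :=
          sum_le_sum fun j _ => not_lt.1 (hcon (mem_univ j))
        rw [sum_comm, sum_congr rfl fun i _ => hX.1 i] at h1
        have h2 : (univ.sum r) = ∑ i, r i := rfl
        omega
      obtain ⟨a, ha, hmax⟩ := exists_max_image _ (fun j => X k j) hex
      rw [mem_filter] at ha
      exact ⟨a, fun _ => ⟨ha.2, fun j hj => hmax j (mem_filter.2 ⟨mem_univ j, hj⟩)⟩⟩
    · exact ⟨hne.some, fun h => absurd h hX⟩
  choose l hl using h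
  exact ⟨l, fun X hX => hl X hX⟩

omit [DecidableEq ι] [DecidableEq κ] in
/-- choice of the wall column -/
lemma ex_j [Nonempty κ] (c : κ → ℕ) (k : ι) :
    ∃ l : (ι → κ → ℕ) → κ, ∀ X : ι → κ → ℕ, ∀ j, ¬ (∑ i, X i j < c j) →
      ¬ (∑ i, X i (l X) < c (l X)) ∧ X k j ≤ X k (l X) := by
  have h : ∀ X : ι → κ → ℕ, ∃ a : κ, ∀ j, ¬ (∑ i, X i j < c j) →
      ¬ (∑ i, X i a < c a) ∧ X k j ≤ X k a := by
    intro X
    by_cases hex : (univ.filter fun j => ¬ (∑ i, X i j < c j)).Nonempty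
    · obtain ⟨a, ha, hmax⟩ := exists_max_image _ (fun j => X k j) hex
      rw [mem_filter] at ha
      exact ⟨a, fun j hj => ⟨ha.2, hmax j (mem_filter.2 ⟨mem_univ j, hj⟩)⟩⟩
    · refine ⟨Classical.arbitrary κ, fun j hj => ?_⟩
      exact absurd ⟨j, mem_filter.2 ⟨mem_univ j, hj⟩⟩ hex
  choose l hl using h
  exact ⟨l, hl⟩

/-- if the wall flux does not vanish then the wall column has an entry -/
lemma CK_ne {c : κ → ℕ} {F : (ι → κ → ℕ) → ℝ} {k : ι} {l : (ι → κ → ℕ) → κ}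
    {X : ι → κ → ℕ} (hl : ∑ i, X i (l X) < c (l X)) (h : CK c F k l X ≠ 0) :
    ∃ j, ¬ (∑ i, X i j < c j) ∧ 1 ≤ X k j := by
  unfold CK at h
  obtain ⟨j, _, hj⟩ := exists_ne_zero_of_sum_ne_zero h
  by_cases h1 : ∑ i, X i j < c j
  · simp [h1] at hj
  · rw [if_neg h1] at hj
    refine ⟨j, h1, ?_⟩
    by_contra h2
    have h3 : X k j = 0 := by omega
    have h4 : j ≠ l X := by
      intro h5
      rw [h5] at h1
      exact h1 hl
    apply hj
    unfold VV
    have h6 : (X + E k (l X)) k j = 0 := by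
      simp [E, e, h3, h4]
    rw [h6]
    simp

/-- the flux divided by the wall entry -/
lemma CK_sq {c : κ → ℕ} {F : (ι → κ → ℕ) → ℝ} {k : ι} {l : (ι → κ → ℕ) → κ}
    {X : ι → κ → ℕ} (hl : ∑ i, X i (l X) < c (l X)) (a : κ)
    (ha : ∀ j, ¬ (∑ i, X i j < c j) → X k j ≤ X k a) :
    CK c F k l X ^ 2 * (1 / (X k a : ℝ)) ≤ (Fintype.card κ : ℝ) *
      ∑ j, (if ∑ i, X i j < c j then 0 else VV F k j (X + E k (l X)) ^ 2 / (X k j : ℝ)) := by
  have h1 : CK c F k l X ^ 2 ≤ (Fintype.card κ : ℝ) *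
      ∑ j, (if ∑ i, X i j < c j then 0 else VV F k j (X + E k (l X))) ^ 2 := by
    unfold CK
    have := sq_sum_le_card_mul_sum_sq (s := (univ : Finset κ))
      (f := fun j => (if ∑ i, X i j < c j then 0 else VV F k j (X + E k (l X))))
    rw [card_univ] at this
    exact this
  have h2 : (0 : ℝ) ≤ 1 / (X k a : ℝ) := by positivity
  refine (mul_le_mul_of_nonneg_right h1 h2).trans ?_
  rw [mul_assoc]
  refine mul_le_mul_of_nonneg_left ?_ (Nat.cast_nonneg _)
  rw [sum_mul]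
  refine sum_le_sum fun j _ => ?_
  by_cases hj : ∑ i, X i j < c j
  · simp [hj]
  · rw [if_neg hj, if_neg hj]
    by_cases h3 : X k j = 0
    · have h4 : j ≠ l X := by
        intro h5
        rw [h5] at hj
        exact hj hl
      have h6 : VV F k j (X + E k (l X)) = 0 := by
        unfold VV
        have h6 : (X + E k (l X)) k j = 0 := by
          simp [E, e, h3, h4]
        rw [h6]
        simp
      rw [h6]
      simp
    · rw [div_eq_mul_one_div (VV F k j (X + E k (l X)) ^ 2)]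
      refine mul_le_mul_of_nonneg_left ?_ (sq_nonneg _)
      have h5 : (0 : ℝ) < X k j := by
        have : 0 < X k j := Nat.pos_of_ne_zero h3
        exact_mod_cast this
      exact one_div_le_one_div_of_le h5 (by exact_mod_cast ha j hj)

theorem asm1 (hDIR : StmtDIR.{u, v}) (hBOC : StmtBOC.{u, v})
    (r : ι → ℕ) (c : κ → ℕ) (CS CF : ℝ) (hCS : 0 ≤ CS) (hCF : 0 ≤ CF)
    (hlt : ∑ i, r i + 1 ≤ ∑ j, c j)
    (hREG : ∀ (F : (ι → κ → ℕ) → ℝ) (k : ι) (l : (ι → κ → ℕ) → κ),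
      (∀ X ∈ Om r c, ∑ i, X i (l X) < c (l X) ∧ ∀ j, ∑ i, X i j < c j → X k j ≤ X k (l X)) →
      ∑ X ∈ Om r c, (LL c F k X - CK c F k l X) ^ 2 ≤
        4 * (Fintype.card κ : ℝ) ^ 3 * ∑ Z ∈ Om (r + Pi.single k 2) c, QQ F k Z)
    (hFLX : ∀ (F : (ι → κ → ℕ) → ℝ) (k : ι) (l : (ι → κ → ℕ) → κ),
      (∀ X ∈ Om r c, ∑ i, X i (l X) < c (l X) ∧ ∀ j, ∑ i, X i j < c j → X k j ≤ X k (l X)) →
      ∑ X ∈ Om r c, ∑ j, (if ∑ i, X i j < c j then 0 else
          VV F k j (X + E k (l X)) ^ 2 / (X k j : ℝ)) ≤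
        CF * ∑ Z ∈ Om (r + Pi.single k 2) c, QQ F k Z)
    (hSM : ∀ (k k' : ι), k ≠ k' → ∀ (ψ : (ι → κ → ℕ) → ℝ) (jk jl : (ι → κ → ℕ) → κ),
      (∀ X ∈ Om r c, ψ X ≠ 0 → ∑ i, X i (jk X) = c (jk X) ∧ ∑ i, X i (jl X) = c (jl X) ∧
        1 ≤ X k (jk X) ∧ 1 ≤ X k' (jl X)) →
      ∃ η : (ι → κ → ℕ) → ℝ, MZ r c k η ∧ MZ r c k' η ∧
        ∑ X ∈ Om r c, (η X - ψ X) ^ 2 ≤
          CS * ∑ X ∈ Om r c, ψ X ^ 2 * (1 / (X k (jk X) : ℝ) + 1 / (X k' (jl X) : ℝ)))
    (F f : (ι → κ → ℕ) → ℝ) (hF : ∀ X ∈ Om r c, ∑ k, LL c F k X = f X) :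
    ∃ g : ι → (ι → κ → ℕ) → ℝ, (∀ X ∈ Om r c, ∑ k, g k X = f X) ∧ (∀ k, MZ r c k (g k)) ∧
      ∑ k, ∑ X ∈ Om r c, g k X ^ 2 ≤
        (((Fintype.card ι : ℝ) + 2) * (4 * (Fintype.card κ : ℝ) ^ 3 +
          (Fintype.card ι : ℝ) * ((Fintype.card ι : ℝ) + 1) * (1 + 4 * (Fintype.card κ : ℝ) ^ 3) +
          2 * (Fintype.card ι : ℝ) * (Fintype.card κ : ℝ) * CS * CF)) *
          ∑ X ∈ Om r c, f X ^ 2 := by
  set m : ℝ := (Fintype.card ι : ℝ) with hm
  set n : ℝ := (Fintype.card κ : ℝ) with hn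
  have hm0 : 0 ≤ m := Nat.cast_nonneg _
  have hn0 : 0 ≤ n := Nat.cast_nonneg _
  have hne : Nonempty κ := by
    by_contra h
    rw [not_nonempty_iff] at h
    simp at hlt
  choose lk hlk using ex_l r c hlt
  choose jk hjk using fun k : ι => ex_j (ι := ι) c k
  set C : ι → (ι → κ → ℕ) → ℝ := fun k X => CK c F k (lk k) X with hC
  set R : ι → (ι → κ → ℕ) → ℝ := fun k X => LL c F k X - C k X with hR
  set S : ι → ℝ := fun k => ∑ Z ∈ Om (r + Pi.single k 2) c, QQ F k Z with hS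
  have hSf : ∑ k, S k ≤ ∑ X ∈ Om r c, f X ^ 2 := by
    refine (hBOC ι κ r c F).trans (le_of_eq ?_)
    exact sum_congr rfl fun X hX => by rw [hF X hX]
  have hRk : ∀ k, ∑ X ∈ Om r c, R k X ^ 2 ≤ 4 * n ^ 3 * S k := fun k => hREG F k (lk k) (hlk k)
  have hFk : ∀ k, ∑ X ∈ Om r c, ∑ j, (if ∑ i, X i j < c j then 0 else
          VV F k j (X + E k (lk k X)) ^ 2 / (X k j : ℝ)) ≤ CF * S k :=
    fun k => hFLX F k (lk k) (hlk k)
  have hCk : ∀ k, ∑ X ∈ Om r c, C k X ^ 2 * (1 / (X k (jk k X) : ℝ)) ≤ n * (CF * S k) := by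
    intro k
    refine le_trans ?_ (mul_le_mul_of_nonneg_left (hFk k) hn0)
    rw [mul_sum]
    refine sum_le_sum fun X hX => ?_
    exact CK_sq (hlk k X hX).1 _ fun j hj => (hjk k X j hj).2
  -- matching
  choose ψ hψ1 hψ2 hψ3 hψ4 using fun X : ι → κ → ℕ => MATCH.thm (fun k => C k X)
  have hcond : ∀ k l : ι, ∀ X ∈ Om r c, ψ X k l ≠ 0 →
      ∑ i, X i (jk k X) = c (jk k X) ∧ ∑ i, X i (jk l X) = c (jk l X) ∧
        1 ≤ X k (jk k X) ∧ 1 ≤ X l (jk l X) := by
    have key : ∀ k, ∀ X ∈ Om r c, C k X ≠ 0 → ∑ i, X i (jk k X) = c (jk k X) ∧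
        1 ≤ X k (jk k X) := by
      intro k X hX h
      obtain ⟨j, hj1, hj2⟩ := CK_ne (hlk k X hX).1 h
      obtain ⟨h1, h2⟩ := hjk k X j hj1
      refine ⟨le_antisymm ((ROW.mem_Om.1 hX).2 _) (not_lt.1 h1), le_trans hj2 h2⟩
    intro k l X hX h
    have h1 : C k X ≠ 0 := by
      intro h0
      have := hψ2 X k l
      rw [h0, abs_zero] at this
      exact h (abs_nonpos_iff.1 this)
    have h2 : C l X ≠ 0 := by
      intro h0
      have := hψ3 X k l
      rw [h0, abs_zero] at this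
      exact h (abs_nonpos_iff.1 this)
    exact ⟨(key k X hX h1).1, (key l X hX h2).1, (key k X hX h1).2, (key l X hX h2).2⟩
  -- smearing
  have hη : ∀ k l : ι, ∃ η : (ι → κ → ℕ) → ℝ, MZ r c k η ∧ MZ r c l η ∧
      ∑ X ∈ Om r c, (η X - ψ X k l) ^ 2 ≤ CS * (n * (CF * S k) + n * (CF * S l)) := by
    intro k l
    by_cases hkl : k = l
    · subst hkl
      refine ⟨fun _ => 0, fun Y _ => sum_const_zero, fun Y _ => sum_const_zero, ?_⟩
      have h0 : ∀ X, ψ X k k = 0 := by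
        intro X
        have := hψ1 X k k
        linarith
      have h1 : 0 ≤ n * (CF * S k) := by
        refine le_trans (sum_nonneg fun X _ => ?_) (hCk k)
        positivity
      simp only [h0, sub_zero]
      have h2 : ∑ X ∈ Om r c, (0 : ℝ) ^ 2 = 0 := by simp
      rw [h2]
      exact mul_nonneg hCS (add_nonneg h1 h1)
    · obtain ⟨η, h1, h2, h3⟩ := hSM k l hkl (fun X => ψ X k l) (jk k) (jk l) (hcond k l)
      refine ⟨η, h1, h2, h3.trans (mul_le_mul_of_nonneg_left ?_ hCS)⟩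
      refine le_trans ?_ (add_le_add (hCk k) (hCk l))
      rw [← sum_add_distrib]
      refine sum_le_sum fun X _ => ?_
      rw [mul_add]
      have a1 : ψ X k l ^ 2 ≤ C k X ^ 2 := sq_le_sq.2 (hψ2 X k l)
      have a2 : ψ X k l ^ 2 ≤ C l X ^ 2 := sq_le_sq.2 (hψ3 X k l)
      exact add_le_add (mul_le_mul_of_nonneg_right a1 (by positivity))
        (mul_le_mul_of_nonneg_right a2 (by positivity))
  choose η hη1 hη2 hη3 using hη
  set θ : ι → ι → (ι → κ → ℕ) → ℝ := fun k l X => (1 / 2 : ℝ) * (η k l X - η l k X) with hθ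
  refine ⟨fun k X => LL c F k X - ∑ l, θ k l X, ?_, ?_, ?_⟩
  · intro X hX
    rw [sum_sub_distrib, hF X hX]
    have : ∑ k, ∑ l, θ k l X = 0 := by
      have h1 : ∑ k, ∑ l, θ k l X = ∑ k, ∑ l, θ l k X := sum_comm
      have h2 : ∑ k, ∑ l, θ l k X = - ∑ k, ∑ l, θ k l X := by
        rw [← sum_neg_distrib]
        refine sum_congr rfl fun k _ => ?_
        rw [← sum_neg_distrib]
        refine sum_congr rfl fun l _ => ?_
        simp only [hθ]
        ring
      linarith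
    rw [this, sub_zero]
  · intro k
    refine MZ_sub (LL_mz hDIR r c F k) (MZ_sum fun l => ?_)
    exact MZ_smul (1 / 2) (MZ_sub (hη1 k l) (hη2 l k))
  · -- the bound
    set Ek : ι → (ι → κ → ℕ) → ℝ := fun k X => C k X - ∑ l, ψ X k l with hEk
    have hdec : ∀ k X, LL c F k X - ∑ l, θ k l X =
        R k X + Ek k X + ∑ l, (ψ X k l - θ k l X) := by
      intro k X
      simp only [hR, hEk]
      rw [sum_sub_distrib]
      ring
    have hpt : ∀ k X, (LL c F k X - ∑ l, θ k l X) ^ 2 ≤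
        (m + 2) * (R k X ^ 2 + Ek k X ^ 2 + ∑ l, (ψ X k l - θ k l X) ^ 2) := by
      intro k X
      rw [hdec]
      have h1 : (∑ l, (ψ X k l - θ k l X)) ^ 2 ≤ m * ∑ l, (ψ X k l - θ k l X) ^ 2 := by
        have := sq_sum_le_card_mul_sum_sq (s := (univ : Finset ι))
          (f := fun l => (ψ X k l - θ k l X))
        rw [card_univ] at this
        exact this
      set a := R k X
      set b := Ek k X
      set T := ∑ l, (ψ X k l - θ k l X)
      set U := ∑ l, (ψ X k l - θ k l X) ^ 2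
      have hU : 0 ≤ U := sum_nonneg fun l _ => sq_nonneg _
      rcases eq_or_lt_of_le hm0 with h0 | h0
      · rw [← h0] at h1 ⊢
        have hT : T = 0 := by nlinarith [sq_nonneg T]
        rw [hT]
        nlinarith [sq_nonneg (a - b)]
      · -- (a+b+T)^2 <= (1+1+m)(a^2+b^2+T^2/m)
        have h2 : (a + b + T) ^ 2 ≤ (m + 2) * (a ^ 2 + b ^ 2 + T ^ 2 / m) := by
          have e1 : (m + 2) * (a ^ 2 + b ^ 2 + T ^ 2 / m) - (a + b + T) ^ 2 =
              (a - b) ^ 2 + (m * a - T) ^ 2 / m + (m * b - T) ^ 2 / m := by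
            field_simp
            ring
          have e2 : 0 ≤ (a - b) ^ 2 + (m * a - T) ^ 2 / m + (m * b - T) ^ 2 / m := by positivity
          linarith
        refine h2.trans (mul_le_mul_of_nonneg_left ?_ (by linarith))
        have h3 : T ^ 2 / m ≤ U := by
          rw [div_le_iff₀ h0]
          linarith
        linarith
    have hRtot : ∑ k, ∑ X ∈ Om r c, R k X ^ 2 ≤ 4 * n ^ 3 * ∑ k, S k := by
      rw [mul_sum]
      exact sum_le_sum fun k _ => hRk k
    have hS0 : ∀ k, 0 ≤ 4 * n ^ 3 * S k := fun k =>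
      le_trans (sum_nonneg fun X _ => sq_nonneg _) (hRk k)
    -- the e part
    have hE1 : ∀ X ∈ Om r c, ∀ k, Ek k X ^ 2 ≤ (m + 1) * (f X ^ 2 + ∑ l, R l X ^ 2) := by
      intro X hX k
      have h1 : Ek k X ^ 2 ≤ (∑ l, C l X) ^ 2 := sq_le_sq.2 (hψ4 X k)
      refine h1.trans ?_
      have h2 : ∑ l, C l X = f X - ∑ l, R l X := by
        rw [← hF X hX, ← sum_sub_distrib]
        refine sum_congr rfl fun l _ => ?_
        simp only [hR]
        ring
      rw [h2]
      have h3 : (∑ l, R l X) ^ 2 ≤ m * ∑ l, R l X ^ 2 := by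
        have := sq_sum_le_card_mul_sum_sq (s := (univ : Finset ι)) (f := fun l => R l X)
        rw [card_univ] at this
        exact this
      set a := f X
      set T := ∑ l, R l X
      set U := ∑ l, R l X ^ 2
      have hU : 0 ≤ U := sum_nonneg fun l _ => sq_nonneg _
      rcases eq_or_lt_of_le hm0 with h0 | h0
      · rw [← h0] at h3 ⊢
        have hT : T = 0 := by nlinarith [sq_nonneg T]
        rw [hT]
        nlinarith [sq_nonneg a]
      · have h2 : (a - T) ^ 2 ≤ (m + 1) * (a ^ 2 + T ^ 2 / m) := by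
          have e1 : (m + 1) * (a ^ 2 + T ^ 2 / m) - (a - T) ^ 2 = (m * a + T) ^ 2 / m := by
            field_simp
            ring
          have e2 : 0 ≤ (m * a + T) ^ 2 / m := by positivity
          linarith
        refine h2.trans (mul_le_mul_of_nonneg_left ?_ (by linarith))
        have h3 : T ^ 2 / m ≤ U := by
          rw [div_le_iff₀ h0]
          linarith
        linarith
    have hEtot : ∑ k, ∑ X ∈ Om r c, Ek k X ^ 2 ≤
        m * ((m + 1) * (∑ X ∈ Om r c, f X ^ 2 + ∑ k, ∑ X ∈ Om r c, R k X ^ 2)) := by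
      have h1 : ∀ k, ∑ X ∈ Om r c, Ek k X ^ 2 ≤
          (m + 1) * (∑ X ∈ Om r c, f X ^ 2 + ∑ k, ∑ X ∈ Om r c, R k X ^ 2) := by
        intro k
        refine (sum_le_sum fun X hX => hE1 X hX k).trans (le_of_eq ?_)
        rw [← mul_sum, sum_add_distrib, sum_comm]
      refine (sum_le_sum fun k _ => h1 k).trans (le_of_eq ?_)
      rw [sum_const, card_univ, nsmul_eq_mul]
    -- the smear part
    have hTh : ∀ k l, ∑ X ∈ Om r c, (ψ X k l - θ k l X) ^ 2 ≤
        CS * (n * (CF * S k) + n * (CF * S l)) := by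
      intro k l
      have h1 : ∀ X, (ψ X k l - θ k l X) ^ 2 ≤
          (1 / 2) * (η k l X - ψ X k l) ^ 2 + (1 / 2) * (η l k X - ψ X l k) ^ 2 := by
        intro X
        simp only [hθ]
        rw [hψ1 X l k]
        nlinarith [sq_nonneg ((η k l X - ψ X k l) + (η l k X - -ψ X k l))]
      refine (sum_le_sum fun X _ => h1 X).trans ?_
      rw [sum_add_distrib, ← mul_sum, ← mul_sum]
      have h2 := hη3 k l
      have h3 := hη3 l k
      linarith
    have hTtot : ∑ k, ∑ X ∈ Om r c, ∑ l, (ψ X k l - θ k l X) ^ 2 ≤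
        CS * (n * CF) * (2 * m * ∑ k, S k) := by
      have h1 : ∀ k, ∑ X ∈ Om r c, ∑ l, (ψ X k l - θ k l X) ^ 2 ≤
          CS * (n * CF) * (m * S k + ∑ l, S l) := by
        intro k
        rw [sum_comm]
        refine (sum_le_sum fun l _ => hTh k l).trans (le_of_eq ?_)
        rw [← mul_sum, sum_add_distrib, sum_const, card_univ, nsmul_eq_mul, ← mul_sum, ← mul_sum]
        ring
      refine (sum_le_sum fun k _ => h1 k).trans (le_of_eq ?_)
      rw [← mul_sum, sum_add_distrib, sum_const, card_univ, nsmul_eq_mul, ← mul_sum]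
      ring
    have hSnn : 0 ≤ 4 * n ^ 3 * ∑ k, S k := by
      rw [mul_sum]
      exact sum_nonneg fun k _ => hS0 k
    calc ∑ k, ∑ X ∈ Om r c, (LL c F k X - ∑ l, θ k l X) ^ 2
        ≤ ∑ k, ∑ X ∈ Om r c,
          (m + 2) * (R k X ^ 2 + Ek k X ^ 2 + ∑ l, (ψ X k l - θ k l X) ^ 2) :=
          sum_le_sum fun k _ => sum_le_sum fun X _ => hpt k X
      _ = (m + 2) * (∑ k, ∑ X ∈ Om r c, R k X ^ 2 + ∑ k, ∑ X ∈ Om r c, Ek k X ^ 2 +
          ∑ k, ∑ X ∈ Om r c, ∑ l, (ψ X k l - θ k l X) ^ 2) := by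
          simp only [← mul_sum, sum_add_distrib]
      _ ≤ (m + 2) * (4 * n ^ 3 * ∑ k, S k +
          m * ((m + 1) * (∑ X ∈ Om r c, f X ^ 2 + 4 * n ^ 3 * ∑ k, S k)) +
          CS * (n * CF) * (2 * m * ∑ k, S k)) := by
          refine mul_le_mul_of_nonneg_left ?_ (by linarith)
          refine add_le_add (add_le_add hRtot (hEtot.trans ?_)) hTtot
          refine mul_le_mul_of_nonneg_left ?_ hm0
          refine mul_le_mul_of_nonneg_left ?_ (by linarith)
          linarith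
      _ ≤ (m + 2) * (4 * n ^ 3 * ∑ X ∈ Om r c, f X ^ 2 +
          m * ((m + 1) * (∑ X ∈ Om r c, f X ^ 2 + 4 * n ^ 3 * ∑ X ∈ Om r c, f X ^ 2)) +
          CS * (n * CF) * (2 * m * ∑ X ∈ Om r c, f X ^ 2)) := by
          have p1 : 4 * n ^ 3 * ∑ k, S k ≤ 4 * n ^ 3 * ∑ X ∈ Om r c, f X ^ 2 :=
            mul_le_mul_of_nonneg_left hSf (by positivity)
          refine mul_le_mul_of_nonneg_left ?_ (by linarith)
          refine add_le_add (add_le_add p1 ?_) ?_
          · refine mul_le_mul_of_nonneg_left ?_ hm0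
            refine mul_le_mul_of_nonneg_left ?_ (by linarith)
            linarith
          · refine mul_le_mul_of_nonneg_left ?_ (by positivity)
            exact mul_le_mul_of_nonneg_left hSf (by positivity)
      _ = _ := by ring

end

/-- the constant of the scale-free Poincare inequality: polynomial in the number `a` of rows and the
number `b` of columns, and linear in `log (R + 2)` -/
noncomputable def KB (a b R : ℕ) : ℝ :=
  ((a : ℝ) + 2) * (4 * (b : ℝ) ^ 3 + (a : ℝ) * ((a : ℝ) + 1) * (1 + 4 * (b : ℝ) ^ 3) +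
    2 * (a : ℝ) * (b : ℝ) * (100 * (b : ℝ) ^ 4) *
      (2 * (b : ℝ) ^ 3 * (1 + (b : ℝ) * (1 + Real.log ((R : ℝ) + 2)))))

theorem log_nn (R : ℕ) : 0 ≤ Real.log ((R : ℝ) + 2) := by
  apply Real.log_nonneg
  have : (0 : ℝ) ≤ R := Nat.cast_nonneg R
  linarith

theorem KB_nonneg (a b R : ℕ) : 0 ≤ KB a b R := by
  unfold KB
  have := log_nn R
  positivity

theorem thm : StmtASM1.{u, v} KB := by
  intro ι _ _ κ _ _ r c R f F hR hc hlt hF
  have hlog := log_nn R
  have h := asm1 DIR.thm (BOC.thm CRS.thm) r c (100 * (Fintype.card κ : ℝ) ^ 4)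
    (2 * (Fintype.card κ : ℝ) ^ 3 * (1 + (Fintype.card κ : ℝ) * (1 + Real.log ((R : ℝ) + 2))))
    (by positivity) (by positivity) hlt
    (fun F k l hl => REG.thm r c F k l hl) ?_ ?_ F f hF
  · obtain ⟨g, h1, h2, h3⟩ := h
    refine ⟨g, fun k X hX => h2 k X hX, h1, h3.trans (le_of_eq ?_)⟩
    unfold KB
    ring
  · intro F k l hl
    refine (FLX.thm r c F k l (hc k) fun X hX => (hl X hX).1).trans ?_
    refine mul_le_mul_of_nonneg_right ?_ (sum_nonneg fun Z _ => REG.QQ_nonneg F k Z)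
    refine mul_le_mul_of_nonneg_left ?_ (by positivity)
    have h1 : Real.log ((r k : ℝ) + 2) ≤ Real.log ((R : ℝ) + 2) := by
      apply Real.log_le_log (by positivity)
      have : (r k : ℝ) ≤ R := by exact_mod_cast hR k
      linarith
    have h2 : (0 : ℝ) ≤ (Fintype.card κ : ℝ) := Nat.cast_nonneg _
    nlinarith
  · intro k k' hk ψ jk jl hψ
    refine SMEAR.thm ι κ r c k k' ψ jk jl hk hc ?_
    intro X hX h0
    obtain ⟨h1, h2, h3, h4⟩ := hψ X hX h0
    refine ⟨?_, ?_, h3, h4⟩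
    · unfold hb
      omega
    · unfold hb
      omega

/-- the scale-free Poincare inequality for the row-pair resampling -/
theorem poib : StmtPOIB.{u, v} KB := POIB.thm KB KB_nonneg thm DIR.thm CON.thm

end Vale.P328B.ASM1
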