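import Vale.Agent.P328.B.EndDefs

/-! # P328B, module DPR (helper28): reversibility of the dyadic switches -/

namespace Vale.P328B.DPR
open Finset BigOperators Vale.P328U Vale.P328B

universe u v

set_option linter.unusedSectionVars false

section
variable {ι : Type u} [Fintype ι] [DecidableEq ι] {κ : Type v} [Fintype κ] [DecidableEq κ]

theorem E_apply (k : ι) (j : κ) (i : ι) (a : κ) :
    E k j i a = if i = k ∧ a = j then 1 else 0 := by
  unfold E e
  by_cases hi : i = k
  · subst hi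
    rw [Pi.single_eq_same]
    by_cases ha : a = j
    · subst ha
      simp
    · simp [ha]
  · rw [Pi.single_eq_of_ne hi]
    simp [hi]

theorem sum_row (k : ι) (j : κ) (i : ι) : ∑ a, E k j i a = if i = k then 1 else 0 := by
  simp only [E_apply]
  by_cases hi : i = k
  · subst hi
    simp
  · simp [hi]

theorem sum_col (k : ι) (j : κ) (a : κ) : ∑ i, E k j i a = if a = j then 1 else 0 := by
  simp only [E_apply]
  by_cases ha : a = j
  · subst ha
    simp
  · simp [ha]

theorem mem_Om (r : ι → ℕ) (c : κ → ℕ) (X : ι → κ → ℕ) :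
    X ∈ Om r c ↔ (∀ i, ∑ j, X i j = r i) ∧ ∀ j, ∑ i, X i j ≤ c j := by
  unfold Om
  rw [Finset.mem_filter, Fintype.mem_piFinset]
  constructor
  · rintro ⟨_, h⟩
    exact h
  · intro h
    refine ⟨fun i => ?_, h⟩
    rw [Fintype.mem_piFinset]
    intro j
    rw [Finset.mem_range, Nat.lt_succ_iff]
    refine le_trans ?_ (h.2 j)
    exact Finset.single_le_sum (f := fun i => X i j) (fun _ _ => Nat.zero_le _)
      (Finset.mem_univ i)

/-- admissibility of the switch of `q` units of row `k` from `a` to `b` -/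
def ok (c : κ → ℕ) (q : ℕ) (k : ι) (a b : κ) (X : ι → κ → ℕ) : Prop :=
  a ≠ b ∧ q ≤ X k a ∧ ∑ i, X i b + q ≤ c b

instance (c : κ → ℕ) (q : ℕ) (k : ι) (a b : κ) (X : ι → κ → ℕ) : Decidable (ok c q k a b X) := by
  unfold ok
  infer_instance

/-- the switch -/
def mv (q : ℕ) (k : ι) (a b : κ) (X : ι → κ → ℕ) : ι → κ → ℕ := X + q • E k b - q • E k a

theorem mv_add (q : ℕ) (k : ι) (a b : κ) (X : ι → κ → ℕ) (h : q ≤ X k a) :
    mv q k a b X + q • E k a = X + q • E k b := by
  unfold mv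
  apply tsub_add_cancel_of_le
  intro i j
  simp only [Pi.add_apply, Pi.smul_apply, smul_eq_mul]
  rw [E_apply k a]
  by_cases hij : i = k ∧ j = a
  · rw [if_pos hij, hij.1, hij.2]
    omega
  · rw [if_neg hij]
    omega

theorem row_eq (q : ℕ) (k : ι) (a b : κ) (X : ι → κ → ℕ) (h : q ≤ X k a) (i : ι) :
    ∑ j, mv q k a b X i j = ∑ j, X i j := by
  have h1 : ∑ j, (mv q k a b X + q • E k a) i j = ∑ j, (X + q • E k b) i j := by
    rw [mv_add q k a b X h]
  simp only [Pi.add_apply, Pi.smul_apply, smul_eq_mul, Finset.sum_add_distrib] at h1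
  rw [← Finset.mul_sum, ← Finset.mul_sum, sum_row, sum_row] at h1
  omega

theorem col_eq (q : ℕ) (k : ι) (a b : κ) (X : ι → κ → ℕ) (h : q ≤ X k a) (j : κ) :
    ∑ i, mv q k a b X i j + q * (if j = a then 1 else 0) =
      ∑ i, X i j + q * (if j = b then 1 else 0) := by
  have h1 : ∑ i, (mv q k a b X + q • E k a) i j = ∑ i, (X + q • E k b) i j := by
    rw [mv_add q k a b X h]
  simp only [Pi.add_apply, Pi.smul_apply, smul_eq_mul, Finset.sum_add_distrib] at h1
  rw [← Finset.mul_sum, ← Finset.mul_sum, sum_col, sum_col] at h1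
  exact h1

theorem mv_mem (r : ι → ℕ) (c : κ → ℕ) (q : ℕ) (k : ι) (a b : κ) (X : ι → κ → ℕ)
    (hX : X ∈ Om r c) (h : ok c q k a b X) : mv q k a b X ∈ Om r c := by
  rw [mem_Om] at hX ⊢
  obtain ⟨hab, h1, h2⟩ := h
  constructor
  · intro i
    rw [row_eq q k a b X h1 i]
    exact hX.1 i
  · intro j
    have h3 := col_eq q k a b X h1 j
    have h4 := hX.2 j
    by_cases hjb : j = b
    · rw [hjb] at h3 h4 ⊢
      rw [if_neg (Ne.symm hab), if_pos rfl] at h3
      omega
    · rw [if_neg hjb] at h3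
      omega

theorem mv_ok (c : κ → ℕ) (q : ℕ) (k : ι) (a b : κ) (X : ι → κ → ℕ)
    (hX : ∀ j, ∑ i, X i j ≤ c j) (h : ok c q k a b X) : ok c q k b a (mv q k a b X) := by
  obtain ⟨hab, h1, h2⟩ := h
  refine ⟨Ne.symm hab, ?_, ?_⟩
  · have h3 : (mv q k a b X + q • E k a) k b = (X + q • E k b) k b := by
      rw [mv_add q k a b X h1]
    simp only [Pi.add_apply, Pi.smul_apply, smul_eq_mul] at h3
    rw [E_apply k a, E_apply k b, if_neg (fun hh => hab hh.2.symm), if_pos ⟨rfl, rfl⟩] at h3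
    omega
  · have h3 := col_eq q k a b X h1 a
    rw [if_pos rfl, if_neg hab] at h3
    have h4 := hX a
    omega

theorem mv_mv (q : ℕ) (k : ι) (a b : κ) (X : ι → κ → ℕ) (h : q ≤ X k a)
    (h' : q ≤ mv q k a b X k b) : mv q k b a (mv q k a b X) = X := by
  have h1 := mv_add q k a b X h
  have h2 := mv_add q k b a (mv q k a b X) h'
  rw [h1] at h2
  exact add_right_cancel h2

/-- re-indexing by the reversed switch -/
theorem reidx (r : ι → ℕ) (c : κ → ℕ) (q : ℕ) (k : ι) (a b : κ)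
    (Φ : (ι → κ → ℕ) → (ι → κ → ℕ) → ℝ) :
    ∑ X ∈ Om r c, (if ok c q k a b X then Φ X (mv q k a b X) else 0) =
      ∑ Y ∈ Om r c, (if ok c q k b a Y then Φ (mv q k b a Y) Y else 0) := by
  rw [← Finset.sum_filter, ← Finset.sum_filter]
  refine Finset.sum_bij' (fun X _ => mv q k a b X) (fun Y _ => mv q k b a Y) ?_ ?_ ?_ ?_ ?_
  · intro X hX
    rw [Finset.mem_filter] at hX ⊢
    exact ⟨mv_mem r c q k a b X hX.1 hX.2, mv_ok c q k a b X ((mem_Om r c X).1 hX.1).2 hX.2⟩
  · intro X hX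
    rw [Finset.mem_filter] at hX ⊢
    exact ⟨mv_mem r c q k b a X hX.1 hX.2, mv_ok c q k b a X ((mem_Om r c X).1 hX.1).2 hX.2⟩
  · intro X hX
    rw [Finset.mem_filter] at hX
    have h1 := mv_ok c q k a b X ((mem_Om r c X).1 hX.1).2 hX.2
    exact mv_mv q k a b X hX.2.2.1 h1.2.1
  · intro X hX
    rw [Finset.mem_filter] at hX
    have h1 := mv_ok c q k b a X ((mem_Om r c X).1 hX.1).2 hX.2
    exact mv_mv q k b a X hX.2.2.1 h1.2.1
  · intro X hX
    rw [Finset.mem_filter] at hX
    have h1 := mv_ok c q k a b X ((mem_Om r c X).1 hX.1).2 hX.2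
    change Φ X (mv q k a b X) = Φ (mv q k b a (mv q k a b X)) (mv q k a b X)
    rw [mv_mv q k a b X hX.2.2.1 h1.2.1]

theorem dst_none (c : κ → ℕ) (D : ℕ) (X : ι → κ → ℕ) (a b : κ) (d : Fin (D + 1)) (co : Bool) :
    dst c D X (none, a, b, d, co) = X := rfl

theorem dst_false (c : κ → ℕ) (D : ℕ) (X : ι → κ → ℕ) (k : Option ι) (a b : κ)
    (d : Fin (D + 1)) : dst c D X (k, a, b, d, false) = X := by
  cases k with
  | none => rfl
  | some k =>
    unfold dst
    simp

theorem dst_true (c : κ → ℕ) (D : ℕ) (X : ι → κ → ℕ) (k : ι) (a b : κ) (d : Fin (D + 1)) :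
    dst c D X (some k, a, b, d, true) =
      if ok c (2 ^ (d : ℕ)) k a b X then mv (2 ^ (d : ℕ)) k a b X else X := by
  unfold dst ok mv
  simp

theorem dst_mem (r : ι → ℕ) (c : κ → ℕ) (D : ℕ) (X : ι → κ → ℕ) (hX : X ∈ Om r c)
    (ch : Option ι × κ × κ × Fin (D + 1) × Bool) : dst c D X ch ∈ Om r c := by
  obtain ⟨k, a, b, d, co⟩ := ch
  cases co with
  | false =>
    rw [dst_false]
    exact hX
  | true =>
    cases k with
    | none =>
      rw [dst_none]
      exact hX
    | some k =>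
      rw [dst_true]
      split_ifs with h
      · exact mv_mem r c _ k a b X hX h
      · exact hX

/-- pair version, elementary form -/
theorem pair_ok (r : ι → ℕ) (c : κ → ℕ) (q : ℕ) (k : ι) (a b : κ) (F G : (ι → κ → ℕ) → ℝ) :
    ∑ X ∈ Om r c, (if ok c q k a b X then G X * (F (mv q k a b X) - F X) else 0) +
      ∑ X ∈ Om r c, (if ok c q k b a X then G X * (F (mv q k b a X) - F X) else 0) =
    -(1 / 2) * (∑ X ∈ Om r c, (if ok c q k a b X then
        (G (mv q k a b X) - G X) * (F (mv q k a b X) - F X) else 0) +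
      ∑ X ∈ Om r c, (if ok c q k b a X then
        (G (mv q k b a X) - G X) * (F (mv q k b a X) - F X) else 0)) := by
  have h1 := reidx r c q k b a (fun X Y => G X * (F Y - F X))
  have h2 := reidx r c q k b a (fun X Y => (G Y - G X) * (F Y - F X))
  rw [h1, h2, ← Finset.sum_add_distrib, ← Finset.sum_add_distrib, Finset.mul_sum]
  refine Finset.sum_congr rfl fun X _ => ?_
  split_ifs
  · ring
  · ring

/-- pair version, Green form -/
theorem green_ok (r : ι → ℕ) (c : κ → ℕ) (q : ℕ) (k : ι) (a b : κ) (F G : (ι → κ → ℕ) → ℝ) :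
    ∑ X ∈ Om r c, (if ok c q k a b X then G X * (F (mv q k a b X) - F X) else 0) +
      ∑ X ∈ Om r c, (if ok c q k b a X then G X * (F (mv q k b a X) - F X) else 0) =
    - ∑ X ∈ Om r c, (if ok c q k a b X then
        (F (mv q k a b X) - F X) * (G (mv q k a b X) - G X) else 0) := by
  have h1 := reidx r c q k b a (fun X Y => G X * (F Y - F X))
  rw [h1, ← Finset.sum_add_distrib, ← Finset.sum_neg_distrib]
  refine Finset.sum_congr rfl fun X _ => ?_
  split_ifs
  · ring
  · ring

theorem ite_form (c : κ → ℕ) (D : ℕ) (X : ι → κ → ℕ) (k : ι) (a b : κ) (d : Fin (D + 1))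
    (Φ : (ι → κ → ℕ) → ℝ) (h0 : Φ X = 0) :
    Φ (dst c D X (some k, a, b, d, true)) =
      if ok c (2 ^ (d : ℕ)) k a b X then Φ (mv (2 ^ (d : ℕ)) k a b X) else 0 := by
  rw [dst_true]
  split_ifs
  · rfl
  · exact h0

/-- pair version -/
theorem pair (r : ι → ℕ) (c : κ → ℕ) (D : ℕ) (k : Option ι) (a b : κ) (d : Fin (D + 1))
    (co : Bool) (F G : (ι → κ → ℕ) → ℝ) :
    ∑ X ∈ Om r c, G X * (F (dst c D X (k, a, b, d, co)) - F X) +
      ∑ X ∈ Om r c, G X * (F (dst c D X (k, b, a, d, co)) - F X) =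
    -(1 / 2) * (∑ X ∈ Om r c, (G (dst c D X (k, a, b, d, co)) - G X) *
        (F (dst c D X (k, a, b, d, co)) - F X) +
      ∑ X ∈ Om r c, (G (dst c D X (k, b, a, d, co)) - G X) *
        (F (dst c D X (k, b, a, d, co)) - F X)) := by
  cases co with
  | false =>
    simp only [dst_false, sub_self, mul_zero, Finset.sum_const_zero, add_zero]
  | true =>
    cases k with
    | none =>
      simp only [dst_none, sub_self, mul_zero, Finset.sum_const_zero, add_zero]
    | some k =>
      have h1 : ∀ a b : κ, ∑ X ∈ Om r c, G X * (F (dst c D X (some k, a, b, d, true)) - F X) =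
          ∑ X ∈ Om r c, (if ok c (2 ^ (d : ℕ)) k a b X then
            G X * (F (mv (2 ^ (d : ℕ)) k a b X) - F X) else 0) := by
        intro a b
        refine Finset.sum_congr rfl fun X _ => ?_
        exact ite_form c D X k a b d (fun Y => G X * (F Y - F X)) (by simp)
      have h2 : ∀ a b : κ, ∑ X ∈ Om r c, (G (dst c D X (some k, a, b, d, true)) - G X) *
            (F (dst c D X (some k, a, b, d, true)) - F X) =
          ∑ X ∈ Om r c, (if ok c (2 ^ (d : ℕ)) k a b X then
            (G (mv (2 ^ (d : ℕ)) k a b X) - G X) * (F (mv (2 ^ (d : ℕ)) k a b X) - F X)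
              else 0) := by
        intro a b
        refine Finset.sum_congr rfl fun X _ => ?_
        exact ite_form c D X k a b d (fun Y => (G Y - G X) * (F Y - F X)) (by simp)
      rw [h1, h1, h2, h2]
      exact pair_ok r c _ k a b F G

/-- pair version, Green form -/
theorem green (r : ι → ℕ) (c : κ → ℕ) (D : ℕ) (k : Option ι) (a b : κ) (d : Fin (D + 1))
    (co : Bool) (F G : (ι → κ → ℕ) → ℝ) :
    ∑ X ∈ Om r c, G X * (F (dst c D X (k, a, b, d, co)) - F X) +
      ∑ X ∈ Om r c, G X * (F (dst c D X (k, b, a, d, co)) - F X) =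
    - ∑ X ∈ Om r c, (F (dst c D X (k, a, b, d, co)) - F X) *
        (G (dst c D X (k, a, b, d, co)) - G X) := by
  cases co with
  | false =>
    simp only [dst_false, sub_self, mul_zero, Finset.sum_const_zero, add_zero, neg_zero]
  | true =>
    cases k with
    | none =>
      simp only [dst_none, sub_self, mul_zero, Finset.sum_const_zero, add_zero, neg_zero]
    | some k =>
      have h1 : ∀ a b : κ, ∑ X ∈ Om r c, G X * (F (dst c D X (some k, a, b, d, true)) - F X) =
          ∑ X ∈ Om r c, (if ok c (2 ^ (d : ℕ)) k a b X then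
            G X * (F (mv (2 ^ (d : ℕ)) k a b X) - F X) else 0) := by
        intro a b
        refine Finset.sum_congr rfl fun X _ => ?_
        exact ite_form c D X k a b d (fun Y => G X * (F Y - F X)) (by simp)
      have h2 : ∀ a b : κ, ∑ X ∈ Om r c, (F (dst c D X (some k, a, b, d, true)) - F X) *
            (G (dst c D X (some k, a, b, d, true)) - G X) =
          ∑ X ∈ Om r c, (if ok c (2 ^ (d : ℕ)) k a b X then
            (F (mv (2 ^ (d : ℕ)) k a b X) - F X) * (G (mv (2 ^ (d : ℕ)) k a b X) - G X)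
              else 0) := by
        intro a b
        refine Finset.sum_congr rfl fun X _ => ?_
        exact ite_form c D X k a b d (fun Y => (F Y - F X) * (G Y - G X)) (by simp)
      rw [h1, h1, h2]
      exact green_ok r c _ k a b F G

/-- swapping the two columns of a choice -/
def swp (D : ℕ) : (Option ι × κ × κ × Fin (D + 1) × Bool) ≃
    (Option ι × κ × κ × Fin (D + 1) × Bool) where
  toFun ch := (ch.1, ch.2.2.1, ch.2.1, ch.2.2.2)
  invFun ch := (ch.1, ch.2.2.1, ch.2.1, ch.2.2.2)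
  left_inv _ := rfl
  right_inv _ := rfl

/-- total version -/
theorem total (r : ι → ℕ) (c : κ → ℕ) (D : ℕ) (F G : (ι → κ → ℕ) → ℝ) :
    ∑ ch : Option ι × κ × κ × Fin (D + 1) × Bool,
        ∑ X ∈ Om r c, G X * (F (dst c D X ch) - F X) =
      -(1 / 2) * ∑ ch : Option ι × κ × κ × Fin (D + 1) × Bool,
        ∑ X ∈ Om r c, (G (dst c D X ch) - G X) * (F (dst c D X ch) - F X) := by
  have hS : ∑ ch : Option ι × κ × κ × Fin (D + 1) × Bool,
        ∑ X ∈ Om r c, G X * (F (dst c D X (swp D ch)) - F X) =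
      ∑ ch : Option ι × κ × κ × Fin (D + 1) × Bool,
        ∑ X ∈ Om r c, G X * (F (dst c D X ch) - F X) :=
    Equiv.sum_comp (swp D) (fun ch : Option ι × κ × κ × Fin (D + 1) × Bool =>
      ∑ X ∈ Om r c, G X * (F (dst c D X ch) - F X))
  have hQ : ∑ ch : Option ι × κ × κ × Fin (D + 1) × Bool,
        ∑ X ∈ Om r c, (G (dst c D X (swp D ch)) - G X) * (F (dst c D X (swp D ch)) - F X) =
      ∑ ch : Option ι × κ × κ × Fin (D + 1) × Bool,
        ∑ X ∈ Om r c, (G (dst c D X ch) - G X) * (F (dst c D X ch) - F X) :=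
    Equiv.sum_comp (swp D) (fun ch : Option ι × κ × κ × Fin (D + 1) × Bool =>
      ∑ X ∈ Om r c, (G (dst c D X ch) - G X) * (F (dst c D X ch) - F X))
  have hP : ∑ ch : Option ι × κ × κ × Fin (D + 1) × Bool,
        (∑ X ∈ Om r c, G X * (F (dst c D X ch) - F X) +
          ∑ X ∈ Om r c, G X * (F (dst c D X (swp D ch)) - F X)) =
      ∑ ch : Option ι × κ × κ × Fin (D + 1) × Bool, (-(1 / 2) *
        (∑ X ∈ Om r c, (G (dst c D X ch) - G X) * (F (dst c D X ch) - F X) +
          ∑ X ∈ Om r c, (G (dst c D X (swp D ch)) - G X) *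
            (F (dst c D X (swp D ch)) - F X))) := by
    refine Finset.sum_congr rfl fun ch _ => ?_
    obtain ⟨k, a, b, d, co⟩ := ch
    exact pair r c D k a b d co F G
  rw [Finset.sum_add_distrib, ← Finset.mul_sum, Finset.sum_add_distrib, hS, hQ] at hP
  linarith

/-- the dyadic Dirichlet form -/
theorem dyF_eq (r : ι → ℕ) (c : κ → ℕ) (D : ℕ) (F : (ι → κ → ℕ) → ℝ) (k : ι) (a b : κ) :
    ∑ d : Fin (D + 1), ∑ X ∈ Om r c, (F (dst c D X (some k, a, b, d, true)) - F X) ^ 2 =
      dyF r c D F k a b := by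
  unfold dyF
  refine Finset.sum_congr rfl fun d _ => Finset.sum_congr rfl fun X _ => ?_
  have h := ite_form c D X k a b d (fun Y => (F Y - F X) ^ 2) (by simp)
  exact h

/-- the total quadratic form of the chain -/
theorem total_dyF (r : ι → ℕ) (c : κ → ℕ) (D : ℕ) (F : (ι → κ → ℕ) → ℝ) :
    ∑ ch : Option ι × κ × κ × Fin (D + 1) × Bool,
        ∑ X ∈ Om r c, (F (dst c D X ch) - F X) ^ 2 = ∑ k, ∑ a, ∑ b, dyF r c D F k a b := by
  rw [Fintype.sum_prod_type]
  rw [Fintype.sum_option]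
  have h0 : ∑ y : κ × κ × Fin (D + 1) × Bool,
      ∑ X ∈ Om r c, (F (dst c D X ((none : Option ι), y)) - F X) ^ 2 = 0 := by
    refine Finset.sum_eq_zero fun y _ => Finset.sum_eq_zero fun X _ => ?_
    obtain ⟨a, b, d, co⟩ := y
    rw [dst_none, sub_self]
    norm_num
  rw [h0, zero_add]
  refine Finset.sum_congr rfl fun k _ => ?_
  rw [Fintype.sum_prod_type]
  refine Finset.sum_congr rfl fun a _ => ?_
  rw [Fintype.sum_prod_type]
  refine Finset.sum_congr rfl fun b _ => ?_
  rw [Fintype.sum_prod_type, ← dyF_eq]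
  refine Finset.sum_congr rfl fun d _ => ?_
  rw [Fintype.sum_bool]
  have h1 : ∑ X ∈ Om r c, (F (dst c D X (some k, a, b, d, false)) - F X) ^ 2 = 0 := by
    refine Finset.sum_eq_zero fun X _ => ?_
    rw [dst_false, sub_self]
    norm_num
  rw [h1, add_zero]

end

/-- DPR, corrected: the single-choice reversibility of `StmtDPR` is replaced by the pair and the
total versions -/
def StmtDPR2 : Prop :=
  ∀ (ι : Type u) [Fintype ι] [DecidableEq ι] (κ : Type v) [Fintype κ] [DecidableEq κ] [Nonempty κ]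
    (r : ι → ℕ) (c : κ → ℕ) (D : ℕ) (F G : (ι → κ → ℕ) → ℝ),
    (∀ X ∈ Om r c, ∀ ch, dst c D X ch ∈ Om r c) ∧
    (∀ (k : Option ι) (a b : κ) (d : Fin (D + 1)) (co : Bool),
      ∑ X ∈ Om r c, G X * (F (dst c D X (k, a, b, d, co)) - F X) +
        ∑ X ∈ Om r c, G X * (F (dst c D X (k, b, a, d, co)) - F X) =
      -(1 / 2) * (∑ X ∈ Om r c, (G (dst c D X (k, a, b, d, co)) - G X) *
          (F (dst c D X (k, a, b, d, co)) - F X) +
        ∑ X ∈ Om r c, (G (dst c D X (k, b, a, d, co)) - G X) *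
          (F (dst c D X (k, b, a, d, co)) - F X))) ∧
    (∑ ch : Option ι × κ × κ × Fin (D + 1) × Bool,
        ∑ X ∈ Om r c, G X * (F (dst c D X ch) - F X) =
      -(1 / 2) * ∑ ch : Option ι × κ × κ × Fin (D + 1) × Bool,
        ∑ X ∈ Om r c, (G (dst c D X ch) - G X) * (F (dst c D X ch) - F X)) ∧
    (∀ X : ι → κ → ℕ, ∀ ch : Option ι × κ × κ × Fin (D + 1) × Bool, ch.2.2.2.2 = false →
      dst c D X ch = X) ∧
    (∑ ch : Option ι × κ × κ × Fin (D + 1) × Bool,
        ∑ X ∈ Om r c, (F (dst c D X ch) - F X) ^ 2 = ∑ k, ∑ a, ∑ b, dyF r c D F k a b)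

theorem thm2 : StmtDPR2.{u, v} := by
  intro ι _ _ κ _ _ _ r c D F G
  refine ⟨fun X hX ch => dst_mem r c D X hX ch, fun k a b d co => pair r c D k a b d co F G,
    total r c D F G, ?_, total_dyF r c D F⟩
  intro X ch h
  obtain ⟨k, a, b, d, co⟩ := ch
  have h' : co = false := h
  rw [h']
  exact dst_false c D X k a b d

theorem thm : StmtDPR.{u, v} := by
  intro ι _ _ κ _ _ _ r c D F G
  refine ⟨fun X hX ch => dst_mem r c D X hX ch, ?_, ?_⟩
  · intro ch
    obtain ⟨k, a, b, d, co⟩ := ch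
    exact green r c D k a b d co F G
  · intro X ch h
    obtain ⟨k, a, b, d, co⟩ := ch
    have h' : co = false := h
    rw [h']
    exact dst_false c D X k a b d

end Vale.P328B.DPR
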