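import Vale.Agent.P328.B.EndDefs

/-! # P328, binary margins: DYC (helper1), contraction of the dyadic chain -/

namespace Vale.P328B.DYC
open Finset BigOperators Vale.P328U Vale.P328B

universe u v

section abs
variable {α Ch : Type*} [Fintype Ch]

/-- Abstract contraction lemma.  `T` = maps, `rev` = involution on the choices, `co` = coin. -/
theorem contr (Ω : Finset α) (T : Ch → α → α) (rev : Ch → Ch) (hrev : Function.Involutive rev)
    (flip : Ch → Ch) (hflip : Function.Involutive flip) (co : Ch → Bool)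
    (hco : ∀ ch, co (flip ch) = !co ch) (hid : ∀ ch, co ch = false → ∀ X, T ch X = X)
    (hmem : ∀ X ∈ Ω, ∀ ch, T ch X ∈ Ω)
    (hG : ∀ (F G : α → ℝ) (ch : Ch),
      ∑ X ∈ Ω, G X * (F (T ch X) - F X) + ∑ X ∈ Ω, G X * (F (T (rev ch) X) - F X) =
        - ∑ X ∈ Ω, (F (T ch X) - F X) * (G (T ch X) - G X))
    (N : ℝ) (hN : N = (Fintype.card Ch : ℝ)) (hN0 : 0 < N) (F : α → ℝ) (γ : ℝ)
    (hF : ∑ X ∈ Ω, F X = 0)
    (hP : γ * ∑ X ∈ Ω, F X ^ 2 ≤ (1 / (2 * N)) * ∑ ch, ∑ X ∈ Ω, (F (T ch X) - F X) ^ 2) :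
    ∑ X ∈ Ω, (∑ ch, F (T ch X)) / N = 0 ∧
    ∑ X ∈ Ω, ((∑ ch, F (T ch X)) / N) ^ 2 ≤ (1 - γ) * ∑ X ∈ Ω, F X ^ 2 := by
  classical
  -- Green formula for the average
  have hgreen : ∀ G H : α → ℝ, ∑ X ∈ Ω, H X * (∑ ch, (G (T ch X) - G X)) =
      - (1 / 2) * ∑ ch, ∑ X ∈ Ω, (G (T ch X) - G X) * (H (T ch X) - H X) := by
    intro G H
    have h1 : ∑ X ∈ Ω, H X * (∑ ch, (G (T ch X) - G X)) =
        ∑ ch, ∑ X ∈ Ω, H X * (G (T ch X) - G X) := by
      rw [sum_comm]
      exact sum_congr rfl fun X _ => by rw [mul_sum]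
    have h2 : ∑ ch, ∑ X ∈ Ω, H X * (G (T (rev ch) X) - G X) =
        ∑ ch, ∑ X ∈ Ω, H X * (G (T ch X) - G X) :=
      Equiv.sum_comp (Equiv.ofBijective rev hrev.bijective)
        (fun ch => ∑ X ∈ Ω, H X * (G (T ch X) - G X))
    have h3 : ∑ ch, (∑ X ∈ Ω, H X * (G (T ch X) - G X) +
        ∑ X ∈ Ω, H X * (G (T (rev ch) X) - G X)) =
        ∑ ch, (- ∑ X ∈ Ω, (G (T ch X) - G X) * (H (T ch X) - H X)) :=
      sum_congr rfl fun ch _ => hG G H ch
    rw [sum_add_distrib, h2, sum_neg_distrib] at h3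
    rw [h1]
    linarith
  have havg : ∀ X, (∑ ch, F (T ch X)) / N = F X + (∑ ch, (F (T ch X) - F X)) / N := by
    intro X
    rw [sum_sub_distrib, sum_const, card_univ, nsmul_eq_mul, ← hN]
    field_simp
    ring
  -- mean
  have hmean : ∑ X ∈ Ω, (∑ ch, (F (T ch X) - F X)) = 0 := by
    have h := hgreen F (fun _ => 1)
    simp only [one_mul, sub_self, mul_zero, sum_const_zero] at h
    exact h
  -- laziness: ‖PF‖² ≤ ⟨F, PF⟩
  -- S = sum over choices of differences
  set S : α → ℝ := fun X => ∑ ch, (F (T ch X) - F X) with hS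
  have hE : ∑ X ∈ Ω, F X * S X = - (1 / 2) * ∑ ch, ∑ X ∈ Ω, (F (T ch X) - F X) ^ 2 := by
    have h := hgreen F F
    rw [h]
    congr 1
    exact sum_congr rfl fun ch _ => sum_congr rfl fun X _ => by ring
  -- number of moving choices is N / 2
  have hcount : ((univ.filter fun ch : Ch => co ch = true).card : ℝ) = N / 2 := by
    have h1 : (univ.filter fun ch : Ch => co ch = true).card =
        (univ.filter fun ch : Ch => ¬ (co ch = true)).card := by
      refine card_bij (fun ch _ => flip ch) ?_ ?_ ?_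
      · intro ch hch
        rw [mem_filter] at hch ⊢
        refine ⟨mem_univ _, ?_⟩
        rw [hco, hch.2]
        simp
      · intro a _ b _ h
        exact hflip.injective h
      · intro b hb
        rw [mem_filter] at hb
        refine ⟨flip b, ?_, hflip b⟩
        rw [mem_filter]
        refine ⟨mem_univ _, ?_⟩
        rw [hco]
        have := hb.2
        simp only [Bool.not_eq_true] at this
        rw [this]
        rfl
    have h2 := card_filter_add_card_filter_not (s := (univ : Finset Ch))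
      (fun ch : Ch => co ch = true)
    rw [card_univ] at h2
    have h3 : ((univ.filter fun ch : Ch => co ch = true).card : ℝ) +
        ((univ.filter fun ch : Ch => ¬ (co ch = true)).card : ℝ) = N := by
      rw [hN]
      exact_mod_cast h2
    rw [← h1] at h3
    linarith
  -- Cauchy-Schwarz: S² ≤ (N/2) ∑_ch (difference)²
  have hCS : ∀ X, S X ^ 2 ≤ (N / 2) * ∑ ch, (F (T ch X) - F X) ^ 2 := by
    intro X
    have h1 : S X = ∑ ch ∈ univ.filter (fun ch : Ch => co ch = true), (F (T ch X) - F X) := by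
      rw [hS]
      simp only
      rw [sum_filter]
      refine sum_congr rfl fun ch _ => ?_
      by_cases hc : co ch = true
      · rw [if_pos hc]
      · rw [if_neg hc, hid ch (by simpa using hc), sub_self]
    have h2 := sq_sum_le_card_mul_sum_sq
      (s := univ.filter (fun ch : Ch => co ch = true)) (f := fun ch => F (T ch X) - F X)
    rw [← h1, hcount] at h2
    refine h2.trans ?_
    refine mul_le_mul_of_nonneg_left ?_ (by positivity)
    exact sum_le_sum_of_subset_of_nonneg (filter_subset _ _) (fun _ _ _ => sq_nonneg _)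
  have hCS2 : ∑ X ∈ Ω, S X ^ 2 ≤ (N / 2) * ∑ ch, ∑ X ∈ Ω, (F (T ch X) - F X) ^ 2 := by
    calc ∑ X ∈ Ω, S X ^ 2 ≤ ∑ X ∈ Ω, (N / 2) * ∑ ch, (F (T ch X) - F X) ^ 2 :=
          sum_le_sum fun X _ => hCS X
      _ = (N / 2) * ∑ ch, ∑ X ∈ Ω, (F (T ch X) - F X) ^ 2 := by
          rw [← mul_sum, sum_comm]
  constructor
  · rw [sum_congr rfl (fun X _ => havg X), sum_add_distrib, hF, ← sum_div]
    show 0 + (∑ X ∈ Ω, S X) / N = 0
    rw [show ∑ X ∈ Ω, S X = 0 from hmean]
    simp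
  · have h1 : ∑ X ∈ Ω, ((∑ ch, F (T ch X)) / N) ^ 2 =
        ∑ X ∈ Ω, F X ^ 2 + (2 / N) * ∑ X ∈ Ω, F X * S X + (1 / N ^ 2) * ∑ X ∈ Ω, S X ^ 2 := by
      rw [mul_sum, mul_sum, ← sum_add_distrib, ← sum_add_distrib]
      refine sum_congr rfl fun X _ => ?_
      rw [havg X]
      show (F X + S X / N) ^ 2 = _
      field_simp
      ring
    set A : ℝ := ∑ ch, ∑ X ∈ Ω, (F (T ch X) - F X) ^ 2 with hA
    have hA0 : 0 ≤ A := sum_nonneg fun _ _ => sum_nonneg fun _ _ => sq_nonneg _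
    rw [h1, hE]
    have h2 : (1 / N ^ 2) * ∑ X ∈ Ω, S X ^ 2 ≤ (1 / N ^ 2) * ((N / 2) * A) :=
      mul_le_mul_of_nonneg_left hCS2 (by positivity)
    have h3 : (1 / N ^ 2) * ((N / 2) * A) = (1 / (2 * N)) * A := by
      field_simp
    have h4 : (2 / N) * (- (1 / 2) * A) = - (1 / N) * A := by
      field_simp
    have h5 : (1 / N) * A = (1 / (2 * N)) * A + (1 / (2 * N)) * A := by
      field_simp
      ring
    rw [h4]
    rw [h3] at h2
    have h6 : (1 - γ) * ∑ X ∈ Ω, F X ^ 2 = ∑ X ∈ Ω, F X ^ 2 - γ * ∑ X ∈ Ω, F X ^ 2 := by ring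
    rw [h6]
    linarith

end abs

section main
variable {ι : Type u} [Fintype ι] [DecidableEq ι] {κ : Type v} [Fintype κ] [DecidableEq κ]

/-- reversal of a choice -/
def rev (D : ℕ) (ch : Option ι × κ × κ × Fin (D + 1) × Bool) :
    Option ι × κ × κ × Fin (D + 1) × Bool := (ch.1, ch.2.2.1, ch.2.1, ch.2.2.2)

/-- flip the coin -/
def flip (D : ℕ) (ch : Option ι × κ × κ × Fin (D + 1) × Bool) :
    Option ι × κ × κ × Fin (D + 1) × Bool := (ch.1, ch.2.1, ch.2.2.1, ch.2.2.2.1, !ch.2.2.2.2)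

/-- the Dirichlet form of the chain is the dyadic form -/
theorem dirichlet (r : ι → ℕ) (c : κ → ℕ) (D : ℕ) (F : (ι → κ → ℕ) → ℝ) :
    ∑ ch : Option ι × κ × κ × Fin (D + 1) × Bool,
        ∑ X ∈ Om r c, (F (dst c D X ch) - F X) ^ 2 =
      ∑ k, ∑ a, ∑ b, dyF r c D F k a b := by
  rw [Fintype.sum_prod_type]
  rw [Fintype.sum_option]
  have h0 : ∑ y : κ × κ × Fin (D + 1) × Bool,
      ∑ X ∈ Om r c, (F (dst c D X ((none : Option ι), y)) - F X) ^ 2 = 0 := by
    refine sum_eq_zero fun y _ => sum_eq_zero fun X _ => ?_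
    have : dst c D X ((none : Option ι), y) = X := rfl
    rw [this, sub_self]
    simp
  rw [h0, zero_add]
  refine sum_congr rfl fun k _ => ?_
  rw [Fintype.sum_prod_type]
  refine sum_congr rfl fun a _ => ?_
  rw [Fintype.sum_prod_type]
  refine sum_congr rfl fun b _ => ?_
  rw [Fintype.sum_prod_type]
  unfold dyF
  refine sum_congr rfl fun d _ => ?_
  rw [Fintype.sum_bool]
  have hf : ∑ X ∈ Om r c, (F (dst c D X (some k, a, b, d, false)) - F X) ^ 2 = 0 := by
    refine sum_eq_zero fun X _ => ?_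
    have : dst c D X (some k, a, b, d, false) = X := by
      unfold dst
      simp
    rw [this, sub_self]
    simp
  rw [hf, add_zero]
  refine sum_congr rfl fun X _ => ?_
  unfold dst
  simp only [true_and]
  by_cases h : a ≠ b ∧ 2 ^ (d : ℕ) ≤ X k a ∧ ∑ i, X i b + 2 ^ (d : ℕ) ≤ c b
  · rw [if_pos h, if_pos h]
  · rw [if_neg h, if_neg h, sub_self]
    simp

theorem thm (hDPR : StmtDPR.{u, v}) (hFBL : StmtFBL.{u, v}) (hLNX : StmtLNX.{u, v}) :
    StmtDYC.{u, v} := by
  intro ι _ _ κ _ _ _ r c D C F hr hC hPo hF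
  set N : ℝ := (Fintype.card (Option ι × κ × κ × Fin (D + 1) × Bool) : ℝ) with hN
  have hN0 : 0 < N := by
    rw [hN]
    exact_mod_cast Fintype.card_pos
  have hNval : N = ((Fintype.card ι : ℝ) + 1) * (Fintype.card κ : ℝ) ^ 2 * ((D : ℝ) + 1) * 2 := by
    rw [hN]
    simp only [Fintype.card_prod, Fintype.card_option, Fintype.card_fin, Fintype.card_bool]
    push_cast
    ring
  have hkey : ∑ X ∈ Om r c, F X ^ 2 ≤ C * (((D : ℝ) + 1) *
      ∑ ch : Option ι × κ × κ × Fin (D + 1) × Bool,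
        ∑ X ∈ Om r c, (F (dst c D X ch) - F X) ^ 2) := by
    refine (hPo F hF).trans (mul_le_mul_of_nonneg_left ?_ (by linarith))
    rw [dirichlet, mul_sum]
    refine sum_le_sum fun k _ => ?_
    refine (hFBL ι κ r c F k).trans ?_
    rw [mul_sum]
    refine sum_le_sum fun a _ => ?_
    rw [mul_sum]
    refine sum_le_sum fun b _ => ?_
    exact hLNX ι κ r c D F k a b (hr k)
  have hn : (0 : ℝ) < (Fintype.card κ : ℝ) := by exact_mod_cast Fintype.card_pos
  have hD : (0 : ℝ) < (D : ℝ) + 1 := by positivity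
  have hC0 : 0 < C := by linarith
  have hgap : gapd C (Fintype.card ι) (Fintype.card κ) D = 1 / (2 * N * (((D : ℝ) + 1) * C)) := by
    unfold gapd
    rw [hNval]
    congr 1
    ring
  refine contr (Om r c) (fun ch X => dst c D X ch) (rev D) ?_ (flip D) ?_
    (fun ch => ch.2.2.2.2) ?_ ?_ ?_ ?_ N hN hN0 F _ hF ?_
  · intro ch
    rfl
  · intro ch
    unfold flip
    simp
  · intro ch
    rfl
  · intro ch hch X
    exact (hDPR ι κ r c D F F).2.2 X ch hch
  · intro X hX ch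
    exact (hDPR ι κ r c D F F).1 X hX ch
  · intro F' G' ch
    exact (hDPR ι κ r c D F' G').2.1 ch
  · rw [hgap]
    set A : ℝ := ∑ ch : Option ι × κ × κ × Fin (D + 1) × Bool,
        ∑ X ∈ Om r c, (F (dst c D X ch) - F X) ^ 2 with hA
    have h1 : 1 / (2 * N * (((D : ℝ) + 1) * C)) * ∑ X ∈ Om r c, F X ^ 2 ≤
        1 / (2 * N * (((D : ℝ) + 1) * C)) * (C * (((D : ℝ) + 1) * A)) :=
      mul_le_mul_of_nonneg_left hkey (by positivity)
    refine h1.trans (le_of_eq ?_)
    field_simp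

end main

end Vale.P328B.DYC
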