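import Vale.Agent.P328.B.EndDefs
import Vale.Agent.P328.U.ROW

/-!
# P328, binary margins, module FBL: the two-row inequality on the fibres of the table space
-/

namespace Vale.P328B
open Finset BigOperators Vale.P328U

universe u v

namespace FBL

lemma avg_image {α β : Type*} [DecidableEq β] (S : Finset α) (φ : α → β)
    (hφ : Function.Injective φ) (F : β → ℝ) :
    avg (S.image φ) F = avg S (fun x => F (φ x)) := by
  unfold avg
  rw [Finset.sum_image (fun x _ y _ h => hφ h), Finset.card_image_of_injective _ hφ]

section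
variable {ι : Type u} [Fintype ι] [DecidableEq ι] {κ : Type v} [Fintype κ] [DecidableEq κ]

lemma upd_mem {r : ι → ℕ} {c : κ → ℕ} {k : ι} {Y : ι → κ → ℕ}
    (hY : Y ∈ Om (Function.update r k 0) c) (w : κ → ℕ) :
    Function.update Y k w ∈ Om r c ↔ w ∈ B (fun j => c j - ∑ i, Y i j) (r k) := by
  rw [ROW.mem_Om] at hY
  have hYk : ∀ j, Y k j = 0 := by
    intro j
    have h1 := hY.1 k
    rw [Function.update_self] at h1
    exact (Finset.sum_eq_zero_iff.1 h1) j (mem_univ j)
  rw [ROW.mem_Om, ROW.mem_B]
  constructor
  · rintro ⟨h1, h2⟩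
    refine ⟨?_, ?_⟩
    · intro j
      have h3 := h2 j
      rw [ROW.sum_upd Y k w j (hYk j)] at h3
      change w j ≤ c j - ∑ i, Y i j
      omega
    · have := h1 k
      rw [Function.update_self] at this
      exact this
  · rintro ⟨h1, h2⟩
    refine ⟨?_, ?_⟩
    · intro i
      by_cases hi : i = k
      · subst hi
        rw [Function.update_self]
        exact h2
      · rw [Function.update_of_ne hi]
        have := hY.1 i
        rw [Function.update_of_ne hi] at this
        exact this
    · intro j
      rw [ROW.sum_upd Y k w j (hYk j)]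
      have h3 : w j ≤ c j - ∑ i, Y i j := h1 j
      have h4 := hY.2 j
      omega

lemma Fb_eq {r : ι → ℕ} {c : κ → ℕ} {k : ι} {Y : ι → κ → ℕ}
    (hY : Y ∈ Om (Function.update r k 0) c) (w : κ → ℕ) :
    Fb r c k (Function.update Y k w) =
      (B (fun j => c j - ∑ i, Y i j) (r k)).image (fun x => Function.update Y k x) := by
  ext Z
  unfold Fb
  rw [mem_filter, mem_image]
  constructor
  · rintro ⟨hZ, h⟩
    have e1 : Function.update Y k (Z k) = Z := by
      funext i
      by_cases hi : i = k
      · subst hi
        rw [Function.update_self]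
      · rw [Function.update_of_ne hi, h i hi, Function.update_of_ne hi]
    refine ⟨Z k, ?_, e1⟩
    rw [← upd_mem hY, e1]
    exact hZ
  · rintro ⟨x, hx, rfl⟩
    refine ⟨(upd_mem hY x).2 hx, ?_⟩
    intro i hi
    rw [Function.update_of_ne hi, Function.update_of_ne hi]

lemma Ln_eq {r : ι → ℕ} {c : κ → ℕ} {k : ι} {Y : ι → κ → ℕ}
    (hY : Y ∈ Om (Function.update r k 0) c) (a b : κ) (w : κ → ℕ) :
    Ln r c k a b (Function.update Y k w) =
      (LnB (fun j => c j - ∑ i, Y i j) (r k) a b w).image (fun x => Function.update Y k x) := by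
  ext Z
  unfold Ln LnB
  rw [mem_filter, mem_image]
  constructor
  · rintro ⟨hZ, h, h'⟩
    have e1 : Function.update Y k (Z k) = Z := by
      funext i
      by_cases hi : i = k
      · subst hi
        rw [Function.update_self]
      · rw [Function.update_of_ne hi, h i hi, Function.update_of_ne hi]
    refine ⟨Z k, ?_, e1⟩
    rw [mem_filter]
    refine ⟨?_, ?_⟩
    · rw [← upd_mem hY, e1]
      exact hZ
    · intro j ha hb
      have := h' j ha hb
      rw [Function.update_self] at this
      exact this
  · rintro ⟨x, hx, rfl⟩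
    rw [mem_filter] at hx
    refine ⟨(upd_mem hY x).2 hx.1, ?_, ?_⟩
    · intro i hi
      rw [Function.update_of_ne hi, Function.update_of_ne hi]
    · intro j ha hb
      rw [Function.update_self, Function.update_self]
      exact hx.2 j ha hb

end

theorem thm (hT : StmtTWOC.{v}) : StmtFBL.{u, v} := by
  intro ι _ _ κ _ _ r c F k
  have hr : Om r c = Om (Function.update r k (r k)) c := by rw [Function.update_eq_self]
  have inj : ∀ Y : ι → κ → ℕ, Function.Injective (fun x : κ → ℕ => Function.update Y k x) := by
    intro Y x y h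
    have := congrFun h k
    simpa using this
  have key : ∀ g : (ι → κ → ℕ) → ℝ, ∑ W ∈ Om r c, g W =
      ∑ Y ∈ Om (Function.update r k 0) c, ∑ w ∈ B (fun j => c j - ∑ i, Y i j) (r k),
        g (Function.update Y k w) := by
    intro g
    rw [hr]
    exact ROW.fiber r c k (r k) g
  rw [key (fun X => (F X - avg (Fb r c k X) F) ^ 2)]
  have h2 : ∀ a b, ∑ X ∈ Om r c, (F X - avg (Ln r c k a b X) F) ^ 2 =
      ∑ Y ∈ Om (Function.update r k 0) c, ∑ w ∈ B (fun j => c j - ∑ i, Y i j) (r k),
        (F (Function.update Y k w) - avg (Ln r c k a b (Function.update Y k w)) F) ^ 2 := by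
    intro a b
    exact key _
  have h3 : ∑ a, ∑ b, ∑ X ∈ Om r c, (F X - avg (Ln r c k a b X) F) ^ 2 =
      ∑ Y ∈ Om (Function.update r k 0) c, ∑ a, ∑ b,
        ∑ w ∈ B (fun j => c j - ∑ i, Y i j) (r k),
        (F (Function.update Y k w) - avg (Ln r c k a b (Function.update Y k w)) F) ^ 2 := by
    rw [Finset.sum_congr rfl fun a _ => Finset.sum_congr rfl fun b _ => h2 a b]
    rw [Finset.sum_congr rfl fun a _ => Finset.sum_comm]
    exact Finset.sum_comm
  rw [h3]
  apply Finset.sum_le_sum
  intro Y hY
  have h4 := hT κ (fun j => c j - ∑ i, Y i j) (r k) (fun x => F (Function.update Y k x))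
  calc ∑ w ∈ B (fun j => c j - ∑ i, Y i j) (r k),
        (F (Function.update Y k w) - avg (Fb r c k (Function.update Y k w)) F) ^ 2
      = ∑ w ∈ B (fun j => c j - ∑ i, Y i j) (r k), (F (Function.update Y k w) -
          avg (B (fun j => c j - ∑ i, Y i j) (r k)) (fun x => F (Function.update Y k x))) ^ 2 := by
        apply Finset.sum_congr rfl
        intro w _
        rw [Fb_eq hY, avg_image _ _ (inj Y)]
    _ ≤ _ := h4
    _ = _ := by
        apply Finset.sum_congr rfl
        intro a _
        apply Finset.sum_congr rfl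
        intro b _
        apply Finset.sum_congr rfl
        intro w _
        rw [Ln_eq hY, avg_image _ _ (inj Y)]

end FBL

end Vale.P328B
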