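import Vale.Agent.P328.B.EndDefs
import Vale.Agent.P328.U.GEN

/-! # P328, binary margins: module FINB, the sampler (helper5) -/

namespace Vale.P328B.FINB
open Finset BigOperators Vale.P328U Vale.P328B

variable {m n : ℕ}

/-- the numerical estimate: distance after one run -/
lemma delta_le (N D : ℕ) (hm : 1 ≤ m) (hn : 1 ≤ n) (ε C : ℝ) (h0 : 0 < ε)
    (h1 : ε < 1) (hC1 : 1 ≤ C) (M T : ℕ) (hM : M ≤ (N + 2) ^ (m * n))
    (hT : (8 * (m : ℝ) * (n : ℝ) ^ 2 * ((D : ℝ) + 1) ^ 2 * C) *
      (m * n * Real.log (N + 2) + Real.log (8 * m * n / ε)) ≤ T) :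
    Real.sqrt M * Real.sqrt ((1 - gapd C (m - 1) n D) ^ T) ≤ ε / (8 * m * n) := by
  have hm' : (1 : ℝ) ≤ m := by exact_mod_cast hm
  have hn' : (1 : ℝ) ≤ n := by exact_mod_cast hn
  have hN' : (0 : ℝ) ≤ N := Nat.cast_nonneg _
  have hD' : (0 : ℝ) ≤ D := Nat.cast_nonneg _
  have hmm : (((m - 1 : ℕ) : ℝ) + 1) = m := by
    rw [Nat.cast_sub hm]
    push_cast
    ring
  set A : ℝ := 4 * m * (n : ℝ) ^ 2 * ((D : ℝ) + 1) ^ 2 * C with hA
  have hApos : 0 < A := by positivity
  set g := gapd C (m - 1) n D with hg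
  have hgA : g = 1 / A := by
    rw [hg]
    unfold gapd
    rw [hmm]
  have hg0 : 0 < g := by rw [hgA]; positivity
  have hg1 : g ≤ 1 := by
    rw [hgA, div_le_one hApos, hA]
    have b1 : (1 : ℝ) ≤ (n : ℝ) ^ 2 := one_le_pow₀ hn'
    have b2 : (1 : ℝ) ≤ ((D : ℝ) + 1) ^ 2 := one_le_pow₀ (by linarith)
    have c1 : (1 : ℝ) ≤ 4 * m := by linarith
    have c2 := one_le_mul_of_one_le_of_one_le c1 b1
    have c3 := one_le_mul_of_one_le_of_one_le c2 b2
    exact one_le_mul_of_one_le_of_one_le c3 hC1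
  set L := (m : ℝ) * n * Real.log (N + 2) with hL
  set B := Real.log (8 * m * n / ε) with hB
  have hlog0 : 0 ≤ Real.log ((N : ℝ) + 2) := Real.log_nonneg (by linarith)
  have hL0 : 0 ≤ L := by rw [hL]; positivity
  have hB0 : 0 ≤ B := by
    rw [hB]
    apply Real.log_nonneg
    rw [le_div_iff₀ h0]
    nlinarith [one_le_mul_of_one_le_of_one_le hm' hn']
  have hgT : 2 * (L + B) ≤ g * T := by
    have : 2 * A * (L + B) ≤ T := by
      calc 2 * A * (L + B) = (8 * (m : ℝ) * (n : ℝ) ^ 2 * ((D : ℝ) + 1) ^ 2 * C) * (L + B) := by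
            rw [hA]; ring
        _ ≤ T := hT
    calc 2 * (L + B) = (1 / A) * (2 * A * (L + B)) := by field_simp
      _ ≤ g * T := by
          rw [hgA]
          exact mul_le_mul_of_nonneg_left this (by positivity)
  have hpow : (1 - g) ^ T ≤ Real.exp (-(g * T)) := by
    have : 1 - g ≤ Real.exp (-g) := by
      have := Real.add_one_le_exp (-g)
      linarith
    calc (1 - g) ^ T ≤ (Real.exp (-g)) ^ T := pow_le_pow_left₀ (by linarith) this _
      _ = Real.exp (-(g * T)) := by
          rw [← Real.exp_nat_mul]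
          congr 1
          ring
  have hM' : (M : ℝ) ≤ Real.exp L := by
    have : (M : ℝ) ≤ ((N : ℝ) + 2) ^ (m * n) := by exact_mod_cast hM
    refine this.trans (le_of_eq ?_)
    rw [hL, ← Real.exp_log (show (0 : ℝ) < (N : ℝ) + 2 by positivity), ← Real.exp_nat_mul]
    rw [Real.log_exp]
    push_cast
    ring_nf
  rw [← Real.sqrt_mul (Nat.cast_nonneg _)]
  have hprod : (M : ℝ) * (1 - g) ^ T ≤ Real.exp (-(2 * B)) := by
    calc (M : ℝ) * (1 - g) ^ T ≤ Real.exp L * Real.exp (-(g * T)) := by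
          apply mul_le_mul hM' hpow (pow_nonneg (by linarith) _) (Real.exp_pos _).le
      _ = Real.exp (L - g * T) := by rw [← Real.exp_add]; congr 1
      _ ≤ Real.exp (-(2 * B)) := by
          apply Real.exp_le_exp.mpr
          linarith
  calc Real.sqrt ((M : ℝ) * (1 - g) ^ T) ≤ Real.sqrt (Real.exp (-(2 * B))) :=
        Real.sqrt_le_sqrt hprod
    _ = Real.exp (-B) := by
        rw [show -(2 * B) = (-B) + (-B) by ring, Real.exp_add, Real.sqrt_mul_self (Real.exp_pos _).le]
    _ = ε / (8 * m * n) := by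
        rw [hB, Real.exp_neg, Real.exp_log (by positivity)]
        field_simp

theorem thm (hS : StmtSTARB) : StmtFINB := by
  classical
  intro m n N D r c h J ε C K T X₀ hmax hrN hcN hX₀ hε0 hε1 hND hC1 hP hK hT
  have hm : 1 ≤ m := by have := h.2; omega
  have hn : 1 ≤ n := by have := J.2; omega
  have hrk : ∀ k, r k ≤ N := by
    intro k
    rw [← hrN]
    exact Finset.single_le_sum (f := r) (fun _ _ => Nat.zero_le _) (Finset.mem_univ k)
  obtain ⟨hG, -⟩ := ACC.thm m n r c h J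
  have e2 : (r + Pi.single h 1 : Fin m → ℕ) h = r h + 1 := by simp
  have e1 : ∀ k, k ≠ h → (r + Pi.single h 1 : Fin m → ℕ) k = r k := by
    intro k hk
    simp [hk]
  have hX₀' : X₀ + E h J ∈ Tables (r + Pi.single h 1) (c + Pi.single J 1) := by
    have : X₀ + E h J ∈
        ((Tables (r + Pi.single h 1) (c + Pi.single J 1)).filter fun Y => 1 ≤ Y h J) := by
      rw [hG]
      exact Finset.mem_map.mpr ⟨X₀, hX₀, rfl⟩
    exact (Finset.mem_filter.mp this).1
  have hstar := hS m n (r + Pi.single h 1) (c + Pi.single J 1) h D T C (X₀ + E h J) hn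
    (by
      intro k hk
      rw [e1 k hk]
      exact lt_of_le_of_lt (hrk k) hND) hC1 hP hX₀'
  have : Nonempty (Fin m) := ⟨h⟩
  have : Nonempty (Fin n) := ⟨J⟩
  have key := GEN.gen (S := Fin T → Fin m × Fin n × Fin n × Fin (D + 1) × Bool) r c h J
    (fun ω => dyRun h (X₀ + E h J) ω) ε K X₀ hX₀ hε0 hε1 hK
    (hstar.trans (by
      refine delta_le N D hm hn ε C hε0 hε1 hC1 _ T ?_ hT
      apply FIN.card_tables
      intro i
      by_cases hi : i = h
      · rw [hi, e2]
        have := hrk h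
        omega
      · rw [e1 i hi]
        have := hrk i
        omega))
  exact key

end Vale.P328B.FINB
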