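import Vale.Agent.P328.B.EndDefs
import Vale.Agent.P328.B.DualDefs

/-! # P328, binary margins: glue between StmtPOIB and PoinC (helper1) -/

namespace Vale.P328B.GLUE
open Finset BigOperators Vale.P328U Vale.P328B

theorem poinc_mono {ι : Type*} [Fintype ι] [DecidableEq ι] {κ : Type*} [Fintype κ] [DecidableEq κ]
    {r : ι → ℕ} {c : κ → ℕ} {C C' : ℝ} (h : PoinC r c C) (hC : C ≤ C') : PoinC r c C' := by
  intro F hF
  refine (h F hF).trans (mul_le_mul_of_nonneg_right hC ?_)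
  exact sum_nonneg fun _ _ => sum_nonneg fun _ _ => sq_nonneg _

theorem poinc_of (K : ℕ → ℕ → ℕ → ℝ) (hP : StmtPOIB.{0, 0} K) {m n N : ℕ} (r : Fin m → ℕ)
    (c : Fin n → ℕ) (h : Fin m) (J : Fin n) (hmax : ∀ k, r k ≤ r h) (hr : ∑ i, r i = N)
    (hc : ∑ j, c j = N) :
    PoinC (fun k : {k : Fin m // k ≠ h} => (r + Pi.single h 1 : Fin m → ℕ) k.1)
      (c + Pi.single J 1) (K (m - 1) n N) := by
  intro F hF
  have e1 : ∀ k : {k : Fin m // k ≠ h}, (r + Pi.single h 1 : Fin m → ℕ) k.1 = r k.1 := by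
    intro k
    rw [Pi.add_apply, Pi.single_eq_of_ne k.2, add_zero]
  have e2 : ∑ k : {k : Fin m // k ≠ h}, (r + Pi.single h 1 : Fin m → ℕ) k.1 =
      ∑ k : {k : Fin m // k ≠ h}, r k.1 := Fintype.sum_congr _ _ e1
  have e3 : r h + ∑ k : {k : Fin m // k ≠ h}, r k.1 = N := by
    rw [← hr]
    exact (Fintype.sum_eq_add_sum_subtype_ne r h).symm
  have e4 : ∑ j, (c + Pi.single J 1 : Fin n → ℕ) j = N + 1 := by
    simp only [Pi.add_apply]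
    rw [sum_add_distrib, hc]
    congr 1
    rw [Finset.sum_pi_single']
    simp
  have h1 : ∀ k : {k : Fin m // k ≠ h}, (r + Pi.single h 1 : Fin m → ℕ) k.1 ≤ N := by
    intro k
    rw [e1, ← hr]
    exact Finset.single_le_sum (f := r) (fun _ _ => Nat.zero_le _) (Finset.mem_univ k.1)
  have h2 : ∀ k : {k : Fin m // k ≠ h}, ∑ i : {k : Fin m // k ≠ h},
      (r + Pi.single h 1 : Fin m → ℕ) i.1 + (r + Pi.single h 1 : Fin m → ℕ) k.1 + 1 ≤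
      ∑ j, (c + Pi.single J 1 : Fin n → ℕ) j := by
    intro k
    rw [e1, e2, e4]
    have := hmax k.1
    omega
  have h3 : ∑ i : {k : Fin m // k ≠ h}, (r + Pi.single h 1 : Fin m → ℕ) i.1 + 1 ≤
      ∑ j, (c + Pi.single J 1 : Fin n → ℕ) j := by
    rw [e2, e4]
    omega
  have key := hP {k : Fin m // k ≠ h} (Fin n)
    (fun k => (r + Pi.single h 1 : Fin m → ℕ) k.1) (c + Pi.single J 1) N F h1 h2 h3 hF
  have hcι : Fintype.card {k : Fin m // k ≠ h} = m - 1 := by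
    rw [Fintype.card_subtype_compl, Fintype.card_fin, Fintype.card_subtype_eq]
  rw [hcι, Fintype.card_fin] at key
  exact key

/-- the constant of the assembly -/
noncomputable def KB (m' n R : ℕ) : ℝ :=
  ((m' : ℝ) + 2) * (4 * (n : ℝ) ^ 3 + m' * (m' + 1) * (1 + 4 * (n : ℝ) ^ 3) +
    2 * m' * n * (100 * (n : ℝ) ^ 4) *
      (2 * (n : ℝ) ^ 3 * (1 + n * (1 + Real.log ((R : ℝ) + 2)))))

theorem KB_le (m n N : ℕ) (hm : 1 ≤ m) (hn : 1 ≤ n) :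
    KB (m - 1) n N ≤ 2000 * (m : ℝ) ^ 3 * (n : ℝ) ^ 9 * (1 + Real.log ((N : ℝ) + 2)) := by
  unfold KB
  have hm' : (1 : ℝ) ≤ m := by exact_mod_cast hm
  have hn' : (1 : ℝ) ≤ n := by exact_mod_cast hn
  have hmm : (((m - 1 : ℕ) : ℝ)) = m - 1 := by
    rw [Nat.cast_sub hm]
    simp
  rw [hmm]
  have hN : (0 : ℝ) ≤ N := Nat.cast_nonneg _
  obtain ⟨l, hl⟩ : ∃ l, l = Real.log ((N : ℝ) + 2) := ⟨_, rfl⟩
  rw [← hl]
  have hl0 : 0 ≤ l := by
    rw [hl]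
    exact Real.log_nonneg (by linarith)
  obtain ⟨x, hx⟩ : ∃ x : ℝ, x = m := ⟨_, rfl⟩
  obtain ⟨y, hy⟩ : ∃ y : ℝ, y = n := ⟨_, rfl⟩
  rw [← hx, ← hy]
  rw [← hx] at hm'
  rw [← hy] at hn'
  -- factors
  have y3 : (1 : ℝ) ≤ y ^ 3 := one_le_pow₀ hn'
  have y6 : (1 : ℝ) ≤ y ^ 6 := one_le_pow₀ hn'
  have f1 : x - 1 + 2 ≤ 2 * x := by linarith
  have f2 : 4 * y ^ 3 ≤ 4 * (x ^ 2 * y ^ 9 * (1 + l)) := by
    have a1 : (1 : ℝ) ≤ x ^ 2 := one_le_pow₀ hm'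
    have a2 : y ^ 3 ≤ y ^ 9 := pow_le_pow_right₀ hn' (by norm_num)
    have a3 : y ^ 9 ≤ x ^ 2 * y ^ 9 := le_mul_of_one_le_left (by positivity) a1
    have a4 : x ^ 2 * y ^ 9 ≤ x ^ 2 * y ^ 9 * (1 + l) :=
      le_mul_of_one_le_right (by positivity) (by linarith)
    linarith
  have f3 : (x - 1) * (x - 1 + 1) * (1 + 4 * y ^ 3) ≤ 5 * (x ^ 2 * y ^ 9 * (1 + l)) := by
    have a1 : (x - 1) * (x - 1 + 1) ≤ x ^ 2 := by nlinarith
    have a0 : 0 ≤ (x - 1) * (x - 1 + 1) := by nlinarith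
    have a2 : 1 + 4 * y ^ 3 ≤ 5 * y ^ 9 := by
      have b1 : y ^ 3 ≤ y ^ 9 := pow_le_pow_right₀ hn' (by norm_num)
      have b2 : (1 : ℝ) ≤ y ^ 9 := one_le_pow₀ hn'
      linarith
    have a3 : (x - 1) * (x - 1 + 1) * (1 + 4 * y ^ 3) ≤ x ^ 2 * (5 * y ^ 9) :=
      mul_le_mul a1 a2 (by positivity) (by positivity)
    have a4 : x ^ 2 * y ^ 9 ≤ x ^ 2 * y ^ 9 * (1 + l) :=
      le_mul_of_one_le_right (by positivity) (by linarith)
    linarith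
  have f4 : 2 * (x - 1) * y * (100 * y ^ 4) * (2 * y ^ 3 * (1 + y * (1 + l))) ≤
      800 * (x ^ 2 * y ^ 9 * (1 + l)) := by
    have a1 : 1 + y * (1 + l) ≤ 2 * (y * (1 + l)) := by
      have : 1 ≤ y * (1 + l) := by nlinarith
      linarith
    have a2 : x - 1 ≤ x ^ 2 := by nlinarith
    have a3 : 2 * (x - 1) * y * (100 * y ^ 4) * (2 * y ^ 3 * (1 + y * (1 + l))) =
        (x - 1) * (400 * y ^ 8 * (1 + y * (1 + l))) := by ring
    rw [a3]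
    have a4 : 400 * y ^ 8 * (1 + y * (1 + l)) ≤ 400 * y ^ 8 * (2 * (y * (1 + l))) :=
      mul_le_mul_of_nonneg_left a1 (by positivity)
    have a5 : (x - 1) * (400 * y ^ 8 * (1 + y * (1 + l))) ≤
        x ^ 2 * (400 * y ^ 8 * (2 * (y * (1 + l)))) :=
      mul_le_mul a2 a4 (by positivity) (by positivity)
    refine a5.trans (le_of_eq (by ring))
  have hS : 0 ≤ 4 * y ^ 3 + (x - 1) * (x - 1 + 1) * (1 + 4 * y ^ 3) +
      2 * (x - 1) * y * (100 * y ^ 4) * (2 * y ^ 3 * (1 + y * (1 + l))) := by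
    have b1 : 0 ≤ x - 1 := by linarith
    positivity
  have hT : 4 * y ^ 3 + (x - 1) * (x - 1 + 1) * (1 + 4 * y ^ 3) +
      2 * (x - 1) * y * (100 * y ^ 4) * (2 * y ^ 3 * (1 + y * (1 + l))) ≤
      809 * (x ^ 2 * y ^ 9 * (1 + l)) := by linarith
  have hfin := mul_le_mul f1 hT hS (by positivity)
  refine hfin.trans ?_
  have h9 : 0 ≤ x ^ 3 * y ^ 9 * (1 + l) := by positivity
  calc 2 * x * (809 * (x ^ 2 * y ^ 9 * (1 + l))) = 1618 * (x ^ 3 * y ^ 9 * (1 + l)) := by ring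
    _ ≤ 2000 * (x ^ 3 * y ^ 9 * (1 + l)) := by linarith
    _ = _ := by ring

end Vale.P328B.GLUE
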