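import Mathlib
import Vale.Agent.P328.U.Defs

/-! # P328 binary margins: dyadic moves on a line of a two-row slice (helper18) -/

namespace Vale.P328B.DYF
open Finset BigOperators
open Vale.P328U

universe u v

/-! ## the interval inequality -/

/-- telescoping along the binary digits of `d` -/
theorem tele (D : ℕ) (f : ℕ → ℝ) (x d : ℕ) (hd : d < 2 ^ (D + 1)) :
    f (x + d) - f x = ∑ e ∈ range (D + 1),
      (f (x + 2 ^ e * (d / 2 ^ e)) - f (x + 2 ^ (e + 1) * (d / 2 ^ (e + 1)))) := by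
  rw [Finset.sum_range_sub' (fun e => f (x + 2 ^ e * (d / 2 ^ e)))]
  simp [Nat.div_eq_of_lt hd]

theorem step_eq (d e : ℕ) :
    2 ^ e * (d / 2 ^ e) = 2 ^ (e + 1) * (d / 2 ^ (e + 1)) ∨
      2 ^ e * (d / 2 ^ e) = 2 ^ (e + 1) * (d / 2 ^ (e + 1)) + 2 ^ e := by
  have h1 : d / 2 ^ (e + 1) = d / 2 ^ e / 2 := by
    rw [pow_succ, Nat.div_div_eq_div_mul]
  rw [h1, pow_succ]
  set q := d / 2 ^ e
  have h2 := Nat.div_add_mod q 2
  rcases Nat.mod_two_eq_zero_or_one q with h | h
  · left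
    rw [h] at h2
    calc 2 ^ e * q = 2 ^ e * (2 * (q / 2) + 0) := by rw [h2]
      _ = 2 ^ e * 2 * (q / 2) := by ring
  · right
    rw [h] at h2
    calc 2 ^ e * q = 2 ^ e * (2 * (q / 2) + 1) := by rw [h2]
      _ = 2 ^ e * 2 * (q / 2) + 2 ^ e := by ring

/-- local energy at scale `e` -/
noncomputable def g (N : ℕ) (f : ℕ → ℝ) (e : ℕ) : ℝ :=
  ∑ z ∈ range (N - 2 ^ e), (f (z + 2 ^ e) - f z) ^ 2

theorem fixed_d (N D : ℕ) (f : ℕ → ℝ) (d : ℕ) (hdN : d < N) (hd : d < 2 ^ (D + 1)) :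
    ∑ x ∈ range (N - d), (f (x + d) - f x) ^ 2 ≤ ((D : ℝ) + 1) * ∑ e ∈ range (D + 1), g N f e := by
  have h1 : ∀ x ∈ range (N - d), (f (x + d) - f x) ^ 2 ≤ ((D : ℝ) + 1) *
      ∑ e ∈ range (D + 1), (f (x + 2 ^ e * (d / 2 ^ e)) - f (x + 2 ^ (e + 1) * (d / 2 ^ (e + 1)))) ^ 2 := by
    intro x _
    rw [tele D f x d hd]
    have := sq_sum_le_card_mul_sum_sq (s := range (D + 1))
      (f := fun e => (f (x + 2 ^ e * (d / 2 ^ e)) - f (x + 2 ^ (e + 1) * (d / 2 ^ (e + 1)))))
    simpa using this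
  refine (sum_le_sum h1).trans ?_
  rw [← mul_sum, sum_comm]
  refine mul_le_mul_of_nonneg_left ?_ (by positivity)
  refine sum_le_sum fun e _ => ?_
  unfold g
  rcases step_eq d e with h | h
  · simp only [h, sub_self]
    have : (0 : ℝ) ≤ ∑ z ∈ range (N - 2 ^ e), (f (z + 2 ^ e) - f z) ^ 2 :=
      sum_nonneg fun _ _ => sq_nonneg _
    simpa using this
  · simp only [h]
    set a := 2 ^ (e + 1) * (d / 2 ^ (e + 1)) with ha
    have hle : a + 2 ^ e ≤ d := by
      rw [← h]; exact Nat.mul_div_le d (2 ^ e)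
    have h3 : ∑ x ∈ range (N - d), (f (x + (a + 2 ^ e)) - f (x + a)) ^ 2 =
        ∑ z ∈ (range (N - d)).map (addRightEmbedding a), (f (z + 2 ^ e) - f z) ^ 2 := by
      rw [sum_map]
      refine sum_congr rfl fun x _ => ?_
      simp [add_assoc]
    rw [h3]
    refine sum_le_sum_of_subset_of_nonneg ?_ fun _ _ _ => sq_nonneg _
    intro z hz
    rw [mem_map] at hz
    obtain ⟨x, hx, rfl⟩ := hz
    rw [mem_range] at hx ⊢
    simp only [addRightEmbedding_apply]
    omega

/-- the interval inequality -/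
theorem line (N D : ℕ) (f : ℕ → ℝ) (hN : N ≤ 2 ^ (D + 1)) :
    ∑ d ∈ range N, ∑ x ∈ range (N - d), (f (x + d) - f x) ^ 2 ≤
      ((D : ℝ) + 1) * N * ∑ e ∈ range (D + 1), g N f e := by
  calc ∑ d ∈ range N, ∑ x ∈ range (N - d), (f (x + d) - f x) ^ 2
      ≤ ∑ d ∈ range N, ((D : ℝ) + 1) * ∑ e ∈ range (D + 1), g N f e := by
        refine sum_le_sum fun d hd => ?_
        rw [mem_range] at hd
        exact fixed_d N D f d hd (lt_of_lt_of_le hd hN)
    _ = _ := by
        rw [sum_const, card_range, nsmul_eq_mul]; ring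

theorem range_pairs (N : ℕ) (F : ℕ → ℕ → ℝ) :
    ∑ x ∈ range N, ∑ y ∈ range N, (if x ≤ y then F x y else 0) =
      ∑ d ∈ range N, ∑ x ∈ range (N - d), F x (x + d) := by
  have h1 : ∑ d ∈ range N, ∑ x ∈ range (N - d), F x (x + d) =
      ∑ d ∈ range N, ∑ x ∈ range N, if x + d < N then F x (x + d) else 0 := by
    refine sum_congr rfl fun d hd => ?_
    rw [← sum_filter]
    refine sum_congr ?_ fun _ _ => rfl
    ext x
    simp only [mem_range, mem_filter] at *
    omega
  rw [h1]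
  conv_rhs => rw [sum_comm]
  refine sum_congr rfl fun x hx => ?_
  rw [mem_range] at hx
  rw [← sum_filter, ← sum_filter]
  refine sum_nbij' (fun y => y - x) (fun d => x + d) ?_ ?_ ?_ ?_ ?_
  · intro y hy
    rw [mem_filter, mem_range] at hy
    rw [mem_filter, mem_range]
    constructor <;> omega
  · intro d hd
    rw [mem_filter, mem_range] at hd
    rw [mem_filter, mem_range]
    constructor <;> omega
  · intro y hy
    rw [mem_filter, mem_range] at hy
    show x + (y - x) = y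
    omega
  · intro d hd
    show x + d - x = d
    omega
  · intro y hy
    rw [mem_filter, mem_range] at hy
    show F x y = F x (x + (y - x))
    rw [Nat.add_sub_cancel' hy.2]

/-- variance form on `range N` -/
theorem var_range (N D : ℕ) (f : ℕ → ℝ) (hN : N ≤ 2 ^ (D + 1)) :
    ∑ x ∈ range N, (f x - (∑ y ∈ range N, f y) / N) ^ 2 ≤
      ((D : ℝ) + 1) * ∑ e ∈ range (D + 1), g N f e := by
  rcases Nat.eq_zero_or_pos N with rfl | hpos
  · simp only [range_zero, sum_empty]
    refine mul_nonneg (by positivity) (sum_nonneg fun e _ => sum_nonneg fun _ _ => sq_nonneg _)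
  have hNR : (0 : ℝ) < N := by exact_mod_cast hpos
  have hvar : (N : ℝ) * ∑ x ∈ range N, (f x - (∑ y ∈ range N, f y) / N) ^ 2 =
      ∑ d ∈ range N, ∑ x ∈ range (N - d), (f (x + d) - f x) ^ 2 := by
    have h2 : ∑ x ∈ range N, ∑ y ∈ range N, (f y - f x) ^ 2 =
        2 * ∑ d ∈ range N, ∑ x ∈ range (N - d), (f (x + d) - f x) ^ 2 := by
      rw [← range_pairs N (fun x y => (f y - f x) ^ 2)]
      have h3 : ∑ x ∈ range N, ∑ y ∈ range N, (f y - f x) ^ 2 =
          ∑ x ∈ range N, ∑ y ∈ range N, ((if x ≤ y then (f y - f x) ^ 2 else 0) +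
            (if y ≤ x then (f x - f y) ^ 2 else 0)) := by
        refine sum_congr rfl fun x _ => sum_congr rfl fun y _ => ?_
        rcases lt_trichotomy x y with h | h | h
        · simp [h.le, not_le.mpr h]
        · subst h; simp
        · simp only [not_le.mpr h, h.le, if_true, if_false]; ring
      rw [h3]
      simp only [sum_add_distrib]
      rw [sum_comm (f := fun x y => if y ≤ x then (f x - f y) ^ 2 else 0)]
      ring
    have h4 : ∑ x ∈ range N, ∑ y ∈ range N, (f y - f x) ^ 2 =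
        2 * (N : ℝ) * ∑ x ∈ range N, f x ^ 2 - 2 * (∑ x ∈ range N, f x) ^ 2 := by
      have : ∀ x ∈ range N, ∑ y ∈ range N, (f y - f x) ^ 2 =
          ∑ y ∈ range N, f y ^ 2 - 2 * f x * ∑ y ∈ range N, f y + N * f x ^ 2 := by
        intro x _
        simp only [sub_sq, sum_add_distrib, sum_sub_distrib, sum_const, card_range, nsmul_eq_mul,
          mul_sum]
        congr 2
        exact sum_congr rfl fun y _ => by ring
      rw [sum_congr rfl this]
      simp only [sum_add_distrib, sum_sub_distrib, sum_const, card_range, nsmul_eq_mul, ← mul_sum,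
        ← sum_mul]
      ring
    have h5 : (N : ℝ) * ∑ x ∈ range N, (f x - (∑ y ∈ range N, f y) / N) ^ 2 =
        (N : ℝ) * ∑ x ∈ range N, f x ^ 2 - (∑ x ∈ range N, f x) ^ 2 := by
      simp only [sub_sq, sum_add_distrib, sum_sub_distrib, sum_const, card_range, nsmul_eq_mul]
      have h6 : ∑ x ∈ range N, 2 * f x * ((∑ y ∈ range N, f y) / N) =
          2 * (∑ x ∈ range N, f x) ^ 2 / N := by
        rw [← sum_mul, ← mul_sum]
        field_simp
      rw [h6]
      field_simp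
      ring
    rw [h5]
    have := h2.symm.trans h4
    linarith
  have hline := line N D f hN
  rw [← hvar] at hline
  have : (N : ℝ) * ∑ x ∈ range N, (f x - (∑ y ∈ range N, f y) / N) ^ 2 ≤
      (N : ℝ) * (((D : ℝ) + 1) * ∑ e ∈ range (D + 1), g N f e) := by
    calc _ ≤ _ := hline
      _ = _ := by ring
  exact le_of_mul_le_mul_left this hNR

/-- variance form on `Icc a b` -/
theorem var_Icc (a b D : ℕ) (f : ℕ → ℝ) (hN : b + 1 - a ≤ 2 ^ (D + 1)) :
    ∑ x ∈ Icc a b, (f x - (∑ y ∈ Icc a b, f y) / ((Icc a b).card : ℝ)) ^ 2 ≤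
      ((D : ℝ) + 1) * ∑ e ∈ range (D + 1),
        ∑ z ∈ (Icc a b).filter (fun z => z + 2 ^ e ≤ b), (f (z + 2 ^ e) - f z) ^ 2 := by
  have key : ∀ F : ℕ → ℝ, ∑ x ∈ Icc a b, F x = ∑ x ∈ range (b + 1 - a), F (a + x) := by
    intro F
    rw [← Finset.Ico_add_one_right_eq_Icc, Finset.sum_Ico_eq_sum_range]
  have hc : ((Icc a b).card : ℝ) = ((b + 1 - a : ℕ) : ℝ) := by rw [Nat.card_Icc]
  rw [key, key, hc]
  refine (var_range (b + 1 - a) D (fun x => f (a + x)) hN).trans ?_
  refine mul_le_mul_of_nonneg_left ?_ (by positivity)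
  refine sum_le_sum fun e _ => ?_
  unfold g
  rw [sum_filter, key, ← sum_filter]
  refine le_of_eq ?_
  refine sum_congr ?_ fun z _ => by rw [add_assoc]
  ext z
  simp only [mem_range, mem_filter]
  have : 0 < 2 ^ e := by positivity
  omega

/-! ## averaging over the fibres of an equivalence relation -/

theorem fibre_avg {α : Type*} (Bs : Finset α) (R : α → α → Prop) [DecidableRel R]
    (hrefl : ∀ x, R x x) (hsymm : ∀ x y, R x y → R y x) (htrans : ∀ x y z, R x y → R y z → R x z)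
    (h : α → ℝ) :
    ∑ w ∈ Bs, (∑ w' ∈ Bs.filter (R w), h w') / ((Bs.filter (R w)).card : ℝ) = ∑ w ∈ Bs, h w := by
  have h1 : ∀ w ∈ Bs, (∑ w' ∈ Bs.filter (R w), h w') / ((Bs.filter (R w)).card : ℝ) =
      ∑ w' ∈ Bs, if R w w' then h w' / ((Bs.filter (R w')).card : ℝ) else 0 := by
    intro w _
    rw [sum_div, sum_filter]
    refine sum_congr rfl fun w' _ => ?_
    split_ifs with hR
    · have : Bs.filter (R w) = Bs.filter (R w') := by
        refine filter_congr fun y _ => ?_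
        exact ⟨fun hy => htrans _ _ _ (hsymm _ _ hR) hy, fun hy => htrans _ _ _ hR hy⟩
      rw [this]
    · rfl
  rw [sum_congr rfl h1, sum_comm]
  refine sum_congr rfl fun w' hw' => ?_
  rw [← sum_filter]
  have h2 : Bs.filter (fun w => R w w') = Bs.filter (R w') :=
    filter_congr fun y _ => ⟨fun hy => hsymm _ _ hy, fun hy => hsymm _ _ hy⟩
  rw [h2, sum_const, nsmul_eq_mul]
  have hpos : ((Bs.filter (R w')).card : ℝ) ≠ 0 := by
    have : w' ∈ Bs.filter (R w') := mem_filter.mpr ⟨hw', hrefl _⟩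
    exact_mod_cast (card_pos.mpr ⟨w', this⟩).ne'
  field_simp

end Vale.P328B.DYF
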