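import Vale.Agent.P328.B.EndDefs
import Vale.Agent.P328.B.DYF

/-! # P328 binary margins: module INT (helper18) -/

namespace Vale.P328B.INT
open Finset BigOperators
open Vale.P328U Vale.P328B

theorem thm : StmtINT := by
  intro A len D g hlen
  have h1 := DYF.line len D (fun x => g (A + x)) hlen
  rw [← DYF.range_pairs len (fun x y => ((fun x => g (A + x)) y - (fun x => g (A + x)) x) ^ 2)] at h1
  have h2 : ∑ x ∈ range len, ∑ y ∈ range len, (if x < y then (g (A + x) - g (A + y)) ^ 2 else 0) =
      ∑ x ∈ range len, ∑ y ∈ range len,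
        (if x ≤ y then ((fun x => g (A + x)) y - (fun x => g (A + x)) x) ^ 2 else 0) := by
    refine sum_congr rfl fun x _ => sum_congr rfl fun y _ => ?_
    rcases lt_trichotomy x y with h | h | h
    · simp only [h, h.le, if_true]; ring
    · subst h; simp
    · simp [not_lt.mpr h.le, not_le.mpr h]
  rw [h2]
  refine h1.trans (le_of_eq ?_)
  congr 1
  rw [← Fin.sum_univ_eq_sum_range (fun e => DYF.g len (fun x => g (A + x)) e) (D + 1)]
  refine sum_congr rfl fun d _ => ?_
  unfold DYF.g
  rw [← sum_filter]
  refine sum_congr ?_ fun z _ => by rw [add_assoc]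
  ext z
  have : 0 < 2 ^ (d : ℕ) := by positivity
  simp only [mem_range, mem_filter]
  omega

end Vale.P328B.INT
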