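import Vale.Agent.P328.B.EndDefs

/-!
# P328, binary margins: module LNX (helper6)

The Poincare inequality on a line of tables, from the interval lemma.
-/

namespace Vale.P328B.LNX
open Finset BigOperators Vale.P328U Vale.P328B

universe u v

/-! ## finite sums on an interval -/

/-- `n * ∑ (g - mean)^2 = ∑_{x<y} (g x - g y)^2` -/
theorem var_pairs (n : ℕ) (hn : 0 < n) (g : ℕ → ℝ) :
    (n : ℝ) * ∑ x ∈ range n, (g x - (∑ y ∈ range n, g y) / n) ^ 2 =
      ∑ x ∈ range n, ∑ y ∈ range n, (if x < y then (g x - g y) ^ 2 else 0) := by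
  have hn' : (n : ℝ) ≠ 0 := by positivity
  set S1 := ∑ y ∈ range n, g y with hS1
  set S2 := ∑ y ∈ range n, g y ^ 2 with hS2
  have h1 : (n : ℝ) * ∑ x ∈ range n, (g x - S1 / n) ^ 2 = n * S2 - S1 ^ 2 := by
    have : ∑ x ∈ range n, (g x - S1 / n) ^ 2 = S2 - 2 * (S1 / n) * S1 + n * (S1 / n) ^ 2 := by
      rw [hS2, hS1, mul_sum, ← sum_sub_distrib]
      have : (n : ℝ) * ((∑ y ∈ range n, g y) / n) ^ 2 =
          ∑ x ∈ range n, ((∑ y ∈ range n, g y) / (n : ℝ)) ^ 2 := by
        rw [sum_const, card_range, nsmul_eq_mul]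
      rw [this, ← sum_add_distrib]
      refine sum_congr rfl fun x _ => ?_
      ring
    rw [this]
    field_simp
    ring
  have h2 : ∑ x ∈ range n, ∑ y ∈ range n, (g x - g y) ^ 2 = 2 * (n * S2 - S1 ^ 2) := by
    have : ∀ x ∈ range n, ∑ y ∈ range n, (g x - g y) ^ 2 = n * g x ^ 2 - 2 * S1 * g x + S2 := by
      intro x _
      have e1 : ∀ y ∈ range n, (g x - g y) ^ 2 = g x ^ 2 - 2 * g x * g y + g y ^ 2 := by
        intro y _; ring
      rw [sum_congr rfl e1, sum_add_distrib, sum_sub_distrib, sum_const, card_range,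
        nsmul_eq_mul, ← mul_sum]
      ring
    rw [sum_congr rfl this, sum_add_distrib, sum_sub_distrib, ← mul_sum, ← mul_sum, sum_const,
      card_range, nsmul_eq_mul]
    ring
  have h3 : ∑ x ∈ range n, ∑ y ∈ range n, (g x - g y) ^ 2 =
      ∑ x ∈ range n, ∑ y ∈ range n, (if x < y then (g x - g y) ^ 2 else 0) +
      ∑ x ∈ range n, ∑ y ∈ range n, (if y < x then (g y - g x) ^ 2 else 0) := by
    rw [← sum_add_distrib]
    refine sum_congr rfl fun x _ => ?_
    rw [← sum_add_distrib]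
    refine sum_congr rfl fun y _ => ?_
    rcases lt_trichotomy x y with h | h | h
    · rw [if_pos h, if_neg (by omega)]; ring
    · subst h; simp
    · rw [if_neg (by omega), if_pos h]; ring
  have h4 : ∑ x ∈ range n, ∑ y ∈ range n, (if y < x then (g y - g x) ^ 2 else 0) =
      ∑ x ∈ range n, ∑ y ∈ range n, (if x < y then (g x - g y) ^ 2 else 0) := by
    rw [sum_comm]
  rw [h1]
  rw [h4] at h3
  linarith

section
variable {ι : Type u} [Fintype ι] [DecidableEq ι] {κ : Type v} [Fintype κ] [DecidableEq κ]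

theorem mem_Om {r : ι → ℕ} {c : κ → ℕ} {X : ι → κ → ℕ} :
    X ∈ Om r c ↔ (∀ i, ∑ j, X i j = r i) ∧ ∀ j, ∑ i, X i j ≤ c j := by
  unfold Om
  simp only [mem_filter, Fintype.mem_piFinset, mem_range]
  constructor
  · rintro ⟨_, h⟩; exact h
  · rintro ⟨h1, h2⟩
    refine ⟨fun i j => ?_, h1, h2⟩
    have h3 : X i j ≤ ∑ i, X i j :=
      Finset.single_le_sum (f := fun i => X i j) (fun _ _ => Nat.zero_le _) (mem_univ i)
    have h4 := h2 j
    omega

/-- the row `w` with the entries `a`, `b` replaced by `w a + w b - t`, `t` -/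
def lw (w : κ → ℕ) (a b : κ) (t : ℕ) : κ → ℕ :=
  fun j => if j = a then w a + w b - t else if j = b then t else w j

/-- the point with parameter `t` on the line of `X` -/
def lt (X : ι → κ → ℕ) (k : ι) (a b : κ) (t : ℕ) : ι → κ → ℕ :=
  fun i => if i = k then lw (X k) a b t else X i

theorem sum_split (w : κ → ℕ) {a b : κ} (hab : a ≠ b) :
    ∑ j, w j = w a + w b + ∑ j ∈ (univ.erase a).erase b, w j := by
  rw [← Finset.add_sum_erase univ w (mem_univ a),
    ← Finset.add_sum_erase (univ.erase a) w (mem_erase.2 ⟨hab.symm, mem_univ b⟩)]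
  ring

theorem sum_lw (w : κ → ℕ) {a b : κ} (hab : a ≠ b) {t : ℕ} (ht : t ≤ w a + w b) :
    ∑ j, lw w a b t j = ∑ j, w j := by
  rw [sum_split _ hab, sum_split w hab]
  have h1 : lw w a b t a = w a + w b - t := by simp [lw]
  have h2 : lw w a b t b = t := by simp [lw, hab.symm]
  have h3 : ∑ j ∈ (univ.erase a).erase b, lw w a b t j = ∑ j ∈ (univ.erase a).erase b, w j := by
    refine sum_congr rfl fun j hj => ?_
    simp only [mem_erase, mem_univ, and_true] at hj
    simp [lw, hj.1, hj.2]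
  rw [h1, h2, h3]
  omega

/-- column sums of the other rows -/
def RR (X : ι → κ → ℕ) (k : ι) (j : κ) : ℕ := ∑ i ∈ univ.erase k, X i j

theorem col_split (X : ι → κ → ℕ) (k : ι) (j : κ) : ∑ i, X i j = X k j + RR X k j := by
  rw [RR, Finset.add_sum_erase univ (fun i => X i j) (mem_univ k)]

theorem RR_congr {X Y : ι → κ → ℕ} {k : ι} (h : ∀ i, i ≠ k → Y i = X i) (j : κ) :
    RR Y k j = RR X k j := by
  refine sum_congr rfl fun i hi => ?_
  rw [h i (ne_of_mem_erase hi)]

theorem lt_ne {X : ι → κ → ℕ} {k : ι} {a b : κ} {t : ℕ} {i : ι} (h : i ≠ k) :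
    lt X k a b t i = X i := by simp [lt, h]

theorem lt_k {X : ι → κ → ℕ} {k : ι} {a b : κ} {t : ℕ} :
    lt X k a b t k = lw (X k) a b t := by simp [lt]

theorem lt_ka {X : ι → κ → ℕ} {k : ι} {a b : κ} {t : ℕ} :
    lt X k a b t k a = X k a + X k b - t := by simp [lt, lw]

theorem lt_kb {X : ι → κ → ℕ} {k : ι} {a b : κ} (hab : a ≠ b) {t : ℕ} :
    lt X k a b t k b = t := by simp [lt, lw, hab.symm]

theorem lt_kj {X : ι → κ → ℕ} {k : ι} {a b j : κ} (ha : j ≠ a) (hb : j ≠ b) {t : ℕ} :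
    lt X k a b t k j = X k j := by simp [lt, lw, ha, hb]

theorem lt_col {X : ι → κ → ℕ} {k : ι} {a b : κ} {t : ℕ} (j : κ) :
    ∑ i, lt X k a b t i j = lt X k a b t k j + RR X k j := by
  rw [col_split, RR_congr (X := X) fun i hi => lt_ne hi]

theorem lt_mem {r : ι → ℕ} {c : κ → ℕ} {X : ι → κ → ℕ} (hX : X ∈ Om r c) {k : ι} {a b : κ}
    (hab : a ≠ b) {t : ℕ} (h1 : t ≤ X k a + X k b) (h2 : X k a + X k b + RR X k a ≤ c a + t)
    (h3 : t + RR X k b ≤ c b) : lt X k a b t ∈ Om r c := by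
  rw [mem_Om] at hX ⊢
  refine ⟨fun i => ?_, fun j => ?_⟩
  · by_cases hi : i = k
    · subst hi
      rw [lt_k, sum_lw _ hab h1]
      exact hX.1 i
    · rw [lt_ne hi]; exact hX.1 i
  · rw [lt_col]
    by_cases ha : j = a
    · subst ha
      rw [lt_ka]; omega
    · by_cases hb : j = b
      · subst hb
        rw [lt_kb hab]; exact h3
      · rw [lt_kj ha hb, ← col_split]
        exact hX.2 j

theorem mem_Ln {r : ι → ℕ} {c : κ → ℕ} {X Y : ι → κ → ℕ} {k : ι} {a b : κ} :
    Y ∈ Ln r c k a b X ↔ Y ∈ Om r c ∧ (∀ i, i ≠ k → Y i = X i) ∧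
      ∀ j, j ≠ a → j ≠ b → Y k j = X k j := by
  unfold Ln
  rw [mem_filter]

theorem lt_eq {r : ι → ℕ} {c : κ → ℕ} {X Y : ι → κ → ℕ} (hX : X ∈ Om r c) {k : ι} {a b : κ}
    (hab : a ≠ b) (hY : Y ∈ Ln r c k a b X) :
    Y k a + Y k b = X k a + X k b ∧ lt X k a b (Y k b) = Y := by
  rw [mem_Ln] at hY
  obtain ⟨hY, h1, h2⟩ := hY
  rw [mem_Om] at hX hY
  have hs : Y k a + Y k b = X k a + X k b := by
    have e1 := hX.1 k
    have e2 := hY.1 k
    rw [sum_split _ hab] at e1 e2
    have e3 : ∑ j ∈ (univ.erase a).erase b, Y k j = ∑ j ∈ (univ.erase a).erase b, X k j := by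
      refine sum_congr rfl fun j hj => ?_
      simp only [mem_erase, mem_univ, and_true] at hj
      exact h2 j hj.2 hj.1
    omega
  refine ⟨hs, ?_⟩
  funext i j
  by_cases hi : i = k
  · subst hi
    by_cases ha : j = a
    · subst ha
      rw [lt_ka]; omega
    · by_cases hb : j = b
      · subst hb
        rw [lt_kb hab]
      · rw [lt_kj ha hb, h2 j ha hb]
  · rw [lt_ne hi, h1 i hi]

/-- the lower end of the interval -/
def lo (c : κ → ℕ) (X : ι → κ → ℕ) (k : ι) (a b : κ) : ℕ := X k a + X k b + RR X k a - c a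

/-- the upper end of the interval -/
def hi (c : κ → ℕ) (X : ι → κ → ℕ) (k : ι) (a b : κ) : ℕ := min (X k a + X k b) (c b - RR X k b)

theorem sum_Ln {r : ι → ℕ} {c : κ → ℕ} {X : ι → κ → ℕ} (hX : X ∈ Om r c) {k : ι} {a b : κ}
    (hab : a ≠ b) (h : (ι → κ → ℕ) → ℝ) :
    ∑ Y ∈ Ln r c k a b X, h Y =
      ∑ z ∈ range (hi c X k a b + 1 - lo c X k a b), h (lt X k a b (lo c X k a b + z)) := by
  have hX' := hX
  rw [mem_Om] at hX'
  have hca := hX'.2 a
  have hcb := hX'.2 b
  rw [col_split X k] at hca hcb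
  refine Finset.sum_bij' (fun Y _ => Y k b - lo c X k a b)
    (fun z _ => lt X k a b (lo c X k a b + z)) ?_ ?_ ?_ ?_ ?_
  · intro Y hY
    obtain ⟨hs, -⟩ := lt_eq hX hab hY
    rw [mem_Ln] at hY
    obtain ⟨hY, h1, h2⟩ := hY
    have hY' := (mem_Om.1 hY).2
    have ya := hY' a
    have yb := hY' b
    rw [col_split Y k, RR_congr h1] at ya yb
    simp only [mem_range, lo, hi]
    omega
  · intro z hz
    simp only [mem_range, lo, hi] at hz
    rw [mem_Ln]
    refine ⟨lt_mem hX hab ?_ ?_ ?_, fun i hi => lt_ne hi, fun j ha hb => lt_kj ha hb⟩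
    · simp only [lo]; omega
    · simp only [lo]; omega
    · simp only [lo]; omega
  · intro Y hY
    obtain ⟨hs, he⟩ := lt_eq hX hab hY
    rw [mem_Ln] at hY
    obtain ⟨hY, h1, h2⟩ := hY
    have hY' := (mem_Om.1 hY).2
    have ya := hY' a
    rw [col_split Y k, RR_congr h1] at ya
    have : lo c X k a b + (Y k b - lo c X k a b) = Y k b := by simp only [lo]; omega
    simp only [this, he]
  · intro z hz
    simp only [lt_kb hab]
    omega
  · intro Y hY
    obtain ⟨hs, he⟩ := lt_eq hX hab hY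
    rw [mem_Ln] at hY
    obtain ⟨hY, h1, h2⟩ := hY
    have hY' := (mem_Om.1 hY).2
    have ya := hY' a
    rw [col_split Y k, RR_congr h1] at ya
    have : lo c X k a b + (Y k b - lo c X k a b) = Y k b := by simp only [lo]; omega
    simp only [this, he]

theorem lt_move {X : ι → κ → ℕ} {k : ι} {a b : κ} (hab : a ≠ b) {t d : ℕ}
    (h : t + d ≤ X k a + X k b) :
    lt X k a b t + d • E k b - d • E k a = lt X k a b (t + d) := by
  funext i j
  simp only [Pi.add_apply, Pi.sub_apply, Pi.smul_apply, E, smul_eq_mul]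
  by_cases hi : i = k
  · subst hi
    simp only [Pi.single_eq_same, e]
    by_cases ha : j = a
    · subst ha
      rw [lt_ka, lt_ka, Pi.single_eq_same, Pi.single_eq_of_ne hab]
      omega
    · by_cases hb : j = b
      · subst hb
        rw [lt_kb hab, lt_kb hab, Pi.single_eq_same, Pi.single_eq_of_ne ha]
        omega
      · rw [lt_kj ha hb, lt_kj ha hb, Pi.single_eq_of_ne ha, Pi.single_eq_of_ne hb]
        omega
  · rw [lt_ne hi, lt_ne hi, Pi.single_eq_of_ne hi, Pi.single_eq_of_ne hi]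
    simp

/-- the summand of `dyF` -/
noncomputable def TT (c : κ → ℕ) (F : (ι → κ → ℕ) → ℝ) (k : ι) (a b : κ) (d : ℕ)
    (X : ι → κ → ℕ) : ℝ :=
  if a ≠ b ∧ 2 ^ d ≤ X k a ∧ ∑ i, X i b + 2 ^ d ≤ c b then
    (F (X + 2 ^ d • E k b - 2 ^ d • E k a) - F X) ^ 2 else 0

theorem TT_nonneg (c : κ → ℕ) (F : (ι → κ → ℕ) → ℝ) (k : ι) (a b : κ) (d : ℕ)
    (X : ι → κ → ℕ) : 0 ≤ TT c F k a b d X := by
  unfold TT; split_ifs <;> positivity

theorem line (hINT : StmtINT) {r : ι → ℕ} {c : κ → ℕ} {X : ι → κ → ℕ} (hX : X ∈ Om r c) {k : ι}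
    {a b : κ} (hab : a ≠ b) {D : ℕ} (hD : r k < 2 ^ (D + 1)) (F : (ι → κ → ℕ) → ℝ) :
    ∑ Y ∈ Ln r c k a b X, (F Y - avg (Ln r c k a b X) F) ^ 2 ≤
      ((D : ℝ) + 1) * ∑ Y ∈ Ln r c k a b X, ∑ d : Fin (D + 1), TT c F k a b d Y := by
  have hX' := hX
  rw [mem_Om] at hX'
  have hca := hX'.2 a
  have hcb := hX'.2 b
  have hrk := hX'.1 k
  rw [sum_split _ hab] at hrk
  rw [col_split X k] at hca hcb
  set A := lo c X k a b with hA
  set len := hi c X k a b + 1 - A with hlen
  have hlen0 : 0 < len := by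
    simp only [hlen, hA, lo, hi]; omega
  have hlen1 : len ≤ 2 ^ (D + 1) := by
    simp only [hlen, hA, lo, hi]; omega
  have hcard : ((Ln r c k a b X).card : ℝ) = (len : ℝ) := by
    have := sum_Ln (k := k) hX hab (fun _ => (1 : ℝ))
    simp only [sum_const, card_range, nsmul_eq_mul, mul_one] at this
    exact this
  have hav : avg (Ln r c k a b X) F = (∑ z ∈ range len, F (lt X k a b (A + z))) / len := by
    unfold avg
    rw [hcard, sum_Ln (k := k) hX hab F]
  have hL : ∑ Y ∈ Ln r c k a b X, (F Y - avg (Ln r c k a b X) F) ^ 2 =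
      ∑ z ∈ range len, (F (lt X k a b (A + z)) -
        (∑ z ∈ range len, F (lt X k a b (A + z))) / len) ^ 2 := by
    rw [hav]
    exact sum_Ln hX hab (fun Y => (F Y - (∑ z ∈ range len, F (lt X k a b (A + z))) / len) ^ 2)
  have hR : ∑ Y ∈ Ln r c k a b X, ∑ d : Fin (D + 1), TT c F k a b d Y =
      ∑ z ∈ range len, ∑ d : Fin (D + 1), TT c F k a b d (lt X k a b (A + z)) :=
    sum_Ln hX hab (fun Y => ∑ d : Fin (D + 1), TT c F k a b d Y)
  have hv := var_pairs len hlen0 (fun z => F (lt X k a b (A + z)))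
  have hi' := hINT A len D (fun t => F (lt X k a b t)) hlen1
  have hterm : ∑ d : Fin (D + 1), ∑ z ∈ range len,
        (if z + 2 ^ (d : ℕ) < len then
          (F (lt X k a b (A + z + 2 ^ (d : ℕ))) - F (lt X k a b (A + z))) ^ 2 else 0) ≤
      ∑ z ∈ range len, ∑ d : Fin (D + 1), TT c F k a b d (lt X k a b (A + z)) := by
    rw [sum_comm]
    refine sum_le_sum fun z hz => sum_le_sum fun d _ => ?_
    split_ifs with h
    · have hle : A + z + 2 ^ (d : ℕ) ≤ hi c X k a b := by omega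
      have h1 : A + z + 2 ^ (d : ℕ) ≤ X k a + X k b := le_trans hle (min_le_left _ _)
      have h2 : A + z + 2 ^ (d : ℕ) ≤ c b - RR X k b := le_trans hle (min_le_right _ _)
      have hc : a ≠ b ∧ 2 ^ (d : ℕ) ≤ lt X k a b (A + z) k a ∧
          ∑ i, lt X k a b (A + z) i b + 2 ^ (d : ℕ) ≤ c b := by
        refine ⟨hab, ?_, ?_⟩
        · rw [lt_ka]; omega
        · rw [lt_col, lt_kb hab]; omega
      unfold TT
      rw [if_pos hc, lt_move hab h1]
    · exact TT_nonneg _ _ _ _ _ _ _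
  have hlenR : (0 : ℝ) < len := by exact_mod_cast hlen0
  rw [hL, hR]
  have hD0 : (0 : ℝ) ≤ (D : ℝ) + 1 := by positivity
  have key : (len : ℝ) * ∑ z ∈ range len, (F (lt X k a b (A + z)) -
        (∑ z ∈ range len, F (lt X k a b (A + z))) / len) ^ 2 ≤
      (len : ℝ) * (((D : ℝ) + 1) *
        ∑ z ∈ range len, ∑ d : Fin (D + 1), TT c F k a b d (lt X k a b (A + z))) := by
    refine le_trans (le_of_eq hv) (le_trans hi' ?_)
    have hm := mul_le_mul_of_nonneg_left (mul_le_mul_of_nonneg_left hterm hD0) hlenR.le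
    refine le_trans (le_of_eq ?_) hm
    ring
  exact le_of_mul_le_mul_left key hlenR

/-- the line of `X`, forgotten entries -/
def ky (k : ι) (a b : κ) (X : ι → κ → ℕ) : ι → κ → ℕ :=
  fun i j => if i = k ∧ (j = a ∨ j = b) then 0 else X i j

theorem ky_iff {k : ι} {a b : κ} {X Y : ι → κ → ℕ} :
    ky k a b Y = ky k a b X ↔ (∀ i, i ≠ k → Y i = X i) ∧
      ∀ j, j ≠ a → j ≠ b → Y k j = X k j := by
  constructor
  · intro h
    refine ⟨fun i hi => ?_, fun j ha hb => ?_⟩
    · funext j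
      have := congrFun (congrFun h i) j
      simpa [ky, hi] using this
    · have := congrFun (congrFun h k) j
      simpa [ky, ha, hb] using this
  · rintro ⟨h1, h2⟩
    funext i j
    unfold ky
    split_ifs with h
    · rfl
    · by_cases hi : i = k
      · subst hi
        push Not at h
        exact h2 j (h rfl).1 (h rfl).2
      · rw [h1 i hi]

theorem Ln_eq (r : ι → ℕ) (c : κ → ℕ) (k : ι) (a b : κ) (X : ι → κ → ℕ) :
    Ln r c k a b X = (Om r c).filter fun Y => ky k a b Y = ky k a b X := by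
  unfold Ln
  exact filter_congr fun Y _ => ky_iff.symm

end

theorem thm (hINT : StmtINT) : StmtLNX.{u, v} := by
  intro ι _ _ κ _ _ r c D F k a b hD
  by_cases hab : a = b
  · subst hab
    have h1 : ∑ X ∈ Om r c, (F X - avg (Ln r c k a a X) F) ^ 2 = 0 := by
      refine sum_eq_zero fun X hX => ?_
      have hL : Ln r c k a a X = {X} := by
        ext Y
        rw [mem_Ln, mem_singleton]
        constructor
        · rintro ⟨hY, h1, h2⟩
          have hXk := (mem_Om.1 hX).1 k
          have hYk := (mem_Om.1 hY).1 k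
          rw [← Finset.add_sum_erase univ (X k) (mem_univ a)] at hXk
          rw [← Finset.add_sum_erase univ (Y k) (mem_univ a)] at hYk
          have h3 : ∑ j ∈ univ.erase a, Y k j = ∑ j ∈ univ.erase a, X k j :=
            sum_congr rfl fun j hj => h2 j (ne_of_mem_erase hj) (ne_of_mem_erase hj)
          funext i j
          by_cases hi : i = k
          · subst hi
            by_cases hj : j = a
            · subst hj; omega
            · exact h2 j hj hj
          · rw [h1 i hi]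
        · rintro rfl
          exact ⟨hX, fun _ _ => rfl, fun _ _ _ => rfl⟩
      rw [hL]
      simp [avg]
    rw [h1]
    have h2 : 0 ≤ dyF r c D F k a a := by
      unfold dyF
      refine sum_nonneg fun d _ => sum_nonneg fun X _ => ?_
      split_ifs <;> positivity
    positivity
  · have hdy : dyF r c D F k a b = ∑ X ∈ Om r c, ∑ d : Fin (D + 1), TT c F k a b d X := by
      unfold dyF TT
      rw [sum_comm]
    rw [hdy]
    have hmaps : ∀ X ∈ Om r c, ky k a b X ∈ (Om r c).image (ky k a b) :=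
      fun X hX => mem_image_of_mem _ hX
    rw [← sum_fiberwise_of_maps_to hmaps, ← sum_fiberwise_of_maps_to hmaps, mul_sum]
    refine sum_le_sum fun K hK => ?_
    obtain ⟨X, hX, rfl⟩ := mem_image.1 hK
    have h := line hINT hX hab hD F
    rw [Ln_eq r c k a b X] at h
    refine le_trans (le_of_eq ?_) h
    refine sum_congr rfl fun Y hY => ?_
    rw [Ln_eq r c k a b Y, (mem_filter.1 hY).2]

end Vale.P328B.LNX
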