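import Vale.Agent.P328.B.EndDefs

/-! # P328 binary, module MIXB: total variation after `t` steps (copy of U/MIX, helper8; helper12) -/

namespace Vale.P328B.MIXB
open Finset BigOperators Vale.P328U Vale.P328B

universe u v

section
variable {ι : Type u} [Fintype ι] [DecidableEq ι] {κ : Type v} [Fintype κ] [DecidableEq κ]

/-- average of `g` at the end point of `t` steps from `X` -/
noncomputable def AV (c : κ → ℕ) (D t : ℕ) (g : (ι → κ → ℕ) → ℝ) (X : ι → κ → ℕ) : ℝ :=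
  (∑ ω : Fin t → Option ι × κ × κ × Fin (D + 1) × Bool, g (rnD c D X ω)) /
    (Fintype.card (Fin t → Option ι × κ × κ × Fin (D + 1) × Bool) : ℝ)

theorem AV_zero (c : κ → ℕ) (D : ℕ) (g : (ι → κ → ℕ) → ℝ) (X : ι → κ → ℕ) :
    AV c D 0 g X = g X := by
  unfold AV
  have h : ∀ ω : Fin 0 → Option ι × κ × κ × Fin (D + 1) × Bool, g (rnD c D X ω) = g X := by
    intro ω
    simp [rnD]
  rw [Fintype.sum_congr _ _ h]
  simp

theorem rnD_cons (c : κ → ℕ) (D t : ℕ) (X : ι → κ → ℕ) (ch : Option ι × κ × κ × Fin (D + 1) × Bool)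
    (ω : Fin t → Option ι × κ × κ × Fin (D + 1) × Bool) :
    rnD c D X (Fin.cons ch ω : Fin (t + 1) → Option ι × κ × κ × Fin (D + 1) × Bool) =
      rnD c D (dst c D X ch) ω := by
  unfold rnD
  rw [List.ofFn_succ]
  simp

theorem AV_succ (c : κ → ℕ) (D t : ℕ) (g : (ι → κ → ℕ) → ℝ) (X : ι → κ → ℕ) :
    AV c D (t + 1) g X = PD c D (AV c D t g) X := by
  unfold AV PD
  have h1 : ∑ ω : Fin (t + 1) → Option ι × κ × κ × Fin (D + 1) × Bool, g (rnD c D X ω) =
      ∑ ch : Option ι × κ × κ × Fin (D + 1) × Bool, ∑ ω : Fin t → Option ι × κ × κ × Fin (D + 1) × Bool,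
        g (rnD c D (dst c D X ch) ω) := by
    rw [← Fintype.sum_prod_type' (fun ch (ω : Fin t → Option ι × κ × κ × Fin (D + 1) × Bool) =>
      g (rnD c D (dst c D X ch) ω))]
    refine (Fintype.sum_equiv (Fin.consEquiv (fun _ : Fin (t + 1) => Option ι × κ × κ × Fin (D + 1) × Bool))
      _ _ ?_).symm
    rintro ⟨ch, ω⟩
    rw [← rnD_cons]
    rfl
  rw [h1, ← sum_div, div_div]
  congr 1
  rw [Fintype.card_fun, Fintype.card_fun, Fintype.card_fin, Fintype.card_fin, pow_succ]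
  push_cast
  ring

end

theorem gapd_le (C : ℝ) (hC : 1 ≤ C) (m' n D : ℕ) (hn : 1 ≤ n) : 0 ≤ 1 - gapd C m' n D := by
  unfold gapd
  have hn' : (1 : ℝ) ≤ n := by exact_mod_cast hn
  have h1 : (1 : ℝ) ≤ 4 * ((m' : ℝ) + 1) * (n : ℝ) ^ 2 * ((D : ℝ) + 1) ^ 2 * C := by
    have a1 : (1 : ℝ) ≤ (n : ℝ) ^ 2 := one_le_pow₀ hn'
    have a3 : (1 : ℝ) ≤ ((D : ℝ) + 1) ^ 2 :=
      one_le_pow₀ (by have := Nat.cast_nonneg (α := ℝ) D; linarith)
    have a4 : (1 : ℝ) ≤ (m' : ℝ) + 1 := by have := Nat.cast_nonneg (α := ℝ) m'; linarith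
    have b1 : (1 : ℝ) ≤ 4 * ((m' : ℝ) + 1) := by linarith
    have b2 := one_le_mul_of_one_le_of_one_le b1 a1
    have b3 := one_le_mul_of_one_le_of_one_le b2 a3
    exact one_le_mul_of_one_le_of_one_le b3 hC
  have h2 := div_le_one_of_le₀ h1 (by positivity)
  linarith

theorem thm (hDYC : StmtDYC.{u, v}) : StmtMIXB.{u, v} := by
  intro ι _ _ κ _ _ _ r c D t K X₀ hR hK hPoin hX₀
  set γ := gapd K (Fintype.card ι) (Fintype.card κ) D with hγ
  have hγ0 : 0 ≤ 1 - γ := gapd_le _ hK _ _ _ Fintype.card_pos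
  set N : ℝ := ((Om r c).card : ℝ) with hN
  have hN0 : 0 < N := by
    rw [hN]
    exact_mod_cast card_pos.2 ⟨X₀, hX₀⟩
  set C : ℝ := (Fintype.card (Fin t → Option ι × κ × κ × Fin (D + 1) × Bool) : ℝ) with hC
  have hC0 : 0 < C := by
    rw [hC]
    exact_mod_cast Fintype.card_pos
  -- contraction
  have hcon : ∀ (g : (ι → κ → ℕ) → ℝ), ∑ X ∈ Om r c, g X = 0 → ∀ s : ℕ,
      ∑ X ∈ Om r c, AV c D s g X = 0 ∧
      ∑ X ∈ Om r c, AV c D s g X ^ 2 ≤ (1 - γ) ^ s * ∑ X ∈ Om r c, g X ^ 2 := by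
    intro g hg s
    induction s with
    | zero =>
      simp only [AV_zero, pow_zero, one_mul]
      exact ⟨hg, le_refl _⟩
    | succ s ih =>
      have h := hDYC ι κ r c D K (AV c D s g) hR hK hPoin ih.1
      simp only [AV_succ]
      refine ⟨h.1, h.2.trans ?_⟩
      rw [pow_succ]
      calc (1 - γ) * ∑ X ∈ Om r c, AV c D s g X ^ 2
          ≤ (1 - γ) * ((1 - γ) ^ s * ∑ X ∈ Om r c, g X ^ 2) :=
            mul_le_mul_of_nonneg_left ih.2 hγ0
        _ = _ := by ring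
  -- signs
  set law : (ι → κ → ℕ) → ℝ := fun X =>
    ((univ.filter fun ω : Fin t → Option ι × κ × κ × Fin (D + 1) × Bool => rnD c D X₀ ω = X).card : ℝ) / C
    with hlaw
  set σ : (ι → κ → ℕ) → ℝ := fun X => if 0 ≤ law X - 1 / N then 1 else -1 with hσ
  have hσabs : ∀ X, |law X - 1 / N| = σ X * (law X - 1 / N) := by
    intro X
    by_cases h : 0 ≤ law X - 1 / N
    · simp only [hσ, if_pos h, abs_of_nonneg h, one_mul]
    · simp only [hσ, if_neg h]
      rw [abs_of_neg (not_le.1 h)]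
      ring
  have hσsq : ∀ X, σ X ^ 2 = 1 := by
    intro X
    simp only [hσ]
    split_ifs <;> norm_num
  set sb : ℝ := (∑ X ∈ Om r c, σ X) / N with hsb
  set g : (ι → κ → ℕ) → ℝ := fun X => (if X ∈ Om r c then σ X else 0) - sb with hg
  have hg0 : ∑ X ∈ Om r c, g X = 0 := by
    simp only [hg, sum_sub_distrib, sum_const, nsmul_eq_mul]
    rw [sum_congr rfl (fun X hX => if_pos hX), hsb]
    field_simp
    ring
  have hgsq : ∑ X ∈ Om r c, g X ^ 2 ≤ N := by
    have e : ∀ X ∈ Om r c, g X ^ 2 = 1 - 2 * sb * σ X + sb ^ 2 := by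
      intro X hX
      simp only [hg, if_pos hX]
      have := hσsq X
      nlinarith
    rw [sum_congr rfl e, sum_add_distrib, sum_sub_distrib, ← mul_sum]
    simp only [sum_const, nsmul_eq_mul]
    have h2 : ∑ X ∈ Om r c, σ X = sb * N := by rw [hsb]; field_simp
    rw [h2, ← hN]
    nlinarith [mul_nonneg hN0.le (sq_nonneg sb)]
  have hAVg : AV c D t g X₀ = ∑ X ∈ Om r c, |law X - 1 / N| := by
    have e1 : ∑ X ∈ Om r c, |law X - 1 / N| = ∑ X ∈ Om r c, σ X * law X - sb := by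
      rw [sum_congr rfl (fun X _ => hσabs X)]
      rw [hsb, sum_div, ← sum_sub_distrib]
      exact sum_congr rfl fun X _ => by ring
    rw [e1]
    unfold AV
    simp only [hg, sum_sub_distrib, sum_const, nsmul_eq_mul, card_univ]
    rw [sub_div, ← hC, mul_div_assoc]
    have e2 : C * (sb / C) = sb := by field_simp
    rw [e2]
    congr 1
    simp only [hlaw]
    have e3 : ∀ X ∈ Om r c, σ X * (((univ.filter fun ω : Fin t → Option ι × κ × κ × Fin (D + 1) × Bool =>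
        rnD c D X₀ ω = X).card : ℝ) / C) =
        (∑ ω : Fin t → Option ι × κ × κ × Fin (D + 1) × Bool, if rnD c D X₀ ω = X then σ X else 0) / C := by
      intro X _
      rw [← sum_filter, sum_const, nsmul_eq_mul]
      ring
    rw [sum_congr rfl e3, ← sum_div, sum_comm]
    congr 1
    refine sum_congr rfl fun ω _ => ?_
    rw [sum_ite_eq]
  have hpt : AV c D t g X₀ ^ 2 ≤ N * (1 - γ) ^ t := by
    have h1 : AV c D t g X₀ ^ 2 ≤ ∑ X ∈ Om r c, AV c D t g X ^ 2 :=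
      single_le_sum (f := fun X => AV c D t g X ^ 2) (fun X _ => sq_nonneg _) hX₀
    have h2 := (hcon g hg0 t).2
    have h3 : (1 - γ) ^ t * ∑ X ∈ Om r c, g X ^ 2 ≤ (1 - γ) ^ t * N :=
      mul_le_mul_of_nonneg_left hgsq (pow_nonneg hγ0 t)
    linarith
  have hfin : AV c D t g X₀ ≤ Real.sqrt N * Real.sqrt ((1 - γ) ^ t) := by
    rw [← Real.sqrt_mul hN0.le]
    exact Real.le_sqrt_of_sq_le hpt
  rw [hAVg] at hfin
  exact hfin

end Vale.P328B.MIXB
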