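import Vale.Agent.P328.B.EndDefs
import Vale.Agent.P328.U.STAR

/-!
# P328, module STARB: the dyadic star chain in the original formulation
-/

namespace Vale.P328B.STARB
open Finset BigOperators Vale.P328U Vale.P328U.STAR

universe u v

variable {m n : ℕ}

/-- choices -/
def chEquiv (n : ℕ) (h : Fin m) (D : ℕ) : (Fin m × Fin n × Fin n × Fin (D + 1) × Bool) ≃
    (Option {k : Fin m // k ≠ h} × Fin n × Fin n × Fin (D + 1) × Bool) :=
  Equiv.prodCongr (Equiv.optionSubtypeNe h).symm (Equiv.refl _)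

theorem star_pt {X : Fin m → Fin n → ℕ} {h k : Fin m} {l j : Fin n} {q : ℕ} (hk : k ≠ h)
    (h1 : q ≤ X k l) (h2 : q ≤ X h j) (i : Fin m) (a : Fin n) :
    (X + q • E k j + q • E h l - q • E k l - q • E h j) i a
      + q * (if i = k ∧ a = l then 1 else 0) + q * (if i = h ∧ a = j then 1 else 0) =
    X i a + q * (if i = k ∧ a = j then 1 else 0) + q * (if i = h ∧ a = l then 1 else 0) := by
  simp only [Pi.add_apply, Pi.sub_apply, Pi.smul_apply, smul_eq_mul, E_apply]
  by_cases ha : i = k ∧ a = l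
  · have hb : ¬ (i = h ∧ a = j) := fun hb => hk (ha.1.symm.trans hb.1)
    have h3 : q ≤ X i a := by rw [ha.1, ha.2]; exact h1
    rw [if_pos ha, if_neg hb]
    omega
  · rw [if_neg ha]
    by_cases hb : i = h ∧ a = j
    · have h3 : q ≤ X i a := by rw [hb.1, hb.2]; exact h2
      rw [if_pos hb]
      omega
    · rw [if_neg hb]
      omega

theorem star_mem {r : Fin m → ℕ} {c : Fin n → ℕ} {X : Fin m → Fin n → ℕ}
    (hX : X ∈ Tables r c) {h k : Fin m} {l j : Fin n} {q : ℕ} (hk : k ≠ h)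
    (h1 : q ≤ X k l) (h2 : q ≤ X h j) :
    X + q • E k j + q • E h l - q • E k l - q • E h j ∈ Tables r c := by
  rw [mem_Tables] at hX ⊢
  constructor
  · intro i
    have h3 := sum_congr (rfl : (univ : Finset (Fin n)) = univ)
      fun a _ => star_pt hk h1 h2 i a
    rw [sum_add_distrib, sum_add_distrib, sum_add_distrib, sum_add_distrib,
      ← mul_sum, ← mul_sum, ← mul_sum, ← mul_sum] at h3
    have e : ∀ (p : Fin m) (b : Fin n), ∑ a, (if i = p ∧ a = b then 1 else 0) =
        if i = p then 1 else 0 := by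
      intro p b
      by_cases hp : i = p
      · simp [hp]
      · simp [hp]
    rw [e, e, e, e] at h3
    have := hX.1 i
    omega
  · intro a
    have h3 := sum_congr (rfl : (univ : Finset (Fin m)) = univ)
      fun i _ => star_pt hk h1 h2 i a
    rw [sum_add_distrib, sum_add_distrib, sum_add_distrib, sum_add_distrib,
      ← mul_sum, ← mul_sum, ← mul_sum, ← mul_sum] at h3
    have e : ∀ (p : Fin m) (b : Fin n), ∑ i : Fin m, (if i = p ∧ a = b then 1 else 0) =
        if a = b then 1 else 0 := by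
      intro p b
      by_cases hp : a = b
      · simp [hp]
      · simp [hp]
    rw [e, e, e, e] at h3
    have := hX.2 a
    omega

theorem star_res {X : Fin m → Fin n → ℕ} {h : Fin m} (k : {k : Fin m // k ≠ h}) {l j : Fin n}
    {q : ℕ} :
    res h (X + q • E k.1 j + q • E h l - q • E k.1 l - q • E h j) =
      res h X + q • E k j - q • E k l := by
  funext i a
  unfold res
  simp only [Pi.add_apply, Pi.sub_apply, Pi.smul_apply, smul_eq_mul, E_apply]
  have h1 : ¬ (i.1 = h ∧ a = l) := fun h1 => i.2 h1.1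
  have h2 : ¬ (i.1 = h ∧ a = j) := fun h2 => i.2 h2.1
  rw [if_neg h1, if_neg h2, mul_zero, add_zero, Nat.sub_zero]
  have h3 : (i.1 = k.1) ↔ i = k := Subtype.ext_iff.symm
  simp only [h3]

theorem step_spec {r : Fin m → ℕ} {c : Fin n → ℕ} {X : Fin m → Fin n → ℕ} (h : Fin m) (D : ℕ)
    (hX : X ∈ Tables r c) (ch : Fin m × Fin n × Fin n × Fin (D + 1) × Bool) :
    dyStep h X ch ∈ Tables r c ∧
      res h (dyStep h X ch) = dst c D (res h X) (chEquiv n h D ch) := by
  obtain ⟨k, a, b, d, co⟩ := ch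
  by_cases hk : k = h
  · subst hk
    have e1 : dyStep k X (k, a, b, d, co) = X := by
      unfold dyStep
      rw [if_neg]
      rintro ⟨-, h1, -⟩
      exact h1 rfl
    have e2 : chEquiv n k D (k, a, b, d, co) = (none, a, b, d, co) := by
      unfold chEquiv
      simp
    rw [e1, e2]
    exact ⟨hX, rfl⟩
  · have e2 : chEquiv n h D (k, a, b, d, co) = (some ⟨k, hk⟩, a, b, d, co) := by
      unfold chEquiv
      simp [hk]
    rw [e2]
    have hhub := hub_eq h hX b
    have hiff : (co = true ∧ k ≠ h ∧ a ≠ b ∧ 2 ^ (d : ℕ) ≤ X k a ∧ 2 ^ (d : ℕ) ≤ X h b) ↔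
        (co = true ∧ a ≠ b ∧ 2 ^ (d : ℕ) ≤ res h X ⟨k, hk⟩ a ∧
          ∑ i, res h X i b + 2 ^ (d : ℕ) ≤ c b) := by
      constructor
      · rintro ⟨h0, -, h2, h3, h4⟩
        exact ⟨h0, h2, h3, by omega⟩
      · rintro ⟨h0, h2, h3, h4⟩
        exact ⟨h0, hk, h2, h3, by omega⟩
    unfold dyStep dst
    by_cases hc : co = true ∧ k ≠ h ∧ a ≠ b ∧ 2 ^ (d : ℕ) ≤ X k a ∧ 2 ^ (d : ℕ) ≤ X h b
    · rw [if_pos hc]
      have hc' := hiff.mp hc
      simp only
      rw [if_pos hc']
      exact ⟨star_mem hX hk hc.2.2.2.1 hc.2.2.2.2, star_res ⟨k, hk⟩⟩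
    · rw [if_neg hc]
      have hc' : ¬ _ := fun h' => hc (hiff.mpr h')
      simp only
      rw [if_neg hc']
      exact ⟨hX, rfl⟩

theorem fold_spec {r : Fin m → ℕ} {c : Fin n → ℕ} (h : Fin m) (D : ℕ)
    (L : List (Fin m × Fin n × Fin n × Fin (D + 1) × Bool)) : ∀ X ∈ Tables r c,
    L.foldl (dyStep h) X ∈ Tables r c ∧
      res h (L.foldl (dyStep h) X) = (L.map (chEquiv n h D)).foldl (dst c D) (res h X) := by
  induction L with
  | nil => exact fun X hX => ⟨hX, rfl⟩
  | cons a L ih =>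
    intro X hX
    obtain ⟨h1, h2⟩ := step_spec h D hX a
    obtain ⟨h3, h4⟩ := ih _ h1
    rw [List.foldl_cons, List.map_cons, List.foldl_cons]
    refine ⟨h3, ?_⟩
    rw [h4, h2]

theorem run_spec {r : Fin m → ℕ} {c : Fin n → ℕ} (h : Fin m) (D : ℕ) {t : ℕ}
    (ω : Fin t → Fin m × Fin n × Fin n × Fin (D + 1) × Bool) {X : Fin m → Fin n → ℕ}
    (hX : X ∈ Tables r c) :
    dyRun h X ω ∈ Tables r c ∧
      res h (dyRun h X ω) = rnD c D (res h X) (fun i => chEquiv n h D (ω i)) := by
  unfold dyRun rnD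
  have := fold_spec (r := r) (c := c) h D (List.ofFn ω) X hX
  rw [List.map_ofFn] at this
  exact this

theorem thm (hMIXB : StmtMIXB.{0, 0}) : StmtSTARB := by
  intro m n r c h D t C X₀ hn hr hC hP hX₀
  have hX₀' := mem_Tables.mp hX₀
  have hrc : ∑ i, r i = ∑ j, c j := by
    have h1 : ∑ i, ∑ j, X₀ i j = ∑ i, r i := sum_congr rfl fun i _ => hX₀'.1 i
    have h2 : ∑ j, ∑ i, X₀ i j = ∑ j, c j := sum_congr rfl fun j _ => hX₀'.2 j
    rw [← h1, ← h2, sum_comm]
  have : Nonempty (Fin n) := ⟨⟨0, hn⟩⟩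
  have key := hMIXB {k : Fin m // k ≠ h} (Fin n) (rr h r) c D t C (res h X₀)
    (fun k => hr k.1 k.2) hC hP (res_mem h hX₀)
  have hcι : Fintype.card {k : Fin m // k ≠ h} = m - 1 := by
    rw [Fintype.card_subtype_compl, Fintype.card_fin, Fintype.card_subtype_eq]
  rw [hcι, Fintype.card_fin] at key
  -- the bijection of the state spaces
  have hbij : ∀ g : ({k : Fin m // k ≠ h} → Fin n → ℕ) → ℝ,
      ∑ X ∈ Tables r c, g (res h X) = ∑ X' ∈ Om (rr h r) c, g X' := by
    intro g
    refine sum_nbij (fun X => res h X) (fun X hX => res_mem h hX) ?_ ?_ (fun _ _ => rfl)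
    · intro X hX Y hY e
      exact res_inj h (mem_coe.mp hX) (mem_coe.mp hY) e
    · intro X' hX'
      obtain ⟨X, hX, e⟩ := res_surj h hrc (mem_coe.mp hX')
      exact ⟨X, mem_coe.mpr hX, e⟩
  have hcard : ((Om (rr h r) c).card : ℝ) = ((Tables r c).card : ℝ) := by
    have := hbij (fun _ => 1)
    simp only [sum_const, nsmul_eq_mul, mul_one] at this
    exact this.symm
  have hcs : (Fintype.card (Fin t → Option {k : Fin m // k ≠ h} × Fin n × Fin n ×
      Fin (D + 1) × Bool) : ℝ) =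
      (Fintype.card (Fin t → Fin m × Fin n × Fin n × Fin (D + 1) × Bool) : ℝ) := by
    norm_cast
    exact (Fintype.card_congr (Equiv.piCongrRight fun _ => chEquiv n h D)).symm
  rw [hcard, ← hbij] at key
  refine le_trans (le_of_eq ?_) key
  refine sum_congr rfl fun X hX => ?_
  have hlaw : lawOf (fun ω : Fin t → Fin m × Fin n × Fin n × Fin (D + 1) × Bool =>
        dyRun h X₀ ω) X =
      ((univ.filter fun ω : Fin t → Option {k : Fin m // k ≠ h} × Fin n × Fin n ×
          Fin (D + 1) × Bool => rnD c D (res h X₀) ω = res h X).card : ℝ) /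
          (Fintype.card (Fin t → Option {k : Fin m // k ≠ h} × Fin n × Fin n ×
            Fin (D + 1) × Bool) : ℝ) := by
    unfold lawOf
    rw [hcs]
    congr 1
    norm_cast
    refine card_bij (fun ω _ => fun i => chEquiv n h D (ω i)) ?_ ?_ ?_
    · intro ω hω
      rw [mem_filter] at hω ⊢
      refine ⟨mem_univ _, ?_⟩
      have h1 : dyRun h X₀ ω = X := hω.2
      rw [← (run_spec h D ω hX₀).2, h1]
    · intro ω _ ω' _ e
      funext i
      exact (chEquiv n h D).injective (congrFun e i)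
    · intro ω' hω'
      rw [mem_filter] at hω'
      refine ⟨fun i => (chEquiv n h D).symm (ω' i), ?_, ?_⟩
      · rw [mem_filter]
        refine ⟨mem_univ _, ?_⟩
        obtain ⟨h1, h2⟩ := run_spec h D (fun i => (chEquiv n h D).symm (ω' i)) hX₀
        refine res_inj h h1 hX ?_
        rw [h2]
        simp only [Equiv.apply_symm_apply]
        exact hω'.2
      · funext i
        exact Equiv.apply_symm_apply _ _
  rw [hlaw]

end Vale.P328B.STARB
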