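import Vale.Agent.P328.B.EndDefs
import Vale.Agent.P335.Hspec3

/-!
# P328, module TWOCOL: two-row tables, heat bath on pairs of columns

`B s p` is the set of first rows `x` (`x ≤ s`, `∑ x = p`), the second row is `s - x`.  Path coupling
(Dyer-Greenhill) shows that the sum over the pairs of columns of the conditional variances dominates
the variance, with constant one.
-/

namespace Vale.P328B.TWOC
open Finset BigOperators Vale.P328U Vale.P328B

universe v

/-- spectral lemma, any universe -/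
theorem spec3v {X : Type v} [Fintype X] (T : (X → ℝ) →ₗ[ℝ] (X → ℝ))
    (hs : ∀ f g : X → ℝ, ∑ x, T f x * g x = ∑ x, f x * T g x) (h1 : T (fun _ => 1) = 0)
    (hev : ∀ (nu : ℝ) (f : X → ℝ), f ≠ 0 → ∑ x, f x = 0 → T f = nu • f → 1 ≤ nu)
    (f : X → ℝ) (hf : ∑ x, f x = 0) : ∑ x, f x * f x ≤ ∑ x, f x * T f x := by
  classical
  let e := Fintype.equivFin X
  let φ : (X → ℝ) ≃ₗ[ℝ] (Fin (Fintype.card X) → ℝ) := LinearEquiv.funCongrLeft ℝ ℝ e.symm
  have hφ : ∀ (g : X → ℝ) i, φ g i = g (e.symm i) := fun g i => rfl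
  have hφs : ∀ (g : Fin (Fintype.card X) → ℝ) x, φ.symm g x = g (e x) := by
    intro g x
    rfl
  have hsum : ∀ g : X → ℝ, ∑ i, g (e.symm i) = ∑ x, g x := fun g => Equiv.sum_comp e.symm g
  let T' : (Fin (Fintype.card X) → ℝ) →ₗ[ℝ] (Fin (Fintype.card X) → ℝ) :=
    φ.toLinearMap ∘ₗ T ∘ₗ φ.symm.toLinearMap
  have hT' : ∀ g, T' g = φ (T (φ.symm g)) := fun g => rfl
  have key := Vale.Agent.P335.H.Spec3.spec3_proof (Fin (Fintype.card X)) T' 0
    (by
      intro g h
      unfold Vale.Agent.P335.ip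
      have e1 : ∑ i, T' g i * h i = ∑ x, T (φ.symm g) x * (φ.symm h) x := by
        rw [← hsum]
        refine sum_congr rfl fun i _ => ?_
        rw [hT', hφ, hφs, Equiv.apply_symm_apply]
      have e2 : ∑ i, g i * T' h i = ∑ x, (φ.symm g) x * T (φ.symm h) x := by
        rw [← hsum]
        refine sum_congr rfl fun i _ => ?_
        rw [hT', hφ, hφs, Equiv.apply_symm_apply]
      rw [e1, e2, hs])
    (by
      rw [hT']
      have e1 : φ.symm (fun _ => (1 : ℝ)) = fun _ => 1 := by
        funext x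
        rw [hφs]
      rw [e1, h1, map_zero]
      rfl)
    (by
      intro nu g hg hg0 hTg
      refine hev nu (φ.symm g) ?_ ?_ ?_
      · intro h
        apply hg
        have := congrArg φ h
        rwa [LinearEquiv.apply_symm_apply, map_zero] at this
      · rw [← hsum, ← hg0]
        refine sum_congr rfl fun i _ => ?_
        rw [hφs, Equiv.apply_symm_apply]
      · have h2 : φ (T (φ.symm g)) = nu • g := by rw [← hT', hTg]
        have := congrArg φ.symm h2
        rwa [LinearEquiv.symm_apply_apply, map_smul] at this)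
    (φ f) (by
      rw [← hf, ← hsum f]
      exact sum_congr rfl fun i _ => rfl)
  unfold Vale.Agent.P335.ip at key
  have e1 : ∑ i, φ f i * φ f i = ∑ x, f x * f x := by
    rw [← hsum]
    exact sum_congr rfl fun i _ => rfl
  have e2 : ∑ i, φ f i * T' (φ f) i = ∑ x, f x * T f x := by
    rw [← hsum]
    refine sum_congr rfl fun i _ => ?_
    rw [hT', hφ, LinearEquiv.symm_apply_apply, hφ]
  rw [e1, e2] at key
  exact key

/-! ### averages on intervals -/

/-- coupling of an interval with `L` points and one with `L + 1` points -/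
theorem avg1 (L : ℕ) (hL : 0 < L) (g h : ℕ → ℝ) (D : ℝ)
    (h0 : ∀ i, i < L → |g i - h i| ≤ D) (h1 : ∀ i, i < L → |g i - h (i + 1)| ≤ D) :
    |(∑ i ∈ range L, g i) / L - (∑ i ∈ range (L + 1), h i) / (L + 1)| ≤ D := by
  have hLr : (0 : ℝ) < L := by exact_mod_cast hL
  have key : ∀ K : ℕ, K ≤ L → ∑ i ∈ range K, (((L : ℝ) - i) * (g i - h i) +
      ((i : ℝ) + 1) * (g i - h (i + 1))) =
      ((L : ℝ) + 1) * ∑ i ∈ range K, g i - L * ∑ i ∈ range K, h i - K * h K := by
    intro K
    induction K with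
    | zero => intro _; simp
    | succ K ih =>
      intro hK
      rw [sum_range_succ, ih (by omega), sum_range_succ, sum_range_succ]
      push_cast
      ring
  have h2 := key L le_rfl
  have h3 : (∑ i ∈ range L, g i) / L - (∑ i ∈ range (L + 1), h i) / (L + 1) =
      (∑ i ∈ range L, (((L : ℝ) - i) * (g i - h i) +
      ((i : ℝ) + 1) * (g i - h (i + 1)))) / (L * (L + 1)) := by
    rw [h2, sum_range_succ]
    field_simp
    ring
  rw [h3, abs_div, abs_of_pos (by positivity : (0 : ℝ) < L * (L + 1)),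
    div_le_iff₀ (by positivity)]
  calc |∑ i ∈ range L, (((L : ℝ) - i) * (g i - h i) + ((i : ℝ) + 1) * (g i - h (i + 1)))|
      ≤ ∑ i ∈ range L, |((L : ℝ) - i) * (g i - h i) + ((i : ℝ) + 1) * (g i - h (i + 1))| :=
        abs_sum_le_sum_abs _ _
    _ ≤ ∑ i ∈ range L, ((L : ℝ) + 1) * D := by
        refine sum_le_sum fun i hi => ?_
        rw [mem_range] at hi
        have hir : (i : ℝ) ≤ L := by exact_mod_cast hi.le
        refine (abs_add_le _ _).trans ?_
        rw [abs_mul, abs_mul, abs_of_nonneg (by linarith : (0 : ℝ) ≤ (L : ℝ) - i),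
          abs_of_nonneg (by positivity : (0 : ℝ) ≤ (i : ℝ) + 1)]
        have e1 := mul_le_mul_of_nonneg_left (h0 i hi) (by linarith : (0 : ℝ) ≤ (L : ℝ) - i)
        have e2 := mul_le_mul_of_nonneg_left (h1 i hi) (by positivity : (0 : ℝ) ≤ (i : ℝ) + 1)
        calc ((L : ℝ) - i) * |g i - h i| + ((i : ℝ) + 1) * |g i - h (i + 1)|
            ≤ ((L : ℝ) - i) * D + ((i : ℝ) + 1) * D := add_le_add e1 e2
          _ = ((L : ℝ) + 1) * D := by ring
    _ = D * (L * (L + 1)) := by
        rw [sum_const, card_range, nsmul_eq_mul]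
        ring

/-- intervals with the same number of points -/
theorem avg0 (L : ℕ) (hL : 0 < L) (g h : ℕ → ℝ) (D : ℝ)
    (h0 : ∀ i, i < L → |g i - h i| ≤ D) :
    |(∑ i ∈ range L, g i) / L - (∑ i ∈ range L, h i) / L| ≤ D := by
  have hLr : (0 : ℝ) < L := by exact_mod_cast hL
  rw [← sub_div, ← sum_sub_distrib, abs_div, abs_of_pos hLr, div_le_iff₀ hLr]
  calc |∑ i ∈ range L, (g i - h i)| ≤ ∑ i ∈ range L, |g i - h i| := abs_sum_le_sum_abs _ _
    _ ≤ ∑ i ∈ range L, D := sum_le_sum fun i hi => h0 i (mem_range.mp hi)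
    _ = D * L := by rw [sum_const, card_range, nsmul_eq_mul]; ring

/-- average over the interval `[A, A + L)` -/
noncomputable def iav (A L : ℕ) (g : ℕ → ℝ) : ℝ := (∑ i ∈ range L, g (A + i)) / L

/-- the coupling lemma for intervals `[A, C]` and `[A', C']`, `A' ∈ {A, A + 1}`,
`C' ∈ {C, C + 1}` -/
theorem coup (A C A' C' : ℕ) (hAC : A ≤ C) (hAC' : A' ≤ C') (hA : A' = A ∨ A' = A + 1)
    (hC : C' = C ∨ C' = C + 1) (g h : ℕ → ℝ) (D : ℝ)
    (h0 : ∀ u, A ≤ u → u ≤ C → A' ≤ u → u ≤ C' → |g u - h u| ≤ D)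
    (h1 : ∀ u, A ≤ u → u ≤ C → A' ≤ u + 1 → u + 1 ≤ C' → |g u - h (u + 1)| ≤ D) :
    |iav A (C + 1 - A) g - iav A' (C' + 1 - A') h| ≤ D := by
  unfold iav
  rcases hA with rfl | rfl
  · rcases hC with rfl | rfl
    · exact avg0 _ (by omega) _ _ D fun i hi => h0 _ (by omega) (by omega) (by omega) (by omega)
    · have e1 : C + 1 + 1 - A' = (C + 1 - A') + 1 := by omega
      rw [e1]
      push_cast
      refine avg1 _ (by omega) _ _ D (fun i hi => h0 _ (by omega) (by omega) (by omega) (by omega))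
        (fun i hi => ?_)
      have := h1 (A' + i) (by omega) (by omega) (by omega) (by omega)
      rwa [show A' + i + 1 = A' + (i + 1) by omega] at this
  · rcases hC with rfl | rfl
    · have e1 : C' + 1 - A = (C' + 1 - (A + 1)) + 1 := by omega
      rw [e1, abs_sub_comm]
      push_cast
      refine avg1 _ (by omega) _ _ D (fun i hi => ?_) (fun i hi => ?_)
      · have := h1 (A + i) (by omega) (by omega) (by omega) (by omega)
        rwa [abs_sub_comm, show A + i + 1 = A + 1 + i by omega] at this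
      · have := h0 (A + 1 + i) (by omega) (by omega) (by omega) (by omega)
        rw [abs_sub_comm] at this
        rw [← show A + 1 + i = A + (i + 1) by omega]
        exact this
    · have e1 : C + 1 + 1 - (A + 1) = C + 1 - A := by omega
      rw [e1]
      refine avg0 _ (by omega) _ _ D fun i hi => ?_
      have := h1 (A + i) (by omega) (by omega) (by omega) (by omega)
      rwa [show A + i + 1 = A + 1 + i by omega] at this


/-! ### fibres -/

section fib
variable {κ : Type v} [Fintype κ] [DecidableEq κ]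

theorem mem_B {s : κ → ℕ} {t : ℕ} {x : κ → ℕ} :
    x ∈ B s t ↔ (∀ j, x j ≤ s j) ∧ ∑ j, x j = t := by
  unfold B
  rw [mem_filter, Fintype.mem_piFinset]
  simp only [mem_range, Nat.lt_succ_iff]

/-- the fibre: the columns other than `j, l` are fixed -/
def fib (s : κ → ℕ) (p : ℕ) (j l : κ) (x : κ → ℕ) : Finset (κ → ℕ) :=
  (B s p).filter fun y => ∀ i, i ≠ j → i ≠ l → y i = x i

/-- the conditional expectation -/
noncomputable def av (s : κ → ℕ) (p : ℕ) (j l : κ) (f : (κ → ℕ) → ℝ) (x : κ → ℕ) : ℝ :=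
  (∑ y ∈ fib s p j l x, f y) / ((fib s p j l x).card : ℝ)

/-- point of the fibre -/
def pt (x : κ → ℕ) (j l : κ) (u : ℕ) : κ → ℕ :=
  Function.update (Function.update x j u) l (x j + x l - u)

theorem pt_j {x : κ → ℕ} {j l : κ} (h : j ≠ l) (u : ℕ) : pt x j l u j = u := by
  unfold pt
  rw [Function.update_of_ne h, Function.update_self]

theorem pt_l {x : κ → ℕ} {j l : κ} (u : ℕ) : pt x j l u l = x j + x l - u := by
  unfold pt
  rw [Function.update_self]

theorem pt_ne {x : κ → ℕ} {j l i : κ} (hj : i ≠ j) (hl : i ≠ l) (u : ℕ) :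
    pt x j l u i = x i := by
  unfold pt
  rw [Function.update_of_ne hl, Function.update_of_ne hj]

theorem sum_two {j l : κ} (h : j ≠ l) (x y : κ → ℕ) (hxy : ∀ i, i ≠ j → i ≠ l → y i = x i) :
    (∑ i, y i = ∑ i, x i) ↔ y j + y l = x j + x l := by
  have e1 : ∀ z : κ → ℕ, ∑ i, z i = z j + z l + ∑ i ∈ (univ.erase j).erase l, z i := by
    intro z
    rw [← add_sum_erase univ z (mem_univ j),
      ← add_sum_erase (univ.erase j) z (mem_erase.mpr ⟨h.symm, mem_univ l⟩), add_assoc]
  have e2 : ∑ i ∈ (univ.erase j).erase l, y i = ∑ i ∈ (univ.erase j).erase l, x i := by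
    refine sum_congr rfl fun i hi => ?_
    rw [mem_erase, mem_erase] at hi
    exact hxy i hi.2.1 hi.1
  rw [e1 y, e1 x, e2]
  omega

/-- the fibre is an interval -/
theorem fib_eq {s : κ → ℕ} {p : ℕ} {j l : κ} (h : j ≠ l) {x : κ → ℕ} (hx : x ∈ B s p) :
    fib s p j l x =
      (Icc (x j + x l - s l) (min (s j) (x j + x l))).image (pt x j l) := by
  rw [mem_B] at hx
  ext y
  unfold fib
  rw [mem_filter, mem_B, mem_image]
  constructor
  · rintro ⟨⟨h1, h2⟩, h3⟩
    have h4 := (sum_two h x y h3).mp (by rw [h2, hx.2])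
    refine ⟨y j, ?_, ?_⟩
    · rw [mem_Icc, le_min_iff]
      have := h1 j
      have := h1 l
      omega
    · funext i
      by_cases hj : i = j
      · subst hj
        exact pt_j h _
      · by_cases hl : i = l
        · subst hl
          rw [pt_l]
          omega
        · rw [pt_ne hj hl, h3 i hj hl]
  · rintro ⟨u, hu, rfl⟩
    rw [mem_Icc, le_min_iff] at hu
    have h3 : ∀ i, i ≠ j → i ≠ l → pt x j l u i = x i := fun i hj hl => pt_ne hj hl u
    refine ⟨⟨fun i => ?_, ?_⟩, h3⟩
    · by_cases hj : i = j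
      · subst hj
        rw [pt_j h]
        exact hu.2.1
      · by_cases hl : i = l
        · subst hl
          rw [pt_l]
          omega
        · rw [pt_ne hj hl]
          exact hx.1 i
    · rw [(sum_two h x _ h3).mpr (by rw [pt_j h, pt_l]; omega), hx.2]

theorem av_eq {s : κ → ℕ} {p : ℕ} {j l : κ} (h : j ≠ l) {x : κ → ℕ} (hx : x ∈ B s p)
    (f : (κ → ℕ) → ℝ) :
    av s p j l f x = iav (x j + x l - s l)
      (min (s j) (x j + x l) + 1 - (x j + x l - s l)) (fun u => f (pt x j l u)) := by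
  have hinj : Function.Injective (pt x j l) := by
    intro u u' hu
    have := congrFun hu j
    rwa [pt_j h, pt_j h] at this
  unfold av iav
  rw [fib_eq h hx, sum_image (fun a _ b _ hab => hinj hab), card_image_of_injective _ hinj,
    Nat.card_Icc]
  congr 1
  have e1 : Icc (x j + x l - s l) (min (s j) (x j + x l)) =
      Ico (x j + x l - s l) (min (s j) (x j + x l) + 1) := by
    ext u
    simp only [mem_Icc, mem_Ico]
    omega
  rw [e1, sum_Ico_eq_sum_range]

theorem fib_symm (s : κ → ℕ) (p : ℕ) (j l : κ) (x : κ → ℕ) : fib s p j l x = fib s p l j x := by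
  unfold fib
  ext y
  simp only [mem_filter]
  constructor <;> rintro ⟨h1, h2⟩ <;> exact ⟨h1, fun i a b => h2 i b a⟩

theorem av_symm (s : κ → ℕ) (p : ℕ) (j l : κ) (f : (κ → ℕ) → ℝ) (x : κ → ℕ) :
    av s p j l f x = av s p l j f x := by
  unfold av
  rw [fib_symm]

theorem fib_congr {s : κ → ℕ} {p : ℕ} {j l : κ} {x y : κ → ℕ}
    (h : ∀ i, i ≠ j → i ≠ l → y i = x i) : fib s p j l y = fib s p j l x := by
  unfold fib
  ext z
  simp only [mem_filter]
  constructor
  · rintro ⟨h1, h2⟩
    exact ⟨h1, fun i a b => (h2 i a b).trans (h i a b)⟩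
  · rintro ⟨h1, h2⟩
    exact ⟨h1, fun i a b => (h2 i a b).trans (h i a b).symm⟩

theorem av_congr {s : κ → ℕ} {p : ℕ} {j l : κ} {x y : κ → ℕ} (f : (κ → ℕ) → ℝ)
    (h : ∀ i, i ≠ j → i ≠ l → y i = x i) : av s p j l f y = av s p j l f x := by
  unfold av
  rw [fib_congr h]

/-- symmetry of the conditional expectation -/
theorem av_ip (s : κ → ℕ) (p : ℕ) (j l : κ) (f g : (κ → ℕ) → ℝ) :
    ∑ x ∈ B s p, av s p j l f x * g x = ∑ x ∈ B s p, f x * av s p j l g x := by
  have key : ∀ f g : (κ → ℕ) → ℝ, ∑ x ∈ B s p, av s p j l f x * g x =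
      ∑ x ∈ B s p, ∑ y ∈ B s p, if ∀ i, i ≠ j → i ≠ l → y i = x i then
        f y * g x / ((fib s p j l x).card : ℝ) else 0 := by
    intro f g
    refine sum_congr rfl fun x _ => ?_
    rw [← sum_filter]
    unfold av
    rw [div_mul_eq_mul_div, sum_mul, sum_div]
    rfl
  rw [key f g]
  have key2 : ∑ x ∈ B s p, f x * av s p j l g x = ∑ x ∈ B s p, av s p j l g x * f x :=
    sum_congr rfl fun x _ => mul_comm _ _
  rw [key2, key g f, sum_comm]
  refine sum_congr rfl fun x _ => sum_congr rfl fun y _ => ?_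
  by_cases h : ∀ i, i ≠ j → i ≠ l → x i = y i
  · have h' : ∀ i, i ≠ j → i ≠ l → y i = x i := fun i a b => (h i a b).symm
    rw [if_pos h, if_pos h', fib_congr h']
    ring
  · have h' : ¬ ∀ i, i ≠ j → i ≠ l → y i = x i :=
      fun hh => h fun i a b => (hh i a b).symm
    rw [if_neg h, if_neg h']

theorem fib_card_pos {s : κ → ℕ} {p : ℕ} {j l : κ} {x : κ → ℕ} (hx : x ∈ B s p) :
    0 < (fib s p j l x).card := by
  rw [card_pos]
  exact ⟨x, mem_filter.mpr ⟨hx, fun _ _ _ => rfl⟩⟩

theorem av_idem {s : κ → ℕ} {p : ℕ} {j l : κ} (f : (κ → ℕ) → ℝ) {x : κ → ℕ} (hx : x ∈ B s p) :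
    av s p j l (av s p j l f) x = av s p j l f x := by
  have h0 := fib_card_pos (j := j) (l := l) hx
  have h1 : ∑ y ∈ fib s p j l x, av s p j l f y = ((fib s p j l x).card : ℝ) * av s p j l f x := by
    rw [← nsmul_eq_mul, ← sum_const]
    refine sum_congr rfl fun y hy => ?_
    exact av_congr f (mem_filter.mp hy).2
  rw [av, h1]
  have : ((fib s p j l x).card : ℝ) ≠ 0 := by exact_mod_cast h0.ne'
  field_simp

theorem av_sq (s : κ → ℕ) (p : ℕ) (j l : κ) (f : (κ → ℕ) → ℝ) :
    ∑ x ∈ B s p, (f x - av s p j l f x) ^ 2 = ∑ x ∈ B s p, f x * (f x - av s p j l f x) := by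
  have h1 := av_ip s p j l f (av s p j l f)
  have h2 : ∑ x ∈ B s p, f x * av s p j l (av s p j l f) x = ∑ x ∈ B s p, f x * av s p j l f x :=
    sum_congr rfl fun x hx => by rw [av_idem f hx]
  have h3 : ∑ x ∈ B s p, (f x - av s p j l f x) ^ 2 = ∑ x ∈ B s p, f x * (f x - av s p j l f x) -
      ∑ x ∈ B s p, f x * av s p j l f x + ∑ x ∈ B s p, av s p j l f x * av s p j l f x := by
    rw [← sum_sub_distrib, ← sum_add_distrib]
    exact sum_congr rfl fun x _ => by ring
  rw [h3, h1, h2]
  ring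

/-! ### adjacency and the Lipschitz constant -/

/-- `y` is obtained from `x` by moving one unit from column `b` to column `a` -/
def Adj (a b : κ) (x y : κ → ℕ) : Prop :=
  a ≠ b ∧ y a = x a + 1 ∧ x b = y b + 1 ∧ ∀ i, i ≠ a → i ≠ b → y i = x i

theorem Adj.symm {a b : κ} {x y : κ → ℕ} (h : Adj a b x y) : Adj b a y x :=
  ⟨h.1.symm, h.2.2.1, h.2.1, fun i hb ha => (h.2.2.2 i ha hb).symm⟩

/-- Lipschitz bound -/
def Lip (s : κ → ℕ) (p : ℕ) (f : (κ → ℕ) → ℝ) (D : ℝ) : Prop :=
  ∀ x ∈ B s p, ∀ y ∈ B s p, ∀ a b, Adj a b x y → |f x - f y| ≤ D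

theorem pt_mem {s : κ → ℕ} {p : ℕ} {j l : κ} (h : j ≠ l) {x : κ → ℕ} (hx : x ∈ B s p) {u : ℕ}
    (h1 : x j + x l - s l ≤ u) (h2 : u ≤ min (s j) (x j + x l)) : pt x j l u ∈ B s p := by
  have : pt x j l u ∈ fib s p j l x := by
    rw [fib_eq h hx]
    exact mem_image_of_mem _ (mem_Icc.mpr ⟨h1, h2⟩)
  exact (mem_filter.mp this).1

/-- disjoint pairs -/
theorem contr1 {s : κ → ℕ} {p : ℕ} {f : (κ → ℕ) → ℝ} {D : ℝ} (hf : Lip s p f D) {x y : κ → ℕ}
    (hx : x ∈ B s p) (hy : y ∈ B s p) {a b : κ} (hxy : Adj a b x y) {j l : κ} (hjl : j ≠ l)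
    (hja : j ≠ a) (hjb : j ≠ b) (hla : l ≠ a) (hlb : l ≠ b) :
    |av s p j l f x - av s p j l f y| ≤ D := by
  obtain ⟨hab, h1, h2, h3⟩ := hxy
  have ej := h3 j hja hjb
  have el := h3 l hla hlb
  have hxs := (mem_B.mp hx).1
  rw [av_eq hjl hx, av_eq hjl hy, ej, el]
  have hj := hxs j
  have hl := hxs l
  unfold iav
  refine avg0 _ (by omega) _ _ D fun v hv => ?_
  have a1 : x j + x l - s l ≤ x j + x l - s l + v := by omega
  have a2 : x j + x l - s l + v ≤ min (s j) (x j + x l) := by omega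
  refine hf _ (pt_mem hjl hx a1 a2) _ (pt_mem hjl hy (by rw [ej, el]; exact a1)
      (by rw [ej, el]; exact a2)) a b ⟨hab, ?_, ?_, ?_⟩
  · rw [pt_ne hja.symm hla.symm, pt_ne hja.symm hla.symm, h1]
  · rw [pt_ne hjb.symm hlb.symm, pt_ne hjb.symm hlb.symm, h2]
  · intro i hia hib
    by_cases hij : i = j
    · subst hij
      rw [pt_j hjl, pt_j hjl]
    · by_cases hil : i = l
      · subst hil
        rw [pt_l, pt_l, ej, el]
      · rw [pt_ne hij hil, pt_ne hij hil, h3 i hia hib]

/-- pairs sharing the column `a` -/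
theorem contr2 {s : κ → ℕ} {p : ℕ} {f : (κ → ℕ) → ℝ} {D : ℝ} (hf : Lip s p f D) {x y : κ → ℕ}
    (hx : x ∈ B s p) (hy : y ∈ B s p) {a b : κ} (hxy : Adj a b x y) {l : κ}
    (hla : l ≠ a) (hlb : l ≠ b) :
    |av s p a l f x - av s p a l f y| ≤ D := by
  obtain ⟨hab, h1, h2, h3⟩ := hxy
  have el := h3 l hla hlb
  have hxs := (mem_B.mp hx).1
  have hys := (mem_B.mp hy).1
  rw [av_eq hla.symm hx, av_eq hla.symm hy]
  have hj := hxs a
  have hl := hxs l
  have hj' := hys a
  refine coup _ _ _ _ (by omega) (by omega) (by omega) (by omega) _ _ D ?_ ?_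
  · intro u a1 a2 a3 a4
    refine hf _ (pt_mem hla.symm hx a1 a2) _ (pt_mem hla.symm hy a3 a4) l b ⟨hlb, ?_, ?_, ?_⟩
    · rw [pt_l, pt_l]
      omega
    · rw [pt_ne hab.symm hlb.symm, pt_ne hab.symm hlb.symm, h2]
    · intro i hil hib
      by_cases hij : i = a
      · subst hij
        rw [pt_j hla.symm, pt_j hla.symm]
      · rw [pt_ne hij hil, pt_ne hij hil, h3 i hij hib]
  · intro u a1 a2 a3 a4
    refine hf _ (pt_mem hla.symm hx a1 a2) _ (pt_mem hla.symm hy a3 a4) a b ⟨hab, ?_, ?_, ?_⟩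
    · rw [pt_j hla.symm, pt_j hla.symm]
    · rw [pt_ne hab.symm hlb.symm, pt_ne hab.symm hlb.symm, h2]
    · intro i hia hib
      by_cases hil : i = l
      · subst hil
        rw [pt_l, pt_l]
        omega
      · rw [pt_ne hia hil, pt_ne hia hil, h3 i hia hib]

/-- every pair -/
theorem contr {s : κ → ℕ} {p : ℕ} {f : (κ → ℕ) → ℝ} {D : ℝ} (hD : 0 ≤ D) (hf : Lip s p f D)
    {x y : κ → ℕ} (hx : x ∈ B s p) (hy : y ∈ B s p) {a b : κ} (hxy : Adj a b x y) {j l : κ}
    (hjl : j ≠ l) : |av s p j l f x - av s p j l f y| ≤ D := by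
  by_cases hja : j = a
  · subst hja
    by_cases hlb : l = b
    · subst hlb
      rw [av_congr f hxy.2.2.2, sub_self, abs_zero]
      exact hD
    · exact contr2 hf hx hy hxy hjl.symm hlb
  · by_cases hjb : j = b
    · subst hjb
      by_cases hla : l = a
      · subst hla
        rw [av_symm s p j l f x, av_symm s p j l f y, av_congr f hxy.2.2.2, sub_self, abs_zero]
        exact hD
      · have := contr2 hf hy hx hxy.symm hjl.symm hla
        rwa [abs_sub_comm]
    · by_cases hla : l = a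
      · subst hla
        rw [av_symm s p j l f x, av_symm s p j l f y]
        exact contr2 hf hx hy hxy hjl hjb
      · by_cases hlb : l = b
        · subst hlb
          rw [av_symm s p j l f x, av_symm s p j l f y, abs_sub_comm]
          exact contr2 hf hy hx hxy.symm hjl hja
        · exact contr1 hf hx hy hxy hjl hja hjb hla hlb

/-- connectivity -/
theorem conn {s : κ → ℕ} {p : ℕ} {f : (κ → ℕ) → ℝ} (hf : Lip s p f 0) :
    ∀ (N : ℕ) (x y : κ → ℕ), x ∈ B s p → y ∈ B s p → ∑ i, (x i - y i) = N → f x = f y := by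
  intro N
  induction N with
  | zero =>
    intro x y hx hy h
    have h1 : ∀ i, x i ≤ y i := by
      intro i
      have := (sum_eq_zero_iff.mp h) i (mem_univ i)
      omega
    have h2 : ∑ i, x i = ∑ i, y i := by rw [(mem_B.mp hx).2, (mem_B.mp hy).2]
    have h3 := (sum_eq_sum_iff_of_le (fun i _ => h1 i)).mp h2
    have : x = y := funext fun i => h3 i (mem_univ i)
    rw [this]
  | succ N ih =>
    intro x y hx hy h
    obtain ⟨b, hb⟩ : ∃ b, y b < x b := by
      by_contra hcon
      push Not at hcon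
      have : ∑ i, (x i - y i) = 0 := sum_eq_zero fun i _ => by have := hcon i; omega
      omega
    obtain ⟨a, ha⟩ : ∃ a, x a < y a := by
      by_contra hcon
      push Not at hcon
      have h2 : ∑ i, y i < ∑ i, x i :=
        sum_lt_sum (fun i _ => hcon i) ⟨b, mem_univ b, hb⟩
      rw [(mem_B.mp hx).2, (mem_B.mp hy).2] at h2
      omega
    have hab : a ≠ b := by
      rintro rfl
      omega
    set x' : κ → ℕ := Function.update (Function.update x a (x a + 1)) b (x b - 1) with hx'
    have e1 : x' a = x a + 1 := by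
      rw [hx', Function.update_of_ne hab, Function.update_self]
    have e2 : x' b = x b - 1 := by rw [hx', Function.update_self]
    have e3 : ∀ i, i ≠ a → i ≠ b → x' i = x i := by
      intro i h1 h2
      rw [hx', Function.update_of_ne h2, Function.update_of_ne h1]
    have hadj : Adj a b x x' := ⟨hab, e1, by omega, e3⟩
    have hxs := mem_B.mp hx
    have hys := mem_B.mp hy
    have hx'B : x' ∈ B s p := by
      rw [mem_B]
      constructor
      · intro i
        by_cases hia : i = a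
        · subst hia
          have := hys.1 i
          omega
        · by_cases hib : i = b
          · subst hib
            have := hxs.1 i
            omega
          · rw [e3 i hia hib]
            exact hxs.1 i
      · rw [(sum_two hab x x' e3).mpr (by omega), hxs.2]
    have h5 : f x = f x' := by
      have := hf x hx x' hx'B a b hadj
      have := abs_nonpos_iff.mp this
      linarith
    rw [h5]
    refine ih x' y hx'B hy ?_
    have h6 : ∑ i, (x i - y i) = ∑ i, (x' i - y i) + 1 := by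
      rw [← add_sum_erase univ (fun i => x i - y i) (mem_univ b),
        ← add_sum_erase univ (fun i => x' i - y i) (mem_univ b)]
      have h7 : ∑ i ∈ univ.erase b, (x i - y i) = ∑ i ∈ univ.erase b, (x' i - y i) := by
        refine sum_congr rfl fun i hi => ?_
        by_cases hia : i = a
        · subst hia
          omega
        · rw [e3 i hia (ne_of_mem_erase hi)]
      rw [h7]
      omega
    omega

/-- the operator `∑_{j ≠ l} (1 - E_jl)` (ordered pairs) -/
noncomputable def TT (s : κ → ℕ) (p : ℕ) (f : (κ → ℕ) → ℝ) (x : κ → ℕ) : ℝ :=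
  ∑ q ∈ (univ : Finset κ).offDiag, (f x - av s p q.1 q.2 f x)

/-- eigenvalue bound -/
theorem eig {s : κ → ℕ} {p : ℕ} {f : (κ → ℕ) → ℝ} {nu : ℝ} (hT : ∀ x ∈ B s p, TT s p f x = nu * f x)
    (hne : ∃ x ∈ B s p, ∃ y ∈ B s p, f x ≠ f y) : 2 ≤ nu := by
  classical
  set P : Finset (((κ → ℕ) × (κ → ℕ)) × (κ × κ)) :=
    ((B s p ×ˢ B s p) ×ˢ (univ ×ˢ univ)).filter
      (fun z => z.2.1 ≠ z.2.2 ∧ z.1.2 z.2.1 = z.1.1 z.2.1 + 1 ∧ z.1.1 z.2.2 = z.1.2 z.2.2 + 1 ∧
        ∀ i, i ≠ z.2.1 → i ≠ z.2.2 → z.1.2 i = z.1.1 i) with hP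
  have hPmem : ∀ x ∈ B s p, ∀ y ∈ B s p, ∀ a b, Adj a b x y → ((x, y), (a, b)) ∈ P := by
    intro x hx y hy a b h
    rw [hP, mem_filter]
    exact ⟨mem_product.mpr ⟨mem_product.mpr ⟨hx, hy⟩, mem_product.mpr ⟨mem_univ _, mem_univ _⟩⟩, h⟩
  obtain ⟨x0, hx0, y0, hy0, hxy0⟩ := hne
  have hPne : P.Nonempty := by
    by_contra hcon
    rw [not_nonempty_iff_eq_empty] at hcon
    apply hxy0
    refine conn (s := s) (p := p) ?_ _ x0 y0 hx0 hy0 rfl
    intro x hx y hy a b h
    have := hPmem x hx y hy a b h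
    rw [hcon] at this
    simp at this
  obtain ⟨z, hz, hmax⟩ := exists_max_image P (fun z => |f z.1.1 - f z.1.2|) hPne
  rw [hP, mem_filter, mem_product, mem_product] at hz
  obtain ⟨⟨⟨hzx, hzy⟩, -⟩, hadj0⟩ := hz
  have hadj : Adj z.2.1 z.2.2 z.1.1 z.1.2 := hadj0
  set D : ℝ := |f z.1.1 - f z.1.2| with hDdef
  have hLip : Lip s p f D := fun x hx y hy a b h => hmax _ (hPmem x hx y hy a b h)
  have hD0 : 0 ≤ D := abs_nonneg _
  have hDpos : 0 < D := by
    rcases hD0.lt_or_eq with h | h
    · exact h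
    · exfalso
      apply hxy0
      rw [← h] at hLip
      exact conn hLip _ x0 y0 hx0 hy0 rfl
  -- oriented version
  have main : ∀ x y a b, x ∈ B s p → y ∈ B s p → Adj a b x y → f x - f y = D → 2 ≤ nu := by
    intro x y a b hx hy hxy hD
    have h1 : nu * D = ∑ q ∈ (univ : Finset κ).offDiag,
        (D - (av s p q.1 q.2 f x - av s p q.1 q.2 f y)) := by
      have e1 : nu * D = TT s p f x - TT s p f y := by
        rw [hT x hx, hT y hy, ← hD]
        ring
      rw [e1]
      unfold TT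
      rw [← sum_sub_distrib]
      refine sum_congr rfl fun q _ => ?_
      rw [← hD]
      ring
    have h2 : ∀ q ∈ (univ : Finset κ).offDiag,
        0 ≤ D - (av s p q.1 q.2 f x - av s p q.1 q.2 f y) := by
      intro q hq
      rw [mem_offDiag] at hq
      have := contr hD0 hLip hx hy hxy hq.2.2
      have := (abs_le.mp this).2
      linarith
    have hsub : ({(a, b), (b, a)} : Finset (κ × κ)) ⊆ (univ : Finset κ).offDiag := by
      intro q hq
      rw [mem_insert, mem_singleton] at hq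
      rw [mem_offDiag]
      rcases hq with rfl | rfl
      · exact ⟨mem_univ _, mem_univ _, hxy.1⟩
      · exact ⟨mem_univ _, mem_univ _, hxy.1.symm⟩
    have h3 := sum_le_sum_of_subset_of_nonneg hsub (fun q hq _ => h2 q hq)
    have hne2 : (a, b) ≠ (b, a) := by
      intro h
      exact hxy.1 (congrArg Prod.fst h)
    rw [sum_pair hne2, ← h1] at h3
    have e1 : av s p a b f y = av s p a b f x := av_congr f hxy.2.2.2
    have e2 : av s p b a f y = av s p b a f x := by
      rw [av_symm s p b a f y, av_symm s p b a f x, e1]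
    simp only [e1, e2, sub_self, sub_zero] at h3
    by_contra hcon
    push Not at hcon
    nlinarith
  rcases abs_cases (f z.1.1 - f z.1.2) with ⟨h, -⟩ | ⟨h, -⟩
  · exact main _ _ _ _ hzx hzy hadj (by rw [hDdef, h])
  · exact main _ _ _ _ hzy hzx hadj.symm (by rw [hDdef, h]; ring)

theorem av_add (s : κ → ℕ) (p : ℕ) (j l : κ) (f g : (κ → ℕ) → ℝ) (x : κ → ℕ) :
    av s p j l (fun y => f y + g y) x = av s p j l f x + av s p j l g x := by
  unfold av
  rw [sum_add_distrib, add_div]

theorem av_smul (s : κ → ℕ) (p : ℕ) (j l : κ) (c : ℝ) (f : (κ → ℕ) → ℝ) (x : κ → ℕ) :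
    av s p j l (fun y => c * f y) x = c * av s p j l f x := by
  unfold av
  rw [← mul_sum, mul_div_assoc]

/-- extension by zero -/
noncomputable def ext0 (s : κ → ℕ) (p : ℕ) (g : {x // x ∈ B s p} → ℝ) (x : κ → ℕ) : ℝ :=
  if h : x ∈ B s p then g ⟨x, h⟩ else 0

theorem ext0_mem {s : κ → ℕ} {p : ℕ} (g : {x // x ∈ B s p} → ℝ) {x : κ → ℕ} (h : x ∈ B s p) :
    ext0 s p g x = g ⟨x, h⟩ := dif_pos h

/-- the operator on functions on `B s p` -/
noncomputable def TL (s : κ → ℕ) (p : ℕ) : ({x // x ∈ B s p} → ℝ) →ₗ[ℝ] ({x // x ∈ B s p} → ℝ) where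
  toFun g := fun x => (1 / 2) * TT s p (ext0 s p g) x.1
  map_add' g h := by
    funext x
    have e0 : ext0 s p (g + h) = fun y => ext0 s p g y + ext0 s p h y := by
      funext y
      unfold ext0
      split_ifs
      · rfl
      · simp
    rw [Pi.add_apply, e0]
    unfold TT
    rw [← mul_add, ← sum_add_distrib]
    congr 1
    refine sum_congr rfl fun q _ => ?_
    rw [av_add]
    ring
  map_smul' c g := by
    funext x
    have e0 : ext0 s p (c • g) = fun y => c * ext0 s p g y := by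
      funext y
      unfold ext0
      split_ifs
      · rfl
      · simp
    rw [Pi.smul_apply, smul_eq_mul, e0, RingHom.id_apply]
    have e1 : TT s p (fun y => c * ext0 s p g y) x.1 = c * TT s p (ext0 s p g) x.1 := by
      unfold TT
      rw [mul_sum]
      refine sum_congr rfl fun q _ => ?_
      rw [av_smul]
      ring
    rw [e1]
    ring

/-- module TWOCOL -/
theorem twocol (s : κ → ℕ) (p : ℕ) (f : (κ → ℕ) → ℝ) (hf : ∑ x ∈ B s p, f x = 0) :
    2 * ∑ x ∈ B s p, f x ^ 2 ≤
      ∑ q ∈ (univ : Finset κ).offDiag, ∑ x ∈ B s p, (f x - av s p q.1 q.2 f x) ^ 2 := by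
  classical
  have avext : ∀ (g h : (κ → ℕ) → ℝ), (∀ x ∈ B s p, g x = h x) → ∀ j l x,
      av s p j l g x = av s p j l h x := by
    intro g h hgh j l x
    unfold av
    congr 1
    exact sum_congr rfl fun y hy => hgh y (mem_filter.mp hy).1
  have hattach : ∀ g : (κ → ℕ) → ℝ, ∑ x : {x // x ∈ B s p}, g x.1 = ∑ x ∈ B s p, g x :=
    fun g => sum_coe_sort (B s p) g
  have hTLapp : ∀ (g : {x // x ∈ B s p} → ℝ) (x), TL s p g x = (1 / 2) * TT s p (ext0 s p g) x.1 :=
    fun g x => rfl
  have hip : ∀ g h : (κ → ℕ) → ℝ, ∑ x ∈ B s p, TT s p g x * h x = ∑ x ∈ B s p, g x * TT s p h x := by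
    intro g h
    unfold TT
    simp only [sum_mul, mul_sum]
    rw [sum_comm]
    conv_rhs => rw [sum_comm]
    refine sum_congr rfl fun q _ => ?_
    have := av_ip s p q.1 q.2 g h
    have e1 : ∑ x ∈ B s p, (g x - av s p q.1 q.2 g x) * h x =
        ∑ x ∈ B s p, g x * h x - ∑ x ∈ B s p, av s p q.1 q.2 g x * h x := by
      rw [← sum_sub_distrib]
      exact sum_congr rfl fun x _ => by ring
    have e2 : ∑ x ∈ B s p, g x * (h x - av s p q.1 q.2 h x) =
        ∑ x ∈ B s p, g x * h x - ∑ x ∈ B s p, g x * av s p q.1 q.2 h x := by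
      rw [← sum_sub_distrib]
      exact sum_congr rfl fun x _ => by ring
    rw [e1, e2, this]
  have key := spec3v (TL s p)
    (by
      intro g h
      have e1 : ∑ x, TL s p g x * h x =
          (1 / 2) * ∑ x ∈ B s p, TT s p (ext0 s p g) x * ext0 s p h x := by
        rw [mul_sum, ← hattach (fun x => 1 / 2 * (TT s p (ext0 s p g) x * ext0 s p h x))]
        refine sum_congr rfl fun x _ => ?_
        rw [hTLapp, ext0_mem h x.2]
        ring
      have e2 : ∑ x, g x * TL s p h x =
          (1 / 2) * ∑ x ∈ B s p, ext0 s p g x * TT s p (ext0 s p h) x := by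
        rw [mul_sum, ← hattach (fun x => 1 / 2 * (ext0 s p g x * TT s p (ext0 s p h) x))]
        refine sum_congr rfl fun x _ => ?_
        rw [hTLapp, ext0_mem g x.2]
        ring
      rw [e1, e2, hip])
    (by
      funext x
      rw [hTLapp, Pi.zero_apply]
      have : TT s p (ext0 s p fun _ => 1) x.1 = 0 := by
        unfold TT
        refine sum_eq_zero fun q _ => ?_
        have e1 : av s p q.1 q.2 (ext0 s p fun _ => 1) x.1 = 1 := by
          unfold av
          have h0 := fib_card_pos (j := q.1) (l := q.2) x.2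
          have h1 : ∑ y ∈ fib s p q.1 q.2 x.1, ext0 s p (fun _ => 1) y =
              ((fib s p q.1 q.2 x.1).card : ℝ) := by
            rw [← nsmul_one, ← sum_const]
            exact sum_congr rfl fun y hy => ext0_mem _ (mem_filter.mp hy).1
          rw [h1]
          exact div_self (by exact_mod_cast h0.ne')
        rw [e1, ext0_mem _ x.2, sub_self]
      rw [this, mul_zero])
    (by
      intro nu g hg hg0 hT
      have h2 : 2 ≤ 2 * nu := by
        refine eig (s := s) (p := p) (f := ext0 s p g) ?_ ?_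
        · intro x hx
          have := congrFun hT ⟨x, hx⟩
          rw [hTLapp, Pi.smul_apply, smul_eq_mul] at this
          rw [ext0_mem g hx]
          linarith
        · by_contra hcon
          push Not at hcon
          apply hg
          funext x
          rw [Pi.zero_apply]
          have h3 : ∀ y : {x // x ∈ B s p}, g y = g x := by
            intro y
            have := hcon y.1 y.2 x.1 x.2
            rwa [ext0_mem g y.2, ext0_mem g x.2] at this
          have h4 : ∑ y, g y = (Fintype.card {x // x ∈ B s p} : ℝ) * g x := by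
            rw [sum_congr rfl fun y _ => h3 y, sum_const, card_univ, nsmul_eq_mul]
          rw [hg0] at h4
          have h5 : (Fintype.card {x // x ∈ B s p} : ℝ) ≠ 0 := by
            have : 0 < Fintype.card {x // x ∈ B s p} := Fintype.card_pos_iff.mpr ⟨x⟩
            exact_mod_cast this.ne'
          rcases mul_eq_zero.mp h4.symm with h | h
          · exact absurd h h5
          · exact h
      linarith)
    (fun x => f x.1) (by rw [hattach f, hf])
  have e0 : ∀ x ∈ B s p, ext0 s p (fun x => f x.1) x = f x := fun x hx => ext0_mem _ hx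
  have e1 : ∑ x : {x // x ∈ B s p}, f x.1 * f x.1 = ∑ x ∈ B s p, f x ^ 2 := by
    rw [hattach (fun x => f x * f x)]
    exact sum_congr rfl fun x _ => by ring
  have e2 : ∑ x : {x // x ∈ B s p}, f x.1 * TL s p (fun x => f x.1) x =
      (1 / 2) * ∑ q ∈ (univ : Finset κ).offDiag, ∑ x ∈ B s p, (f x - av s p q.1 q.2 f x) ^ 2 := by
    have e3 : ∀ q ∈ (univ : Finset κ).offDiag, ∑ x ∈ B s p, (f x - av s p q.1 q.2 f x) ^ 2 =
        ∑ x ∈ B s p, f x * (f x - av s p q.1 q.2 f x) := fun q _ => av_sq s p q.1 q.2 f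
    rw [sum_congr rfl e3, sum_comm, mul_sum,
      ← hattach (fun x => 1 / 2 * ∑ q ∈ (univ : Finset κ).offDiag, f x * (f x - av s p q.1 q.2 f x))]
    refine sum_congr rfl fun x _ => ?_
    rw [hTLapp]
    unfold TT
    rw [← mul_sum]
    have e4 : ∑ q ∈ (univ : Finset κ).offDiag, (ext0 s p (fun x => f x.1) x.1 -
        av s p q.1 q.2 (ext0 s p fun x => f x.1) x.1) =
        ∑ q ∈ (univ : Finset κ).offDiag, (f x.1 - av s p q.1 q.2 f x.1) := by
      refine sum_congr rfl fun q _ => ?_
      rw [e0 _ x.2, avext _ f e0]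
    rw [e4]
    ring
  rw [e1, e2] at key
  linarith

end fib

/-- module TWOC -/
theorem thm : StmtTWOC.{v} := by
  intro κ _ _ s p f
  classical
  by_cases hB : (B s p).card = 0
  · rw [card_eq_zero] at hB
    simp [hB]
  have hBr : ((B s p).card : ℝ) ≠ 0 := by exact_mod_cast hB
  set m : ℝ := avg (B s p) f with hm
  have h0 : ∑ x ∈ B s p, (f x - m) = 0 := by
    rw [sum_sub_distrib, sum_const, nsmul_eq_mul, hm, avg]
    field_simp
    ring
  have h1 := twocol s p (fun x => f x - m) h0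
  have h2 : ∀ q ∈ (univ : Finset κ).offDiag,
      ∑ x ∈ B s p, ((f x - m) - av s p q.1 q.2 (fun x => f x - m) x) ^ 2 =
      ∑ x ∈ B s p, (f x - avg (LnB s p q.1 q.2 x) f) ^ 2 := by
    intro q _
    refine sum_congr rfl fun x hx => ?_
    have e1 : av s p q.1 q.2 (fun x => f x - m) x = avg (LnB s p q.1 q.2 x) f - m := by
      have hc := fib_card_pos (j := q.1) (l := q.2) hx
      have hc' : ((fib s p q.1 q.2 x).card : ℝ) ≠ 0 := by exact_mod_cast hc.ne'
      have e2 : LnB s p q.1 q.2 x = fib s p q.1 q.2 x := rfl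
      rw [e2]
      unfold av avg
      rw [sum_sub_distrib, sum_const, nsmul_eq_mul]
      field_simp
    rw [e1]
    ring
  rw [sum_congr rfl h2] at h1
  have h3 : ∑ q ∈ (univ : Finset κ).offDiag, ∑ x ∈ B s p, (f x - avg (LnB s p q.1 q.2 x) f) ^ 2 ≤
      ∑ a, ∑ b, ∑ x ∈ B s p, (f x - avg (LnB s p a b x) f) ^ 2 := by
    have e3 : ∑ a, ∑ b, ∑ x ∈ B s p, (f x - avg (LnB s p a b x) f) ^ 2 =
        ∑ q ∈ (univ : Finset κ) ×ˢ (univ : Finset κ),
          ∑ x ∈ B s p, (f x - avg (LnB s p q.1 q.2 x) f) ^ 2 :=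
      (sum_product (univ : Finset κ) (univ : Finset κ)
        (fun q => ∑ x ∈ B s p, (f x - avg (LnB s p q.1 q.2 x) f) ^ 2)).symm
    rw [e3]
    refine sum_le_sum_of_subset_of_nonneg (fun q _ => ?_)
      (fun q _ _ => sum_nonneg fun x _ => sq_nonneg _)
    exact mem_product.mpr ⟨mem_univ _, mem_univ _⟩
  have h4 : 0 ≤ ∑ x ∈ B s p, (f x - m) ^ 2 := sum_nonneg fun x _ => sq_nonneg _
  linarith

end Vale.P328B.TWOC
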