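import Vale.Agent.P328.B.EndDefs
import Vale.Agent.P328.B.TWOC
import Vale.Agent.P328.B.FBL
import Vale.Agent.P328.B.INT
import Vale.Agent.P328.B.LNX
import Vale.Agent.P328.B.DPR
import Vale.Agent.P328.B.DYC
import Vale.Agent.P328.B.MIXB
import Vale.Agent.P328.B.STARB
import Vale.Agent.P328.B.FINB
import Vale.Agent.P328.B.ASM1
import Vale.Agent.P328.B.GLUE

/-! # P328, binary margins: everything together (helper1) -/

namespace Vale.P328B.ALL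
open Finset BigOperators Vale.P328U Vale.P328B

theorem finb : StmtFINB :=
  FINB.thm (STARB.thm (MIXB.thm.{0, 0} (DYC.thm DPR.thm (FBL.thm TWOC.thm) (LNX.thm INT.thm))))

/-- the constant of the Poincare inequality, simplified -/
noncomputable def CC (m n N : ℕ) : ℝ :=
  2000 * (m : ℝ) ^ 3 * (n : ℝ) ^ 9 * (1 + Real.log ((N : ℝ) + 2))

theorem one_le_CC (m n N : ℕ) (hm : 1 ≤ m) (hn : 1 ≤ n) : 1 ≤ CC m n N := by
  unfold CC
  have hm' : (1 : ℝ) ≤ m := by exact_mod_cast hm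
  have hn' : (1 : ℝ) ≤ n := by exact_mod_cast hn
  have hl : 0 ≤ Real.log ((N : ℝ) + 2) :=
    Real.log_nonneg (by linarith [(Nat.cast_nonneg N : (0 : ℝ) ≤ N)])
  have h1 : (1 : ℝ) ≤ (m : ℝ) ^ 3 := one_le_pow₀ hm'
  have h2 : (1 : ℝ) ≤ (n : ℝ) ^ 9 := one_le_pow₀ hn'
  have h3 : (1 : ℝ) ≤ (m : ℝ) ^ 3 * (n : ℝ) ^ 9 := by nlinarith
  have h4 : (m : ℝ) ^ 3 * (n : ℝ) ^ 9 ≤ (m : ℝ) ^ 3 * (n : ℝ) ^ 9 * (1 + Real.log ((N : ℝ) + 2)) :=
    le_mul_of_one_le_right (by linarith) (by linarith)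
  have : 2000 * (m : ℝ) ^ 3 * (n : ℝ) ^ 9 * (1 + Real.log ((N : ℝ) + 2)) =
    2000 * ((m : ℝ) ^ 3 * (n : ℝ) ^ 9 * (1 + Real.log ((N : ℝ) + 2))) := by ring
  linarith

/-- The Poincare inequality for the margins with the extra unit. -/
theorem poinc {m n N : ℕ} (r : Fin m → ℕ) (c : Fin n → ℕ) (h : Fin m) (J : Fin n)
    (hmax : ∀ k, r k ≤ r h) (hr : ∑ i, r i = N) (hc : ∑ j, c j = N) :
    PoinC (fun k : {k : Fin m // k ≠ h} => (r + Pi.single h 1 : Fin m → ℕ) k.1)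
      (c + Pi.single J 1) (CC m n N) := by
  have hm : 1 ≤ m := Fin.pos h
  have hn : 1 ≤ n := Fin.pos J
  exact GLUE.poinc_mono (GLUE.poinc_of ASM1.KB ASM1.poib r c h J hmax hr hc)
    (GLUE.KB_le m n N hm hn)

/-- **Almost uniform sampler, binary margins.**  All hypotheses are elementary. -/
theorem fin (m n N D : ℕ) (r : Fin m → ℕ) (c : Fin n → ℕ) (h : Fin m) (J : Fin n) (ε : ℝ)
    (K T : ℕ) (X₀ : Fin m → Fin n → ℕ)
    (hmax : ∀ k, r k ≤ r h) (hr : ∑ i, r i = N) (hc : ∑ j, c j = N) (hX₀ : X₀ ∈ Tables r c)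
    (hε : 0 < ε) (hε1 : ε < 1) (hD : N < 2 ^ (D + 1))
    (hK : 2 * m * n * Real.log (4 / ε) ≤ K)
    (hT : (8 * (m : ℝ) * (n : ℝ) ^ 2 * ((D : ℝ) + 1) ^ 2 * CC m n N) *
      (m * n * Real.log (N + 2) + Real.log (8 * m * n / ε)) ≤ T) :
    (1 / 2) * ∑ X ∈ Tables r c, |lawOf (fun ω : Fin K → Fin T → Fin m × Fin n × Fin n ×
        Fin (D + 1) × Bool => dySampler h J X₀ ω) X - 1 / ((Tables r c).card : ℝ)| ≤ ε :=
  finb m n N D r c h J ε (CC m n N) K T X₀ hmax hr hc hX₀ hε hε1 hD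
    (one_le_CC m n N (Fin.pos h) (Fin.pos J)) (poinc r c h J hmax hr hc) hK hT

end Vale.P328B.ALL
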