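import Vale.Agent.P328.B.Prog
import Vale.Agent.P328.U.GEN

/-!
# P328, the program: values of `attemptC` and `loopC` (helper6)
-/

namespace Vale.P328B.PT.ATT
open Finset BigOperators Vale.P328U Vale.P328B.PT

/-- value of a monadic fold -/
theorem fold_val {α β : Type} (f : β → α → Comp β) (l : List α) (a : β) :
    ((l.foldlM f a : Comp β)).val = l.foldl (fun a x => (f a x).val) a := by
  induction l generalizing a with
  | nil => rfl
  | cons x l ih =>
    have : (((x :: l).foldlM f a : Comp β)).val = ((l.foldlM f (f a x).val : Comp β)).val := rfl
    rw [this, ih]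
    rfl

variable {m n : ℕ}

theorem sub_E (Y : Fin m → Fin n → ℕ) (h : Fin m) (J : Fin n) :
    Function.update Y h (Function.update (Y h) J (Y h J - 1)) = Y - E h J := by
  funext a b
  simp only [Pi.sub_apply, E, e, Pi.single_apply]
  by_cases ha : a = h
  · subst ha
    by_cases hb : b = J
    · subst hb; simp
    · simp [hb]
  · simp [ha]

/-- the run of the program is the run of the specification -/
theorem run_val {D T : ℕ} (h : Fin m) (X₁ : Fin m → Fin n → ℕ) (ω : Fin T → Draw m n D)
    (h1 : ∀ (X : Fin m → Fin n → ℕ) (u : Draw m n D), (stepC h X u).val = pStep h X u) :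
    (((List.ofFn ω).foldlM (fun X u => do
      tick (len T)
      stepC h X u) X₁ : Comp (Fin m → Fin n → ℕ))).val = pRun h X₁ ω := by
  rw [fold_val]
  unfold pRun
  congr 1
  funext X u
  exact h1 X u

/-- value of one attempt -/
theorem attempt_val {D T : ℕ} (h : Fin m) (J : Fin n) (X₁ : Fin m → Fin n → ℕ)
    (h1 : ∀ (X : Fin m → Fin n → ℕ) (u : Draw m n D), (stepC h X u).val = pStep h X u)
    (w : Fin T → Draw m n D) :
    (attemptC h J X₁ w).val =
      GEN.gatt h J (fun w : Fin T → Draw m n D => pRun h X₁ w) w := by
  have e1 : (attemptC h J X₁ w).val =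
      (if decide (1 ≤ (((List.ofFn w).foldlM (fun X u => do
          tick (len T)
          stepC h X u) X₁ : Comp (Fin m → Fin n → ℕ))).val h J) = true then
        (do
          let v' ← subC ((((List.ofFn w).foldlM (fun X u => do
            tick (len T)
            stepC h X u) X₁ : Comp (Fin m → Fin n → ℕ))).val h J) 1
          let Y' ← setC (((List.ofFn w).foldlM (fun X u => do
            tick (len T)
            stepC h X u) X₁ : Comp (Fin m → Fin n → ℕ))).val h J v'
          pure (some Y') : Comp (Option (Fin m → Fin n → ℕ)))
        else pure none).val := rfl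
  rw [e1, run_val h X₁ w h1]
  unfold GEN.gatt
  by_cases hc : 1 ≤ pRun h X₁ w h J
  · rw [if_pos hc, if_pos (by simpa using hc), ← sub_E]
    rfl
  · rw [if_neg hc, if_neg (by simpa using hc)]
    rfl

/-- one step of the search for the first success -/
def nxt {α β : Type} (g : α → Option β) (s : Option β) (w : α) : Option β :=
  match s with
  | some X => some X
  | none => g w

/-- once successful, the fold does not change any more -/
theorem foldl_some {α β : Type} (g : α → Option β) (l : List α) (X : β) :
    l.foldl (nxt g) (some X) = some X := by
  induction l with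
  | nil => rfl
  | cons x l ih => exact ih

/-- first success of a list of attempts -/
theorem foldl_none {α β : Type} (g : α → Option β) (l : List α) :
    l.foldl (nxt g) none = (l.map g).reduceOption.head? := by
  induction l with
  | nil => rfl
  | cons x l ih =>
    rw [List.foldl_cons]
    cases hx : g x with
    | some Y =>
      have : nxt g none x = some Y := hx
      rw [this, foldl_some]
      simp [List.map_cons, hx, List.reduceOption_cons_of_some]
    | none =>
      have : nxt g none x = none := hx
      rw [this, ih]
      simp [List.map_cons, hx, List.reduceOption_cons_of_none]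

/-- value of the loop -/
theorem loop_val {D T K : ℕ} (h : Fin m) (J : Fin n) (X₁ X₀ : Fin m → Fin n → ℕ)
    (h1 : ∀ (X : Fin m → Fin n → ℕ) (u : Draw m n D), (stepC h X u).val = pStep h X u)
    (om : Fin K → Fin T → Draw m n D) :
    ((loopC h J X₁ om).val).getD X₀ =
      GEN.gsam h J (fun w : Fin T → Draw m n D => pRun h X₁ w) X₀ om := by
  unfold loopC GEN.gsam
  rw [fold_val, ← foldl_none]
  refine congrArg (fun f => (List.foldl f none (List.ofFn om)).getD X₀) ?_
  funext s w
  cases s with
  | some X => rfl
  | none => exact attempt_val h J X₁ h1 w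

end Vale.P328B.PT.ATT
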