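import Vale.Agent.P328.B.Prog

/-! # P328, binary margins: running time of an attempt and of the loop (helper8) -/

namespace Vale.P328B.PT.ATTT
open Finset BigOperators Vale.P328U Vale.P328B.PT

/-- time of a fold with an invariant -/
theorem fold_time {α β : Type} (f : α → β → Comp α) (P : α → Prop) (S : ℕ)
    (hf : ∀ x u, P x → P (f x u).val ∧ (f x u).time ≤ S) (l : List β) :
    ∀ x, P x → P (l.foldlM f x).val ∧ (l.foldlM f x).time ≤ l.length * S := by
  induction l with
  | nil =>
    intro x hx
    exact ⟨hx, Nat.zero_le _⟩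
  | cons b l ih =>
    intro x hx
    have h1 := hf x b hx
    have h2 := ih (f x b).val h1.1
    refine ⟨h2.1, ?_⟩
    have e : (List.foldlM f x (b :: l)).time =
        (f x b).time + (l.foldlM f (f x b).val).time := rfl
    rw [e, List.length_cons, Nat.add_mul, Nat.one_mul]
    have h3 := h1.2
    have h4 := h2.2
    omega

variable {m n : ℕ}

/-- the length of an entry is at most the length of the table -/
theorem len_le_tlen (Y : Fin m → Fin n → ℕ) (i : Fin m) (j : Fin n) : len (Y i j) ≤ tlen Y := by
  unfold tlen
  refine le_trans ?_ (single_le_sum (f := fun i => ∑ j, len (Y i j))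
    (fun _ _ => Nat.zero_le _) (mem_univ i))
  exact single_le_sum (f := fun j => len (Y i j)) (fun _ _ => Nat.zero_le _) (mem_univ j)

theorem len_mono {x y : ℕ} (h : x ≤ y) : len x ≤ len y := by
  unfold len
  exact Nat.add_le_add_right (Nat.size_le_size h) 1

theorem len_one : len 1 = 2 := by
  unfold len
  simp

/-- running time of one attempt -/
theorem attempt_time {D T : ℕ} (h : Fin m) (J : Fin n) (X₁ : Fin m → Fin n → ℕ)
    (P : (Fin m → Fin n → ℕ) → Prop) (S L : ℕ) (hP : P X₁)
    (hS : ∀ X, ∀ u : Draw m n D, P X → P (stepC h X u).val ∧ (stepC h X u).time ≤ S)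
    (hL : ∀ X, P X → tlen X ≤ L) (ω : Fin T → Draw m n D) :
    (attemptC h J X₁ ω).time ≤ T * (len T + S) + (5 * L + 2 * len m + 2 * len n + 4) := by
  set g : (Fin m → Fin n → ℕ) → Draw m n D → Comp (Fin m → Fin n → ℕ) := fun X u => do
    tick (len T)
    stepC h X u with hg
  have hg1 : ∀ X u, (g X u).val = (stepC h X u).val := fun _ _ => rfl
  have hg2 : ∀ X u, (g X u).time = len T + (stepC h X u).time := fun _ _ => rfl
  have hf := fold_time g P (len T + S) (fun X u hX => by
    rw [hg1, hg2]
    exact ⟨(hS X u hX).1, Nat.add_le_add_left (hS X u hX).2 _⟩) (List.ofFn ω) X₁ hP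
  set Y := ((List.ofFn ω).foldlM g X₁).val with hY
  have hlen : (List.ofFn ω).length = T := List.length_ofFn
  rw [hlen] at hf
  have hYL := hL Y hf.1
  have hv := len_le_tlen Y h J
  have hv' : len (Y h J - 1) ≤ len (Y h J) := len_mono (Nat.sub_le _ _)
  have h1 := len_one
  have e : (attemptC h J X₁ ω).time = ((List.ofFn ω).foldlM g X₁).time +
      ((tlen Y + len m + len n) + ((len 1 + len (Y h J)) +
        (if decide (1 ≤ Y h J) = true then
          (do
            let v' ← subC (Y h J) 1
            let Y' ← setC Y h J v'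
            pure (some Y') : Comp (Option (Fin m → Fin n → ℕ))) else
          (pure none : Comp (Option (Fin m → Fin n → ℕ)))).time)) := rfl
  have e2 : (if decide (1 ≤ Y h J) = true then
          (do
            let v' ← subC (Y h J) 1
            let Y' ← setC Y h J v'
            pure (some Y') : Comp (Option (Fin m → Fin n → ℕ))) else
          (pure none : Comp (Option (Fin m → Fin n → ℕ)))).time ≤
      (len (Y h J) + len 1) + (tlen Y + len m + len n + len (Y h J - 1)) := by
    split_ifs
    · exact le_of_eq rfl
    · exact Nat.zero_le _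
  rw [e]
  have h5 := hf.2
  omega

/-- running time of the loop -/
theorem loop_time {D T K : ℕ} (h : Fin m) (J : Fin n) (X₁ : Fin m → Fin n → ℕ)
    (P : (Fin m → Fin n → ℕ) → Prop) (S L : ℕ) (hP : P X₁)
    (hS : ∀ X, ∀ u : Draw m n D, P X → P (stepC h X u).val ∧ (stepC h X u).time ≤ S)
    (hL : ∀ X, P X → tlen X ≤ L) (ω : Fin K → Fin T → Draw m n D) :
    (loopC h J X₁ ω).time ≤
      K * (len K + (T * (len T + S) + (5 * L + 2 * len m + 2 * len n + 4))) := by
  have hf := fold_time (fun (s : Option (Fin m → Fin n → ℕ)) (w : Fin T → Draw m n D) => do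
    tick (len K)
    match s with
    | some X => pure (some X)
    | none => attemptC h J X₁ w) (fun _ => True)
    (len K + (T * (len T + S) + (5 * L + 2 * len m + 2 * len n + 4))) ?_ (List.ofFn ω) none trivial
  · have h2 := hf.2
    rw [List.length_ofFn] at h2
    exact h2
  · intro s w _
    refine ⟨trivial, ?_⟩
    cases s with
    | some X => exact Nat.le_add_right _ _
    | none => exact Nat.add_le_add_left (attempt_time h J X₁ P S L hP hS hL w) _

end Vale.P328B.PT.ATTT
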