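import Mathlib

/-!
# P328, binary margins: abstract mixing lemma

`P` is an operator which contracts mean zero functions on the finite set `Om` in `L²`; `step` is a
step map driven by uniform choices whose operator is uniformly close to `P`.  Then the law after
`t` steps is close to uniform.  (Adapted from the unary module MIX of helper8.)
-/

namespace Vale.P328B
open Finset BigOperators

section avop
variable {α : Type*} {Ch : Type*} [Fintype Ch]

/-- average of `g` at the end point of `t` steps from `X` -/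
noncomputable def AVs (step : α → Ch → α) (t : ℕ) (g : α → ℝ) (X : α) : ℝ :=
  (∑ ω : Fin t → Ch, g ((List.ofFn ω).foldl step X)) / (Fintype.card (Fin t → Ch) : ℝ)

/-- one step -/
noncomputable def PPs (step : α → Ch → α) (g : α → ℝ) (X : α) : ℝ :=
  (∑ ch : Ch, g (step X ch)) / (Fintype.card Ch : ℝ)

theorem AVs_zero (step : α → Ch → α) (g : α → ℝ) (X : α) : AVs step 0 g X = g X := by
  unfold AVs
  have h : ∀ ω : Fin 0 → Ch, g ((List.ofFn ω).foldl step X) = g X := by
    intro ω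
    simp
  rw [Fintype.sum_congr _ _ h]
  simp

theorem AVs_succ (step : α → Ch → α) (t : ℕ) (g : α → ℝ) (X : α) :
    AVs step (t + 1) g X = PPs step (AVs step t g) X := by
  unfold AVs PPs
  have h1 : ∑ ω : Fin (t + 1) → Ch, g ((List.ofFn ω).foldl step X) =
      ∑ ch : Ch, ∑ ω : Fin t → Ch, g ((List.ofFn ω).foldl step (step X ch)) := by
    rw [← Fintype.sum_prod_type' (fun ch (ω : Fin t → Ch) =>
      g ((List.ofFn ω).foldl step (step X ch)))]
    refine (Fintype.sum_equiv (Fin.consEquiv (fun _ : Fin (t + 1) => Ch))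
      _ _ ?_).symm
    rintro ⟨ch, ω⟩
    show g ((List.ofFn ω).foldl step (step X ch)) =
      g ((List.ofFn (Fin.cons ch ω : Fin (t + 1) → Ch)).foldl step X)
    rw [List.ofFn_succ]
    simp
  rw [h1, ← sum_div, div_div]
  congr 1
  rw [Fintype.card_fun, Fintype.card_fun, Fintype.card_fin, Fintype.card_fin, pow_succ]
  push_cast
  ring

end avop

/-- iterate an operator -/
def iter {α : Type*} (P : (α → ℝ) → α → ℝ) : ℕ → (α → ℝ) → α → ℝ
  | 0, g => g
  | t + 1, g => P (iter P t g)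

theorem abs_mix {α : Type*} [DecidableEq α] (Om : Finset α) {Ch : Type*} [Fintype Ch] [Nonempty Ch]
    (step : α → Ch → α) (P : (α → ℝ) → α → ℝ) (γ η : ℝ) (hη : 0 ≤ η) (hγ0 : 0 ≤ 1 - γ)
    (hstep : ∀ X ∈ Om, ∀ ch, step X ch ∈ Om)
    (h2 : ∀ f : α → ℝ, ∑ X ∈ Om, f X = 0 →
      ∑ X ∈ Om, P f X = 0 ∧ ∑ X ∈ Om, P f X ^ 2 ≤ (1 - γ) * ∑ X ∈ Om, f X ^ 2)
    (h3 : ∀ (f : α → ℝ) (S : ℝ), (∀ X ∈ Om, |f X| ≤ S) →
      ∀ X ∈ Om, |PPs step f X - P f X| ≤ η * S)
    (h4 : ∀ (f : α → ℝ) (S : ℝ), (∀ X ∈ Om, |f X| ≤ S) → ∀ X ∈ Om, |P f X| ≤ S)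
    (X₀ : α) (hX₀ : X₀ ∈ Om) (t : ℕ) :
    ∑ X ∈ Om,
      |((univ.filter fun ω : Fin t → Ch => (List.ofFn ω).foldl step X₀ = X).card : ℝ) /
          (Fintype.card (Fin t → Ch) : ℝ) - 1 / (Om.card : ℝ)| ≤
      Real.sqrt Om.card * Real.sqrt ((1 - γ) ^ t) + 2 * t * η := by
  set N : ℝ := (Om.card : ℝ) with hN
  have hN0 : 0 < N := by
    rw [hN]
    exact_mod_cast card_pos.2 ⟨X₀, hX₀⟩
  set C : ℝ := (Fintype.card (Fin t → Ch) : ℝ) with hC
  have hC0 : 0 < C := by
    rw [hC]
    exact_mod_cast Fintype.card_pos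
  have hCh : (0 : ℝ) < (Fintype.card Ch : ℝ) := by exact_mod_cast Fintype.card_pos
  -- contraction
  have hcon : ∀ (g : α → ℝ), ∑ X ∈ Om, g X = 0 → ∀ s : ℕ,
      ∑ X ∈ Om, iter P s g X = 0 ∧
      ∑ X ∈ Om, iter P s g X ^ 2 ≤ (1 - γ) ^ s * ∑ X ∈ Om, g X ^ 2 := by
    intro g hg s
    induction s with
    | zero =>
      simp only [iter, pow_zero, one_mul]
      exact ⟨hg, le_refl _⟩
    | succ s ih =>
      have h := h2 (iter P s g) ih.1
      simp only [iter]
      refine ⟨h.1, h.2.trans ?_⟩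
      rw [pow_succ]
      calc (1 - γ) * ∑ X ∈ Om, iter P s g X ^ 2
          ≤ (1 - γ) * ((1 - γ) ^ s * ∑ X ∈ Om, g X ^ 2) :=
            mul_le_mul_of_nonneg_left ih.2 hγ0
        _ = _ := by ring
  -- comparison of the two chains
  have hcmp : ∀ (g : α → ℝ) (S : ℝ), (∀ X ∈ Om, |g X| ≤ S) → ∀ s : ℕ,
      (∀ X ∈ Om, |iter P s g X| ≤ S) ∧
      (∀ X ∈ Om, |AVs step s g X - iter P s g X| ≤ s * (η * S)) := by
    intro g S hg s
    induction s with
    | zero =>
      refine ⟨hg, fun X hX => ?_⟩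
      rw [AVs_zero]
      simp [iter]
    | succ s ih =>
      refine ⟨fun X hX => h4 _ S ih.1 X hX, fun X hX => ?_⟩
      rw [AVs_succ]
      show |PPs step (AVs step s g) X - P (iter P s g) X| ≤ _
      have e1 := h3 (iter P s g) S ih.1 X hX
      have e2 : |PPs step (AVs step s g) X - PPs step (iter P s g) X| ≤ s * (η * S) := by
        unfold PPs
        rw [← sub_div, ← sum_sub_distrib, abs_div, abs_of_pos hCh, div_le_iff₀ hCh]
        calc |∑ ch, (AVs step s g (step X ch) - iter P s g (step X ch))|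
            ≤ ∑ ch, |AVs step s g (step X ch) - iter P s g (step X ch)| := abs_sum_le_sum_abs _ _
          _ ≤ ∑ _ch : Ch, (s * (η * S) : ℝ) := sum_le_sum fun ch _ => ih.2 _ (hstep X hX ch)
          _ = s * (η * S) * (Fintype.card Ch : ℝ) := by
              rw [sum_const, nsmul_eq_mul, card_univ]; ring
      have e3 : PPs step (AVs step s g) X - P (iter P s g) X =
        (PPs step (AVs step s g) X - PPs step (iter P s g) X) +
        (PPs step (iter P s g) X - P (iter P s g) X) := by ring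
      rw [e3]
      refine (abs_add_le _ _).trans ?_
      push_cast
      linarith
  -- signs
  set law : α → ℝ := fun X =>
    ((univ.filter fun ω : Fin t → Ch => (List.ofFn ω).foldl step X₀ = X).card : ℝ) / C
    with hlaw
  set σ : α → ℝ := fun X => if 0 ≤ law X - 1 / N then 1 else -1 with hσ
  have hσabs : ∀ X, |law X - 1 / N| = σ X * (law X - 1 / N) := by
    intro X
    by_cases h : 0 ≤ law X - 1 / N
    · simp only [hσ, if_pos h, abs_of_nonneg h, one_mul]
    · simp only [hσ, if_neg h]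
      rw [abs_of_neg (not_le.1 h)]
      ring
  have hσsq : ∀ X, σ X ^ 2 = 1 := by
    intro X
    simp only [hσ]
    split_ifs <;> norm_num
  have hσ1 : ∀ X, |σ X| = 1 := by
    intro X
    simp only [hσ]
    split_ifs <;> norm_num
  set sb : ℝ := (∑ X ∈ Om, σ X) / N with hsb
  set g : α → ℝ := fun X => (if X ∈ Om then σ X else 0) - sb with hg
  have hg0 : ∑ X ∈ Om, g X = 0 := by
    simp only [hg, sum_sub_distrib, sum_const, nsmul_eq_mul]
    rw [sum_congr rfl (fun X hX => if_pos hX), hsb]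
    field_simp
    ring
  have hsb1 : |sb| ≤ 1 := by
    rw [hsb, abs_div, abs_of_pos hN0, div_le_one hN0]
    calc |∑ X ∈ Om, σ X| ≤ ∑ X ∈ Om, |σ X| := abs_sum_le_sum_abs _ _
      _ = N := by rw [sum_congr rfl fun X _ => hσ1 X]; simp [hN]
  have hgb : ∀ X ∈ Om, |g X| ≤ 2 := by
    intro X hX
    simp only [hg, if_pos hX]
    calc |σ X - sb| ≤ |σ X| + |sb| := abs_sub _ _
      _ ≤ 2 := by rw [hσ1]; linarith
  have hgsq : ∑ X ∈ Om, g X ^ 2 ≤ N := by
    have e : ∀ X ∈ Om, g X ^ 2 = 1 - 2 * sb * σ X + sb ^ 2 := by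
      intro X hX
      simp only [hg, if_pos hX]
      have := hσsq X
      nlinarith
    rw [sum_congr rfl e, sum_add_distrib, sum_sub_distrib, ← mul_sum]
    simp only [sum_const, nsmul_eq_mul]
    have h2 : ∑ X ∈ Om, σ X = sb * N := by rw [hsb]; field_simp
    rw [h2, ← hN]
    nlinarith [mul_nonneg hN0.le (sq_nonneg sb)]
  have hAVg : AVs step t g X₀ = ∑ X ∈ Om, |law X - 1 / N| := by
    have hmem : ∀ ω : Fin t → Ch, (List.ofFn ω).foldl step X₀ ∈ Om := by
      intro ω
      have : ∀ (L : List Ch) (X : α), X ∈ Om → L.foldl step X ∈ Om := by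
        intro L
        induction L with
        | nil => intro X hX; simpa using hX
        | cons a L ih => intro X hX; rw [List.foldl_cons]; exact ih _ (hstep X hX a)
      exact this _ _ hX₀
    have e1 : ∑ X ∈ Om, |law X - 1 / N| = ∑ X ∈ Om, σ X * law X - sb := by
      rw [sum_congr rfl (fun X _ => hσabs X)]
      rw [hsb, sum_div, ← sum_sub_distrib]
      exact sum_congr rfl fun X _ => by ring
    rw [e1]
    unfold AVs
    simp only [hg, sum_sub_distrib, sum_const, nsmul_eq_mul, card_univ]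
    rw [sub_div, ← hC, mul_div_assoc]
    have e2 : C * (sb / C) = sb := by field_simp
    rw [e2]
    congr 1
    simp only [hlaw]
    have e3 : ∀ X ∈ Om, σ X * (((univ.filter fun ω : Fin t → Ch =>
        (List.ofFn ω).foldl step X₀ = X).card : ℝ) / C) =
        (∑ ω : Fin t → Ch, if (List.ofFn ω).foldl step X₀ = X then σ X else 0) / C := by
      intro X _
      rw [← sum_filter, sum_const, nsmul_eq_mul]
      ring
    rw [sum_congr rfl e3, ← sum_div, sum_comm]
    congr 1
    refine sum_congr rfl fun ω _ => ?_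
    rw [sum_ite_eq]
  have hpt : iter P t g X₀ ^ 2 ≤ N * (1 - γ) ^ t := by
    have h1 : iter P t g X₀ ^ 2 ≤ ∑ X ∈ Om, iter P t g X ^ 2 :=
      single_le_sum (f := fun X => iter P t g X ^ 2) (fun X _ => sq_nonneg _) hX₀
    have h2 := (hcon g hg0 t).2
    have h3 : (1 - γ) ^ t * ∑ X ∈ Om, g X ^ 2 ≤ (1 - γ) ^ t * N :=
      mul_le_mul_of_nonneg_left hgsq (pow_nonneg hγ0 t)
    linarith
  have hfin : iter P t g X₀ ≤ Real.sqrt N * Real.sqrt ((1 - γ) ^ t) := by
    rw [← Real.sqrt_mul hN0.le]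
    exact Real.le_sqrt_of_sq_le hpt
  have hd := (hcmp g 2 hgb t).2 X₀ hX₀
  rw [← hAVg]
  have := (abs_le.1 hd).2
  linarith

end Vale.P328B
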