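import Vale.Agent.P328.U.Defs2

/-!
# P328, binary margins: the end of the proof (helper1)

`StmtPOIB` (helper25's theorem) gives the Poincare inequality for the row-pair resampling.  Here:
from there to the dyadic switch chain, its mixing time and the almost uniform sampler.
-/

namespace Vale.P328B
open Finset BigOperators Vale.P328U

universe u v

/-- average of `F` over a finite set -/
noncomputable def avg {α : Type*} (S : Finset α) (F : α → ℝ) : ℝ := (∑ Y ∈ S, F Y) / (S.card : ℝ)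

section
variable {ι : Type u} [Fintype ι] [DecidableEq ι] {κ : Type v} [Fintype κ] [DecidableEq κ]

/-- the fibre of `X` for row `k`: the tables which agree with `X` outside row `k` (and the hub) -/
def Fb (r : ι → ℕ) (c : κ → ℕ) (k : ι) (X : ι → κ → ℕ) : Finset (ι → κ → ℕ) :=
  (Om r c).filter fun Y => ∀ i, i ≠ k → Y i = X i

/-- the line of `X`: only the entries `(k,a)`, `(k,b)` (and the hub row) may change -/
def Ln (r : ι → ℕ) (c : κ → ℕ) (k : ι) (a b : κ) (X : ι → κ → ℕ) : Finset (ι → κ → ℕ) :=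
  (Om r c).filter fun Y => (∀ i, i ≠ k → Y i = X i) ∧ ∀ j, j ≠ a → j ≠ b → Y k j = X k j

/-- the two-row version of the line -/
def LnB (s : κ → ℕ) (p : ℕ) (a b : κ) (x : κ → ℕ) : Finset (κ → ℕ) :=
  (B s p).filter fun y => ∀ j, j ≠ a → j ≠ b → y j = x j

/-- the dyadic Dirichlet form: switches of `2 ^ e` units, `e ≤ D`, in row `k`, from column `a` to
column `b` -/
noncomputable def dyF (r : ι → ℕ) (c : κ → ℕ) (D : ℕ) (F : (ι → κ → ℕ) → ℝ) (k : ι) (a b : κ) :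
    ℝ :=
  ∑ d : Fin (D + 1), ∑ X ∈ Om r c,
    if a ≠ b ∧ 2 ^ (d : ℕ) ≤ X k a ∧ ∑ i, X i b + 2 ^ (d : ℕ) ≤ c b then
      (F (X + 2 ^ (d : ℕ) • E k b - 2 ^ (d : ℕ) • E k a) - F X) ^ 2 else 0

/-- one step of the dyadic chain with implicit hub; `k = none` is the idle (hub) row; the last
entry of the choice is a coin for laziness -/
def dst (c : κ → ℕ) (D : ℕ) (X : ι → κ → ℕ) (ch : Option ι × κ × κ × Fin (D + 1) × Bool) :
    ι → κ → ℕ :=
  match ch with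
  | (none, _, _, _, _) => X
  | (some k, a, b, d, co) =>
    if co = true ∧ a ≠ b ∧ 2 ^ (d : ℕ) ≤ X k a ∧ ∑ i, X i b + 2 ^ (d : ℕ) ≤ c b then
      X + 2 ^ (d : ℕ) • E k b - 2 ^ (d : ℕ) • E k a else X

/-- transition operator -/
noncomputable def PD (c : κ → ℕ) (D : ℕ) (f : (ι → κ → ℕ) → ℝ) (X : ι → κ → ℕ) : ℝ :=
  (∑ ch : Option ι × κ × κ × Fin (D + 1) × Bool, f (dst c D X ch)) /
    (Fintype.card (Option ι × κ × κ × Fin (D + 1) × Bool) : ℝ)

/-- run the chain along a sequence of choices -/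
def rnD (c : κ → ℕ) (D : ℕ) (X : ι → κ → ℕ) {t : ℕ}
    (ω : Fin t → Option ι × κ × κ × Fin (D + 1) × Bool) : ι → κ → ℕ :=
  (List.ofFn ω).foldl (dst c D) X

end

/-- contraction rate of the dyadic chain, from the constant `C` of the Poincare inequality -/
noncomputable def gapd (C : ℝ) (m' n D : ℕ) : ℝ :=
  1 / (4 * ((m' : ℝ) + 1) * (n : ℝ) ^ 2 * ((D : ℝ) + 1) ^ 2 * C)

/-- Poincare inequality with constant `C` for the row-pair resampling of the tables `Om r c` -/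
def PoinC {ι : Type u} [Fintype ι] [DecidableEq ι] {κ : Type v} [Fintype κ] [DecidableEq κ]
    (r : ι → ℕ) (c : κ → ℕ) (C : ℝ) : Prop :=
  ∀ F : (ι → κ → ℕ) → ℝ, ∑ X ∈ Om r c, F X = 0 →
    ∑ X ∈ Om r c, F X ^ 2 ≤ C * ∑ k, ∑ X ∈ Om r c, (F X - avg (Fb r c k X) F) ^ 2

/-- TWOC: two-row Poincare inequality (path coupling). -/
def StmtTWOC : Prop :=
  ∀ (κ : Type v) [Fintype κ] [DecidableEq κ] (s : κ → ℕ) (p : ℕ) (f : (κ → ℕ) → ℝ),
    ∑ x ∈ B s p, (f x - avg (B s p) f) ^ 2 ≤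
      ∑ a, ∑ b, ∑ x ∈ B s p, (f x - avg (LnB s p a b x) f) ^ 2

/-- FBL: the same on the fibres of the table space.  Proof: `Om r c` is the disjoint union of the
fibres of row `k`; the fibre of `X` is `{update X k x | x ∈ B s (r k)}`, `s j = c j - ∑_{i ≠ k} X i j`;
apply TWOC. -/
def StmtFBL : Prop :=
  ∀ (ι : Type u) [Fintype ι] [DecidableEq ι] (κ : Type v) [Fintype κ] [DecidableEq κ]
    (r : ι → ℕ) (c : κ → ℕ) (F : (ι → κ → ℕ) → ℝ) (k : ι),
    ∑ X ∈ Om r c, (F X - avg (Fb r c k X) F) ^ 2 ≤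
      ∑ a, ∑ b, ∑ X ∈ Om r c, (F X - avg (Ln r c k a b X) F) ^ 2

/-- INT: interval lemma: `g` on `[A, A + len)`, `len ≤ 2 ^ (D+1)`.  Monotone binary path. -/
def StmtINT : Prop :=
  ∀ (A len D : ℕ) (g : ℕ → ℝ), len ≤ 2 ^ (D + 1) →
    ∑ x ∈ range len, ∑ y ∈ range len, (if x < y then (g (A + x) - g (A + y)) ^ 2 else 0) ≤
      ((D : ℝ) + 1) * len * ∑ d : Fin (D + 1), ∑ z ∈ range len,
        if z + 2 ^ (d : ℕ) < len then (g (A + z + 2 ^ (d : ℕ)) - g (A + z)) ^ 2 else 0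

/-- LNX: a line of tables, from INT.  The line of `X` is
`{X with (X k a, X k b) replaced by (t, τ - t)}`, `t` in an interval (`τ = X k a + X k b`), and
`∑_{X in line} (F X - avg)^2 = (1/len) ∑_{x<y} (..)^2`.  (If `a = b` the left side is `0`.) -/
def StmtLNX : Prop :=
  ∀ (ι : Type u) [Fintype ι] [DecidableEq ι] (κ : Type v) [Fintype κ] [DecidableEq κ]
    (r : ι → ℕ) (c : κ → ℕ) (D : ℕ) (F : (ι → κ → ℕ) → ℝ) (k : ι) (a b : κ),
    r k < 2 ^ (D + 1) →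
    ∑ X ∈ Om r c, (F X - avg (Ln r c k a b X) F) ^ 2 ≤
      ((D : ℝ) + 1) * dyF r c D F k a b

/-- DPR: the dyadic chain preserves `Om`; Green formula for a choice and its reversal (`a ↔ b`);
coin `false` is idle. -/
def StmtDPR : Prop :=
  ∀ (ι : Type u) [Fintype ι] [DecidableEq ι] (κ : Type v) [Fintype κ] [DecidableEq κ] [Nonempty κ]
    (r : ι → ℕ) (c : κ → ℕ) (D : ℕ) (F G : (ι → κ → ℕ) → ℝ),
    (∀ X ∈ Om r c, ∀ ch, dst c D X ch ∈ Om r c) ∧
    (∀ ch : Option ι × κ × κ × Fin (D + 1) × Bool,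
      ∑ X ∈ Om r c, G X * (F (dst c D X ch) - F X) +
        ∑ X ∈ Om r c, G X * (F (dst c D X (ch.1, ch.2.2.1, ch.2.1, ch.2.2.2)) - F X) =
      - ∑ X ∈ Om r c, (F (dst c D X ch) - F X) * (G (dst c D X ch) - G X)) ∧
    (∀ X : ι → κ → ℕ, ∀ ch : Option ι × κ × κ × Fin (D + 1) × Bool, ch.2.2.2.2 = false →
      dst c D X ch = X)

/-- DYC: contraction of the dyadic chain.  Proof: `P = (1/N) ∑_ch T_ch`, self-adjoint by DPR,
`⟨F,(1-P)F⟩ = (1/2N) ∑_ch ∑_X (F(T_ch X) - F X)^2 = (1/2N) ∑_{k,a,b} dyF`; laziness (coin):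
`P = (1+P')/2` with `‖P'F‖ ≤ ‖F‖`, so `‖PF‖² ≤ ⟨F,PF⟩`; then PoinC, FBL, LNX. -/
def StmtDYC : Prop :=
  ∀ (ι : Type u) [Fintype ι] [DecidableEq ι] (κ : Type v) [Fintype κ] [DecidableEq κ] [Nonempty κ]
    (r : ι → ℕ) (c : κ → ℕ) (D : ℕ) (C : ℝ) (F : (ι → κ → ℕ) → ℝ),
    (∀ k, r k < 2 ^ (D + 1)) → 1 ≤ C → PoinC r c C → ∑ X ∈ Om r c, F X = 0 →
    ∑ X ∈ Om r c, PD c D F X = 0 ∧
    ∑ X ∈ Om r c, PD c D F X ^ 2 ≤
      (1 - gapd C (Fintype.card ι) (Fintype.card κ) D) * ∑ X ∈ Om r c, F X ^ 2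

/-- MIXB: total variation after `t` steps (copy of U/MIX) -/
def StmtMIXB : Prop :=
  ∀ (ι : Type u) [Fintype ι] [DecidableEq ι] (κ : Type v) [Fintype κ] [DecidableEq κ] [Nonempty κ]
    (r : ι → ℕ) (c : κ → ℕ) (D t : ℕ) (C : ℝ) (X₀ : ι → κ → ℕ),
    (∀ k, r k < 2 ^ (D + 1)) → 1 ≤ C → PoinC r c C → X₀ ∈ Om r c →
    ∑ X ∈ Om r c,
      |((univ.filter fun ω : Fin t → Option ι × κ × κ × Fin (D + 1) × Bool =>
          rnD c D X₀ ω = X).card : ℝ) /
          (Fintype.card (Fin t → Option ι × κ × κ × Fin (D + 1) × Bool) : ℝ)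
        - 1 / ((Om r c).card : ℝ)| ≤
      Real.sqrt (Om r c).card *
        Real.sqrt ((1 - gapd C (Fintype.card ι) (Fintype.card κ) D) ^ t)

/-! ## The statement in the original formulation -/

/-- one step of the dyadic star chain with hub row `h`: the choice `(k, a, b, d, coin)` moves
`2 ^ d` units of row `k` from column `a` to column `b` and `2 ^ d` units of the hub row `h` from
column `b` to column `a`, if both entries are large enough and the coin says so. -/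
def dyStep {m n D : ℕ} (h : Fin m) (X : Fin m → Fin n → ℕ)
    (ch : Fin m × Fin n × Fin n × Fin (D + 1) × Bool) : Fin m → Fin n → ℕ :=
  if ch.2.2.2.2 = true ∧ ch.1 ≠ h ∧ ch.2.1 ≠ ch.2.2.1 ∧
      2 ^ (ch.2.2.2.1 : ℕ) ≤ X ch.1 ch.2.1 ∧ 2 ^ (ch.2.2.2.1 : ℕ) ≤ X h ch.2.2.1 then
    X + 2 ^ (ch.2.2.2.1 : ℕ) • E ch.1 ch.2.2.1 + 2 ^ (ch.2.2.2.1 : ℕ) • E h ch.2.1
      - 2 ^ (ch.2.2.2.1 : ℕ) • E ch.1 ch.2.1 - 2 ^ (ch.2.2.2.1 : ℕ) • E h ch.2.2.1
  else X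

/-- `t` steps of the dyadic star chain, driven by `ω` -/
def dyRun {m n D : ℕ} (h : Fin m) (X : Fin m → Fin n → ℕ) {t : ℕ}
    (ω : Fin t → Fin m × Fin n × Fin n × Fin (D + 1) × Bool) : Fin m → Fin n → ℕ :=
  (List.ofFn ω).foldl (dyStep h) X

/-- STARB : the dyadic star chain on `Tables r c` (copy of U/STAR). -/
def StmtSTARB : Prop :=
  ∀ (m n : ℕ) (r : Fin m → ℕ) (c : Fin n → ℕ) (h : Fin m) (D t : ℕ) (C : ℝ)
    (X₀ : Fin m → Fin n → ℕ),
    1 ≤ n → (∀ k, k ≠ h → r k < 2 ^ (D + 1)) → 1 ≤ C →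
    PoinC (fun k : {k : Fin m // k ≠ h} => r k.1) c C → X₀ ∈ Tables r c →
    ∑ X ∈ Tables r c, |lawOf (fun ω : Fin t → Fin m × Fin n × Fin n × Fin (D + 1) × Bool =>
        dyRun h X₀ ω) X - 1 / ((Tables r c).card : ℝ)| ≤
      Real.sqrt (Tables r c).card * Real.sqrt ((1 - gapd C (m - 1) n D) ^ t)

/-- one attempt: run the dyadic star chain for the margins `r + e_h`, `c + e_J` from `X₀ + E h J`,
and remove the extra unit from cell `(h, J)` if possible -/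
def dyAttempt {m n D : ℕ} (h : Fin m) (J : Fin n) (X₀ : Fin m → Fin n → ℕ) {t : ℕ}
    (ω : Fin t → Fin m × Fin n × Fin n × Fin (D + 1) × Bool) : Option (Fin m → Fin n → ℕ) :=
  let Y := dyRun h (X₀ + E h J) ω
  if 1 ≤ Y h J then some (Y - E h J) else none

/-- the sampler: first successful attempt out of `K`, else `X₀` -/
def dySampler {m n D : ℕ} (h : Fin m) (J : Fin n) (X₀ : Fin m → Fin n → ℕ) {K t : ℕ}
    (ω : Fin K → Fin t → Fin m × Fin n × Fin n × Fin (D + 1) × Bool) : Fin m → Fin n → ℕ :=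
  (((List.ofFn ω).map (dyAttempt h J X₀)).reduceOption.head?).getD X₀

/-- FINB : the almost uniform sampler (copy of U/FIN).  `C` is the constant of the Poincare
inequality for the margins with the extra unit. -/
def StmtFINB : Prop :=
  ∀ (m n N D : ℕ) (r : Fin m → ℕ) (c : Fin n → ℕ) (h : Fin m) (J : Fin n) (ε C : ℝ) (K T : ℕ)
    (X₀ : Fin m → Fin n → ℕ),
    (∀ k, r k ≤ r h) → ∑ i, r i = N → ∑ j, c j = N → X₀ ∈ Tables r c → 0 < ε → ε < 1 →
    N < 2 ^ (D + 1) → 1 ≤ C →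
    PoinC (fun k : {k : Fin m // k ≠ h} => (r + Pi.single h 1 : Fin m → ℕ) k.1)
      (c + Pi.single J 1) C →
    2 * m * n * Real.log (4 / ε) ≤ K →
    (8 * (m : ℝ) * (n : ℝ) ^ 2 * ((D : ℝ) + 1) ^ 2 * C) *
      (m * n * Real.log (N + 2) + Real.log (8 * m * n / ε)) ≤ T →
    (1 / 2) * ∑ X ∈ Tables r c, |lawOf (fun ω : Fin K → Fin T → Fin m × Fin n × Fin n ×
        Fin (D + 1) × Bool => dySampler h J X₀ ω) X - 1 / ((Tables r c).card : ℝ)| ≤ ε

end Vale.P328B
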