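import Vale.Agent.P328.B.DualDefs
import Vale.Agent.P328.B.EndDefs

/-!
# P328, binary margins, module PEX (helper3): `StmtPOIB K` gives `PoinC`, in particular for the
margins with one extra unit (hub row `h` = a largest row)
-/

namespace Vale.P328B.PEX
open Finset BigOperators Vale.P328U

universe u v

theorem poinC {K : ℕ → ℕ → ℕ → ℝ} (hP : StmtPOIB.{u, v} K)
    {ι : Type u} [Fintype ι] [DecidableEq ι] {κ : Type v} [Fintype κ] [DecidableEq κ]
    (r : ι → ℕ) (c : κ → ℕ) (R : ℕ) (hR : ∀ k, r k ≤ R)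
    (h1 : ∀ k, ∑ i, r i + r k + 1 ≤ ∑ j, c j) (h2 : ∑ i, r i + 1 ≤ ∑ j, c j) :
    PoinC r c (K (Fintype.card ι) (Fintype.card κ) R) := by
  intro F hF
  exact hP ι κ r c R F hR h1 h2 hF

theorem sum_ne {m : ℕ} (r : Fin m → ℕ) (h : Fin m) :
    ∑ k : {k : Fin m // k ≠ h}, r k.1 + r h = ∑ i, r i := by
  classical
  have h1 : ∑ k : {k : Fin m // k ≠ h}, r k.1 = ∑ k ∈ univ.erase h, r k := by
    rw [← sum_coe_sort (univ.erase h) r]
    refine sum_nbij' (fun k => ⟨k.1, mem_erase.2 ⟨k.2, mem_univ _⟩⟩)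
      (fun k => ⟨k.1, (mem_erase.1 k.2).1⟩)
      ?_ ?_ ?_ ?_ ?_
    · intro a _; exact mem_univ _
    · intro a _; exact mem_univ _
    · intro a _; rfl
    · intro a _; rfl
    · intro a _; rfl
  rw [h1, sum_erase_add univ r (mem_univ h)]

/-- margins with an extra unit in row `h` (a largest row) and column `J` -/
theorem extra {K : ℕ → ℕ → ℕ → ℝ} (hP : StmtPOIB.{0, 0} K) (m n N : ℕ)
    (r : Fin m → ℕ) (c : Fin n → ℕ) (h : Fin m) (J : Fin n)
    (hh : ∀ k, r k ≤ r h) (hr : ∑ i, r i = N) (hc : ∑ j, c j = N) :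
    PoinC (fun k : {k : Fin m // k ≠ h} => (r + Pi.single h 1 : Fin m → ℕ) k.1)
      (c + Pi.single J 1) (K (m - 1) n N) := by
  classical
  have hcard : Fintype.card {k : Fin m // k ≠ h} = m - 1 := by
    rw [Fintype.card_subtype_compl]
    simp
  have hval : ∀ k : {k : Fin m // k ≠ h}, (r + Pi.single h 1 : Fin m → ℕ) k.1 = r k.1 := by
    intro k
    rw [Pi.add_apply, Pi.single_eq_of_ne k.2, add_zero]
  have hsum : ∑ k : {k : Fin m // k ≠ h}, (r + Pi.single h 1 : Fin m → ℕ) k.1 + r h = N := by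
    rw [sum_congr rfl fun k _ => hval k, sum_ne, hr]
  have hcs : ∑ j, (c + Pi.single J 1 : Fin n → ℕ) j = N + 1 := by
    simp only [Pi.add_apply, sum_add_distrib, hc]
    rw [sum_eq_single J (fun b _ hb => Pi.single_eq_of_ne hb 1) (fun hh => absurd (mem_univ J) hh)]
    rw [Pi.single_eq_same]
  have hle : ∀ k, r k ≤ N := by
    intro k
    rw [← hr]
    exact single_le_sum (f := r) (fun _ _ => Nat.zero_le _) (mem_univ k)
  have := poinC hP (fun k : {k : Fin m // k ≠ h} => (r + Pi.single h 1 : Fin m → ℕ) k.1)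
    (c + Pi.single J 1) N
    (fun k => by rw [hval]; exact hle _)
    (fun k => by
      have h3 := hh k.1
      have h4 := hval k
      rw [hcs]
      simp only [h4]
      omega)
    (by rw [hcs]; omega)
  rw [hcard, Fintype.card_fin] at this
  exact this

end Vale.P328B.PEX
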