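import Vale.Agent.P328.B.POINC
import Vale.Agent.P328.B.PEX
import Vale.Agent.P328.B.FINB
import Vale.Agent.P328.B.STARB
import Vale.Agent.P328.B.MIXB
import Vale.Agent.P328.B.DYC
import Vale.Agent.P328.B.DPR
import Vale.Agent.P328.B.FBL
import Vale.Agent.P328.B.LNX
import Vale.Agent.P328.B.INT
import Vale.Agent.P328.B.TWOC
import Vale.Agent.P328.Bin.NW

/-! # P328, binary margins: everything put together (helper8; modules by the whole team) -/

namespace Vale.P328B.FULL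
open Finset BigOperators Vale.P328U Vale.P328B

/-- the almost uniform sampler for all margins: `K` attempts of `T` steps of the dyadic star chain,
`K` and `T` polynomial in `m`, `n`, `log N`, `log (1/ε)` -/
theorem full (m n N D : ℕ) (r : Fin m → ℕ) (c : Fin n → ℕ) (h : Fin m) (J : Fin n) (ε : ℝ)
    (K T : ℕ) (X₀ : Fin m → Fin n → ℕ)
    (hmax : ∀ k, r k ≤ r h) (hr : ∑ i, r i = N) (hc : ∑ j, c j = N) (hX : X₀ ∈ Tables r c)
    (he0 : 0 < ε) (he1 : ε < 1) (hD : N < 2 ^ (D + 1))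
    (hK : 2 * m * n * Real.log (4 / ε) ≤ K)
    (hT : (16000 * (m : ℝ) ^ 4 * (n : ℝ) ^ 11 * ((D : ℝ) + 1) ^ 2 * (1 + Real.log ((N : ℝ) + 2))) *
      (m * n * Real.log (N + 2) + Real.log (8 * m * n / ε)) ≤ T) :
    (1 / 2) * ∑ X ∈ Tables r c, |lawOf (fun ω : Fin K → Fin T → Fin m × Fin n × Fin n ×
        Fin (D + 1) × Bool => dySampler h J X₀ ω) X - 1 / ((Tables r c).card : ℝ)| ≤ ε := by
  have hm : 1 ≤ m := by have := h.2; omega
  have hn : 1 ≤ n := by have := J.2; omega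
  have hmR : (1 : ℝ) ≤ m := by exact_mod_cast hm
  have hnR : (1 : ℝ) ≤ n := by exact_mod_cast hn
  have hfin : StmtFINB := FINB.thm (STARB.thm (MIXB.thm (DYC.thm DPR.thm (FBL.thm TWOC.thm)
    (LNX.thm INT.thm))))
  refine hfin m n N D r c h J ε (ASM1.KB (m - 1) n N) K T X₀ hmax hr hc hX he0 he1 hD
    (POINC.one_le _ _ _ hn) (PEX.extra ASM1.poib m n N r c h J hmax hr hc) hK ?_
  refine le_trans ?_ hT
  have hlog := ASM1.log_nn N
  have hKB := POINC.KB_le (m - 1) n N hn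
  have hcast : (((m - 1 : ℕ) : ℝ) + 1) = m := by
    rw [Nat.cast_sub hm]
    push_cast
    ring
  rw [hcast] at hKB
  have hl2 : 0 ≤ Real.log (8 * m * n / ε) := by
    apply Real.log_nonneg
    rw [le_div_iff₀ he0]
    nlinarith [mul_le_mul hmR hnR (by norm_num) (by linarith)]
  have hnn : 0 ≤ m * n * Real.log (N + 2) + Real.log (8 * m * n / ε) := by positivity
  refine mul_le_mul_of_nonneg_right ?_ hnn
  calc 8 * (m : ℝ) * (n : ℝ) ^ 2 * ((D : ℝ) + 1) ^ 2 * ASM1.KB (m - 1) n N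
      ≤ 8 * (m : ℝ) * (n : ℝ) ^ 2 * ((D : ℝ) + 1) ^ 2 *
        (2000 * (m : ℝ) ^ 3 * (n : ℝ) ^ 9 * (1 + Real.log ((N : ℝ) + 2))) :=
        mul_le_mul_of_nonneg_left hKB (by positivity)
    _ = _ := by ring

end Vale.P328B.FULL
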