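import Vale.Agent.P328.B.Prog
import Vale.Agent.P328.B.AbsMix
import Vale.Agent.P328.B.FULL

/-! # P328, binary margins: the padded chain (exact random bits) mixes (helper2) -/

namespace Vale.P328B.BSTAR
open Finset BigOperators Vale.P328U Vale.P328B Vale.P328U.STAR Vale.P328B.PT

variable {m n : ℕ}

/-- contraction of the dyadic star chain on full tables -/
theorem star_contr (r : Fin m → ℕ) (c : Fin n → ℕ) (h : Fin m) (D : ℕ) (C : ℝ)
    (hn : 1 ≤ n) (hr : ∀ k, k ≠ h → r k < 2 ^ (D + 1)) (hC : 1 ≤ C)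
    (hP : PoinC (fun k : {k : Fin m // k ≠ h} => r k.1) c C) (hrc : ∑ i, r i = ∑ j, c j)
    (f : (Fin m → Fin n → ℕ) → ℝ) (hf : ∑ X ∈ Tables r c, f X = 0) :
    ∑ X ∈ Tables r c, PPs (dyStep (D := D) h) f X = 0 ∧
    ∑ X ∈ Tables r c, PPs (dyStep (D := D) h) f X ^ 2 ≤
      (1 - gapd C (m - 1) n D) * ∑ X ∈ Tables r c, f X ^ 2 := by
  classical
  have : Nonempty (Fin n) := ⟨⟨0, hn⟩⟩
  have hbij : ∀ g : ({k : Fin m // k ≠ h} → Fin n → ℕ) → ℝ,
      ∑ X ∈ Tables r c, g (res h X) = ∑ X' ∈ Om (rr h r) c, g X' := by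
    intro g
    refine sum_nbij (fun X => res h X) (fun X hX => res_mem h hX) ?_ ?_ (fun _ _ => rfl)
    · intro X hX Y hY e
      exact res_inj h (mem_coe.mp hX) (mem_coe.mp hY) e
    · intro X' hX'
      obtain ⟨X, hX, e⟩ := res_surj h hrc (mem_coe.mp hX')
      exact ⟨X, mem_coe.mpr hX, e⟩
  obtain ⟨F, hF⟩ : ∃ F : ({k : Fin m // k ≠ h} → Fin n → ℕ) → ℝ,
      ∀ X ∈ Tables r c, F (res h X) = f X := by
    refine ⟨fun X' => if hx : ∃ X ∈ Tables r c, res h X = X' then f hx.choose else 0, ?_⟩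
    intro X hX
    have hx : ∃ Y ∈ Tables r c, res h Y = res h X := ⟨X, hX, rfl⟩
    simp only [dif_pos hx]
    rw [res_inj h hx.choose_spec.1 hX hx.choose_spec.2]
  have hPD : ∀ X ∈ Tables r c, PD c D F (res h X) = PPs (dyStep (D := D) h) f X := by
    intro X hX
    unfold PD PPs
    have hcs : (Fintype.card (Option {k : Fin m // k ≠ h} × Fin n × Fin n × Fin (D + 1) × Bool) :
        ℝ) = (Fintype.card (Fin m × Fin n × Fin n × Fin (D + 1) × Bool) : ℝ) := by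
      norm_cast
      exact (Fintype.card_congr (STARB.chEquiv n h D)).symm
    rw [hcs]
    congr 1
    rw [← Equiv.sum_comp (STARB.chEquiv n h D)]
    refine sum_congr rfl fun ch _ => ?_
    obtain ⟨h1, h2⟩ := STARB.step_spec h D hX ch
    rw [← h2, hF _ h1]
  have hcι : Fintype.card {k : Fin m // k ≠ h} = m - 1 := by
    rw [Fintype.card_subtype_compl, Fintype.card_fin, Fintype.card_subtype_eq]
  have hDYC : StmtDYC.{0, 0} := DYC.thm DPR.thm (FBL.thm TWOC.thm) (LNX.thm INT.thm)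
  have hF0 : ∑ X' ∈ Om (rr h r) c, F X' = 0 := by
    rw [← hbij, sum_congr rfl hF]
    exact hf
  have key := hDYC {k : Fin m // k ≠ h} (Fin n) (rr h r) c D C F (fun k => hr k.1 k.2) hC hP hF0
  rw [hcι, Fintype.card_fin, ← hbij, ← hbij (fun X' => PD c D F X' ^ 2),
    ← hbij (fun X' => F X' ^ 2)] at key
  constructor
  · rw [← key.1]
    exact sum_congr rfl fun X hX => (hPD X hX).symm
  · have e1 : ∑ X ∈ Tables r c, PPs (dyStep (D := D) h) f X ^ 2 =
        ∑ X ∈ Tables r c, PD c D F (res h X) ^ 2 :=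
      sum_congr rfl fun X hX => by rw [hPD X hX]
    have e2 : ∑ X ∈ Tables r c, f X ^ 2 = ∑ X ∈ Tables r c, F (res h X) ^ 2 :=
      sum_congr rfl fun X hX => by rw [hF X hX]
    rw [e1, e2]
    exact key.2

/-- the embedding of the legal choices -/
def emb (m n D : ℕ) (ch : Fin m × Fin n × Fin n × Fin (D + 1) × Bool) : Draw m n D :=
  (⟨ch.1, lt_trans ch.1.2 (Nat.lt_size_self m)⟩, ⟨ch.2.1, lt_trans ch.2.1.2 (Nat.lt_size_self n)⟩,
    ⟨ch.2.2.1, lt_trans ch.2.2.1.2 (Nat.lt_size_self n)⟩,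
    ⟨ch.2.2.2.1, lt_trans ch.2.2.2.1.2 (Nat.lt_size_self (D + 1))⟩, ch.2.2.2.2)

theorem emb_inj (m n D : ℕ) : Function.Injective (emb m n D) := by
  rintro ⟨k, a, b, d, co⟩ ⟨k', a', b', d', co'⟩ hh
  unfold emb at hh
  simp only [Prod.mk.injEq, Fin.mk.injEq] at hh
  obtain ⟨h1, h2, h3, h4, h5⟩ := hh
  rw [Fin.ext h1, Fin.ext h2, Fin.ext h3, Fin.ext h4, h5]

theorem pStep_emb {D : ℕ} (h : Fin m) (X : Fin m → Fin n → ℕ)
    (ch : Fin m × Fin n × Fin n × Fin (D + 1) × Bool) :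
    pStep h X (emb m n D ch) = dyStep h X ch := by
  obtain ⟨k, a, b, d, co⟩ := ch
  unfold pStep emb
  rw [dif_pos ⟨k.2, a.2, b.2, d.2⟩]

theorem pStep_out {D : ℕ} (h : Fin m) (X : Fin m → Fin n → ℕ) (u : Draw m n D)
    (hu : u ∉ Set.range (emb m n D)) : pStep h X u = X := by
  unfold pStep
  rw [dif_neg]
  rintro ⟨h1, h2, h3, h4⟩
  exact hu ⟨(⟨u.1, h1⟩, ⟨u.2.1, h2⟩, ⟨u.2.2.1, h3⟩, ⟨u.2.2.2.1, h4⟩, u.2.2.2.2), rfl⟩

theorem pStep_mem {D : ℕ} {r : Fin m → ℕ} {c : Fin n → ℕ} (h : Fin m) {X : Fin m → Fin n → ℕ}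
    (hX : X ∈ Tables r c) (u : Draw m n D) : pStep h X u ∈ Tables r c := by
  unfold pStep
  split_ifs with hu
  · exact (STARB.step_spec h D hX _).1
  · exact hX

theorem card_ch (m n D : ℕ) : (Fintype.card (Fin m × Fin n × Fin n × Fin (D + 1) × Bool) : ℝ) =
    m * (n * (n * ((D + 1) * 2))) := by
  simp only [Fintype.card_prod, Fintype.card_fin, Fintype.card_bool]
  push_cast
  ring

theorem card_draw (m n D : ℕ) : (Fintype.card (Draw m n D) : ℝ) =
    2 ^ Nat.size m * (2 ^ Nat.size n * (2 ^ Nat.size n * (2 ^ Nat.size (D + 1) * 2))) := by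
  unfold Draw
  simp only [Fintype.card_prod, Fintype.card_fin, Fintype.card_bool]
  push_cast
  ring

theorem size_le (x : ℕ) (hx : 1 ≤ x) : (2 : ℝ) ^ Nat.size x ≤ 2 * x := by
  have h1 : 1 ≤ Nat.size x := Nat.size_pos.mpr hx
  have h2 : 2 ^ (Nat.size x - 1) ≤ x := by
    have : Nat.size x - 1 < Nat.size x := by omega
    exact Nat.lt_size.mp this
  have h3 : 2 ^ Nat.size x = 2 * 2 ^ (Nat.size x - 1) := by
    conv_lhs => rw [← Nat.sub_add_cancel h1]
    rw [pow_succ]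
    ring
  have h4 : 2 ^ Nat.size x ≤ 2 * x := by rw [h3]; omega
  exact_mod_cast h4

theorem le_size (x : ℕ) : (x : ℝ) ≤ 2 ^ Nat.size x := by
  exact_mod_cast (Nat.lt_size_self x).le

/-- the fraction of legal choices -/
theorem frac (m n D : ℕ) (hm : 1 ≤ m) (hn : 1 ≤ n) :
    (Fintype.card (Draw m n D) : ℝ) ≤
      16 * (Fintype.card (Fin m × Fin n × Fin n × Fin (D + 1) × Bool) : ℝ) ∧
    (Fintype.card (Fin m × Fin n × Fin n × Fin (D + 1) × Bool) : ℝ) ≤
      (Fintype.card (Draw m n D) : ℝ) := by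
  rw [card_ch, card_draw]
  have a1 := size_le m hm
  have a2 := size_le n hn
  have a3 := size_le (D + 1) (by omega)
  have b1 := le_size m
  have b2 := le_size n
  have b3 := le_size (D + 1)
  push_cast at a3 b3
  have hm' : (0 : ℝ) ≤ m := Nat.cast_nonneg _
  have hn' : (0 : ℝ) ≤ n := Nat.cast_nonneg _
  have hD' : (0 : ℝ) ≤ (D : ℝ) + 1 := by positivity
  constructor
  · calc (2 : ℝ) ^ Nat.size m * (2 ^ Nat.size n * (2 ^ Nat.size n * (2 ^ Nat.size (D + 1) * 2)))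
        ≤ (2 * m) * ((2 * n) * ((2 * n) * ((2 * ((D : ℝ) + 1)) * 2))) := by gcongr
      _ = 16 * (m * (n * (n * ((D + 1) * 2)))) := by ring
  · gcongr

/-- contraction of the padded chain -/
theorem pad_contr (r : Fin m → ℕ) (c : Fin n → ℕ) (h : Fin m) (D : ℕ) (C : ℝ)
    (hn : 1 ≤ n) (hr : ∀ k, k ≠ h → r k < 2 ^ (D + 1)) (hC : 1 ≤ C)
    (hP : PoinC (fun k : {k : Fin m // k ≠ h} => r k.1) c C) (hrc : ∑ i, r i = ∑ j, c j)
    (f : (Fin m → Fin n → ℕ) → ℝ) (hf : ∑ X ∈ Tables r c, f X = 0) :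
    ∑ X ∈ Tables r c, PPs (pStep (D := D) h) f X = 0 ∧
    ∑ X ∈ Tables r c, PPs (pStep (D := D) h) f X ^ 2 ≤
      (1 - gapd (16 * C) (m - 1) n D) * ∑ X ∈ Tables r c, f X ^ 2 := by
  have hm : 1 ≤ m := by have := h.2; omega
  have : Nonempty (Fin n) := ⟨⟨0, hn⟩⟩
  have : Nonempty (Fin m) := ⟨h⟩
  obtain ⟨k1, k2⟩ := star_contr r c h D C hn hr hC hP hrc f hf
  obtain ⟨NB, hNB⟩ : ∃ x : ℝ, x = (Fintype.card (Draw m n D) : ℝ) := ⟨_, rfl⟩
  obtain ⟨NC, hNC⟩ : ∃ x : ℝ,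
    x = (Fintype.card (Fin m × Fin n × Fin n × Fin (D + 1) × Bool) : ℝ) := ⟨_, rfl⟩
  obtain ⟨fr1, fr2⟩ := frac m n D hm hn
  rw [← hNB, ← hNC] at fr1 fr2
  have hNC0 : 0 < NC := by
    rw [hNC]
    exact_mod_cast Fintype.card_pos
  have hNB0 : 0 < NB := lt_of_lt_of_le hNC0 fr2
  obtain ⟨q, hq⟩ : ∃ q, q = NC / NB := ⟨_, rfl⟩
  have hq1 : q ≤ 1 := by rw [hq]; exact (div_le_one hNB0).2 fr2
  have hq0 : 1 / 16 ≤ q := by
    rw [hq, div_le_div_iff₀ (by norm_num) hNB0]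
    linarith
  have hpt : ∀ X, PPs (pStep (D := D) h) f X =
      (1 - q) * f X + q * PPs (dyStep (D := D) h) f X := by
    intro X
    have e1 : ∑ u : Draw m n D, (f (pStep h X u) - f X) =
        ∑ ch : Fin m × Fin n × Fin n × Fin (D + 1) × Bool, (f (dyStep h X ch) - f X) := by
      symm
      apply Fintype.sum_of_injective (emb m n D) (emb_inj m n D)
      · intro u hu
        rw [pStep_out h X u hu, sub_self]
      · intro ch
        rw [pStep_emb]
    rw [sum_sub_distrib, sum_sub_distrib, sum_const, sum_const, card_univ, card_univ,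
      nsmul_eq_mul, nsmul_eq_mul, ← hNB, ← hNC] at e1
    unfold PPs
    rw [← hNB, ← hNC, hq]
    have e2 : ∑ u : Draw m n D, f (pStep h X u) = NB * f X - NC * f X +
        ∑ ch : Fin m × Fin n × Fin n × Fin (D + 1) × Bool, f (dyStep h X ch) := by linarith
    rw [e2]
    field_simp
  have hgap : gapd (16 * C) (m - 1) n D = gapd C (m - 1) n D / 16 := by
    unfold gapd
    rw [div_div]
    congr 1
    ring
  have hg0 : 0 ≤ gapd C (m - 1) n D := by
    unfold gapd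
    positivity
  have hS0 : 0 ≤ ∑ X ∈ Tables r c, f X ^ 2 := sum_nonneg fun _ _ => sq_nonneg _
  constructor
  · rw [sum_congr rfl fun X _ => hpt X, sum_add_distrib, ← mul_sum, ← mul_sum, hf, k1]
    ring
  · have e1 : ∀ X, PPs (pStep (D := D) h) f X ^ 2 ≤
        (1 - q) * f X ^ 2 + q * PPs (dyStep (D := D) h) f X ^ 2 := by
      intro X
      rw [hpt X]
      have h1 : 0 ≤ q * (1 - q) * (f X - PPs (dyStep (D := D) h) f X) ^ 2 := by
        have : 0 ≤ q := by linarith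
        have : 0 ≤ 1 - q := by linarith
        positivity
      nlinarith
    calc ∑ X ∈ Tables r c, PPs (pStep (D := D) h) f X ^ 2
        ≤ ∑ X ∈ Tables r c, ((1 - q) * f X ^ 2 + q * PPs (dyStep (D := D) h) f X ^ 2) :=
          sum_le_sum fun X _ => e1 X
      _ = (1 - q) * ∑ X ∈ Tables r c, f X ^ 2 +
          q * ∑ X ∈ Tables r c, PPs (dyStep (D := D) h) f X ^ 2 := by
          rw [sum_add_distrib, ← mul_sum, ← mul_sum]
      _ ≤ (1 - q) * ∑ X ∈ Tables r c, f X ^ 2 +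
          q * ((1 - gapd C (m - 1) n D) * ∑ X ∈ Tables r c, f X ^ 2) := by
          have : 0 ≤ q := by linarith
          gcongr
      _ = (1 - q * gapd C (m - 1) n D) * ∑ X ∈ Tables r c, f X ^ 2 := by ring
      _ ≤ (1 - gapd (16 * C) (m - 1) n D) * ∑ X ∈ Tables r c, f X ^ 2 := by
          rw [hgap]
          apply mul_le_mul_of_nonneg_right _ hS0
          nlinarith

/-- total variation bound for the padded chain -/
theorem pad_mix (r : Fin m → ℕ) (c : Fin n → ℕ) (h : Fin m) (D t : ℕ) (C : ℝ)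
    (X₀ : Fin m → Fin n → ℕ)
    (hn : 1 ≤ n) (hr : ∀ k, k ≠ h → r k < 2 ^ (D + 1)) (hC : 1 ≤ C)
    (hP : PoinC (fun k : {k : Fin m // k ≠ h} => r k.1) c C) (hX₀ : X₀ ∈ Tables r c) :
    ∑ X ∈ Tables r c, |lawOf (fun ω : Fin t → Draw m n D => pRun h X₀ ω) X -
        1 / ((Tables r c).card : ℝ)| ≤
      Real.sqrt (Tables r c).card * Real.sqrt ((1 - gapd (16 * C) (m - 1) n D) ^ t) := by
  classical
  have hX₀' := mem_Tables.mp hX₀
  have hrc : ∑ i, r i = ∑ j, c j := by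
    have h1 : ∑ i, ∑ j, X₀ i j = ∑ i, r i := sum_congr rfl fun i _ => hX₀'.1 i
    have h2 : ∑ j, ∑ i, X₀ i j = ∑ j, c j := sum_congr rfl fun j _ => hX₀'.2 j
    rw [← h1, ← h2, sum_comm]
  have : Nonempty (Draw m n D) :=
    ⟨(⟨0, by positivity⟩, ⟨0, by positivity⟩, ⟨0, by positivity⟩, ⟨0, by positivity⟩, true)⟩
  have hcard : (0 : ℝ) < (Fintype.card (Draw m n D) : ℝ) := by exact_mod_cast Fintype.card_pos
  have key := abs_mix (Tables r c) (pStep (D := D) h) (PPs (pStep (D := D) h))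
    (gapd (16 * C) (m - 1) n D) 0 le_rfl
    (MIXB.gapd_le (16 * C) (by linarith) (m - 1) n D hn)
    (fun X hX ch => pStep_mem h hX ch)
    (fun f hf => pad_contr r c h D C hn hr hC hP hrc f hf)
    (fun f S _ X _ => by simp)
    (fun f S hS X hX => by
      unfold PPs
      rw [abs_div, abs_of_pos hcard, div_le_iff₀ hcard]
      calc |∑ ch, f (pStep h X ch)| ≤ ∑ ch, |f (pStep h X ch)| := abs_sum_le_sum_abs _ _
        _ ≤ ∑ _ch : Draw m n D, S := sum_le_sum fun ch _ => hS _ (pStep_mem h hX ch)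
        _ = S * (Fintype.card (Draw m n D) : ℝ) := by
            rw [sum_const, nsmul_eq_mul, card_univ]; ring)
    X₀ hX₀ t
  rw [mul_zero, add_zero] at key
  refine le_trans (le_of_eq ?_) key
  refine sum_congr rfl fun X _ => ?_
  unfold lawOf pRun
  congr!

end Vale.P328B.BSTAR
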