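import Vale.Agent.P328.B.REG
import Vale.Agent.P328.U.DIR

/-!
# P328, binary margins, module CHO (helper3): choices of columns
-/

namespace Vale.P328B.CHO
open Finset BigOperators Vale.P328U

universe u v
variable {ι : Type u} [Fintype ι] [DecidableEq ι] {κ : Type v} [Fintype κ] [DecidableEq κ]

/-- (P1) a column with a hub unit and the largest entry of row `k` among them -/
theorem lk_exists (r : ι → ℕ) (c : κ → ℕ) (k : ι) (h : ∑ i, r i + 1 ≤ ∑ j, c j) :
    ∃ l : (ι → κ → ℕ) → κ, ∀ X ∈ Om r c, ∑ i, X i (l X) < c (l X) ∧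
      ∀ j, ∑ i, X i j < c j → X k j ≤ X k (l X) := by
  classical
  have hne : Nonempty κ := by
    by_contra hemp
    rw [not_nonempty_iff] at hemp
    have : ∑ j, c j = 0 := by
      rw [univ_eq_empty, sum_empty]
    omega
  have key : ∀ X : ι → κ → ℕ, ∃ l : κ, X ∈ Om r c → (∑ i, X i l < c l ∧
      ∀ j, ∑ i, X i j < c j → X k j ≤ X k l) := by
    intro X
    by_cases hX : X ∈ Om r c
    · have hX' := DIR.mem_Om.1 hX
      have h1 : ∃ j, ∑ i, X i j < c j := by
        by_contra hcon
        push Not at hcon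
        have h2 : ∑ j, c j ≤ ∑ j, ∑ i, X i j := sum_le_sum fun j _ => hcon j
        rw [sum_comm] at h2
        have h3 : ∑ i, ∑ j, X i j = ∑ i, r i := sum_congr rfl fun i _ => hX'.1 i
        omega
      obtain ⟨j0, hj0⟩ := h1
      obtain ⟨l, hl, hmax⟩ := exists_max_image (univ.filter fun j => ∑ i, X i j < c j)
        (fun j => X k j) ⟨j0, by rw [mem_filter]; exact ⟨mem_univ _, hj0⟩⟩
      rw [mem_filter] at hl
      refine ⟨l, fun _ => ⟨hl.2, fun j hj => ?_⟩⟩
      exact hmax j (by rw [mem_filter]; exact ⟨mem_univ _, hj⟩)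
    · exact ⟨hne.some, fun hh => absurd hh hX⟩
  choose l hl using key
  exact ⟨l, fun X hX => hl X hX⟩

/-- (P2) the column of the wall flux with the largest entry -/
theorem jk_exists (r : ι → ℕ) (c : κ → ℕ) (F : (ι → κ → ℕ) → ℝ) (k : ι)
    (l : (ι → κ → ℕ) → κ) (hl : ∀ X ∈ Om r c, ∑ i, X i (l X) < c (l X)) :
    ∃ jk : (ι → κ → ℕ) → κ, ∀ X ∈ Om r c, REG.CK c F k l X ≠ 0 →
      ∑ i, X i (jk X) = c (jk X) ∧ 1 ≤ X k (jk X) ∧
      REG.CK c F k l X ^ 2 / (X k (jk X) : ℝ) ≤ (Fintype.card κ : ℝ) *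
        ∑ j, (if ∑ i, X i j < c j then 0 else
          VV F k j (X + E k (l X)) ^ 2 / (X k j : ℝ)) := by
  classical
  have key : ∀ X : ι → κ → ℕ, ∃ a : κ, X ∈ Om r c → REG.CK c F k l X ≠ 0 →
      ∑ i, X i a = c a ∧ 1 ≤ X k a ∧
      REG.CK c F k l X ^ 2 / (X k a : ℝ) ≤ (Fintype.card κ : ℝ) *
        ∑ j, (if ∑ i, X i j < c j then 0 else
          VV F k j (X + E k (l X)) ^ 2 / (X k j : ℝ)) := by
    intro X
    by_cases hX : X ∈ Om r c
    swap
    · exact ⟨l X, fun hh => absurd hh hX⟩
    by_cases hC : REG.CK c F k l X = 0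
    · exact ⟨l X, fun _ hh => absurd hC hh⟩
    have hX' := DIR.mem_Om.1 hX
    -- in a column without hub units the flux vanishes unless the entry is positive
    have hv : ∀ j, ¬ (∑ i, X i j < c j) → X k j = 0 → VV F k j (X + E k (l X)) = 0 := by
      intro j hj h0
      have hjl : j ≠ l X := by
        intro hh
        rw [hh] at hj
        exact hj (hl X hX)
      unfold VV
      have : (X + E k (l X)) k j = 0 := by
        rw [Pi.add_apply, Pi.add_apply, DIR.E_apply, h0, if_neg (fun hh => hjl hh.2)]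
      rw [this]
      simp
    have h1 : ∃ j, (¬ (∑ i, X i j < c j)) ∧ VV F k j (X + E k (l X)) ≠ 0 := by
      by_contra hcon
      push Not at hcon
      apply hC
      unfold REG.CK
      refine sum_eq_zero fun j _ => ?_
      by_cases hj : ∑ i, X i j < c j
      · rw [if_pos hj]
      · rw [if_neg hj]
        exact hcon j (not_lt.1 hj)
    obtain ⟨j0, hj0, hv0⟩ := h1
    obtain ⟨a, ha, hmax⟩ := exists_max_image (univ.filter fun j => ¬ (∑ i, X i j < c j))
      (fun j => X k j) ⟨j0, by rw [mem_filter]; exact ⟨mem_univ _, hj0⟩⟩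
    rw [mem_filter] at ha
    have hmax' : ∀ j, ¬ (∑ i, X i j < c j) → X k j ≤ X k a := fun j hj =>
      hmax j (by rw [mem_filter]; exact ⟨mem_univ _, hj⟩)
    have ha1 : 1 ≤ X k a := by
      have h2 : X k j0 ≠ 0 := fun hh => hv0 (hv j0 hj0 hh)
      have := hmax' j0 hj0
      omega
    refine ⟨a, fun _ _ => ⟨?_, ha1, ?_⟩⟩
    · have := hX'.2 a
      have := ha.2
      omega
    · have hapos : (0 : ℝ) < X k a := by exact_mod_cast ha1
      have h3 : REG.CK c F k l X ^ 2 ≤ (Fintype.card κ : ℝ) * ∑ j,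
          (if ∑ i, X i j < c j then 0 else VV F k j (X + E k (l X))) ^ 2 := by
        unfold REG.CK
        have := sq_sum_le_card_mul_sum_sq (s := (univ : Finset κ))
          (f := fun j => if ∑ i, X i j < c j then 0 else VV F k j (X + E k (l X)))
        rw [card_univ] at this
        exact this
      rw [div_le_iff₀ hapos, mul_assoc]
      refine h3.trans (mul_le_mul_of_nonneg_left ?_ (Nat.cast_nonneg _))
      rw [sum_mul]
      refine sum_le_sum fun j _ => ?_
      by_cases hj : ∑ i, X i j < c j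
      · rw [if_pos hj, if_pos hj]
        simp
      · rw [if_neg hj, if_neg hj]
        rcases Nat.eq_zero_or_pos (X k j) with h0 | h0
        · rw [hv j hj h0]
          simp
        · have hjpos : (0 : ℝ) < X k j := by exact_mod_cast h0
          have hle : (X k j : ℝ) ≤ X k a := by exact_mod_cast hmax' j hj
          rw [div_mul_eq_mul_div, le_div_iff₀ hjpos]
          exact mul_le_mul_of_nonneg_left hle (sq_nonneg _)
  choose jk hjk using key
  exact ⟨jk, fun X hX hC => hjk X hX hC⟩

end Vale.P328B.CHO
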