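import Vale.Agent.P328.B.FlatDefs
import Vale.Agent.P328.U.Defs2

/-!
# P328, binary margins: module FLAT (helper5): `choices` is a bijection from bit strings
-/

namespace Vale.P328B.PT
namespace FLAT
open Finset

theorem blk_inj {M : ℕ} (w w' : Fin M → Bool) (o s : ℕ) (h : o + s ≤ M)
    (e : blk w o s h = blk w' o s h) (x : ℕ) (hx : x < M) (h1 : o ≤ x) (h2 : x < o + s) :
    w ⟨x, hx⟩ = w' ⟨x, hx⟩ := by
  have e1 : Nat.ofBits (fun i : Fin s => w ⟨o + i, by omega⟩) =
      Nat.ofBits (fun i : Fin s => w' ⟨o + i, by omega⟩) := congrArg Fin.val e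
  have e2 := congrArg (fun a : ℕ => a.testBit (x - o)) e1
  have h3 : x - o < s := by omega
  simp only [Nat.testBit_ofBits_lt _ _ h3] at e2
  have h4 : (⟨o + (x - o), by omega⟩ : Fin M) = ⟨x, hx⟩ := by
    apply Fin.ext
    change o + (x - o) = x
    omega
  rw [h4] at e2
  exact e2

theorem drawOf_inj {m n D : ℕ} : Function.Injective (drawOf : (Fin (nbits m n D) → Bool) → _) := by
  intro w w' e
  unfold drawOf at e
  simp only [Prod.mk.injEq] at e
  obtain ⟨e1, e2, e3, e4, e5⟩ := e
  funext ⟨x, hx⟩
  have hx' := hx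
  unfold nbits at hx'
  by_cases c1 : x < Nat.size m
  · exact blk_inj w w' _ _ _ e1 x hx (Nat.zero_le _) (by omega)
  by_cases c2 : x < Nat.size m + Nat.size n
  · exact blk_inj w w' _ _ _ e2 x hx (by omega) (by omega)
  by_cases c3 : x < Nat.size m + Nat.size n + Nat.size n
  · exact blk_inj w w' _ _ _ e3 x hx (by omega) (by omega)
  by_cases c4 : x < Nat.size m + Nat.size n + Nat.size n + Nat.size (D + 1)
  · exact blk_inj w w' _ _ _ e4 x hx (by omega) (by omega)
  have c5 : (⟨x, hx⟩ : Fin (nbits m n D)) =
      ⟨Nat.size m + Nat.size n + Nat.size n + Nat.size (D + 1), by unfold nbits; omega⟩ := by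
    apply Fin.ext
    change x = Nat.size m + Nat.size n + Nat.size n + Nat.size (D + 1)
    omega
  rw [c5]
  exact e5

theorem choices_inj {m n D K T : ℕ} :
    Function.Injective
      (choices : (Fin (K * T * nbits m n D) → Bool) → (Fin K → Fin T → Draw m n D)) := by
  intro w w' e
  funext ⟨x, hx⟩
  obtain ⟨B, hB⟩ : ∃ B, B = nbits m n D := ⟨_, rfl⟩
  have hBpos : 0 < nbits m n D := by
    unfold nbits
    omega
  have hTpos : 0 < T := by
    rcases Nat.eq_zero_or_pos T with h | h
    · subst h
      simp at hx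
    · exact h
  have h1 : x / nbits m n D < K * T := Nat.div_lt_of_lt_mul (by rw [mul_comm]; exact hx)
  have hi : x / nbits m n D / T < K := Nat.div_lt_of_lt_mul (by rw [mul_comm]; exact h1)
  have ht : x / nbits m n D % T < T := Nat.mod_lt _ hTpos
  have hj : x % nbits m n D < nbits m n D := Nat.mod_lt _ hBpos
  have e1 := congrFun (congrFun e ⟨x / nbits m n D / T, hi⟩) ⟨x / nbits m n D % T, ht⟩
  unfold choices at e1
  have e2 := congrFun (drawOf_inj e1) ⟨x % nbits m n D, hj⟩
  simp only at e2
  have e3 : (x / nbits m n D / T * T + x / nbits m n D % T) * nbits m n D + x % nbits m n D = x := by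
    rw [Nat.div_add_mod', Nat.div_add_mod']
  have e4 : (⟨(x / nbits m n D / T * T + x / nbits m n D % T) * nbits m n D + x % nbits m n D,
      idx_lt hi ht hj⟩ : Fin (K * T * nbits m n D)) = ⟨x, hx⟩ := Fin.ext e3
  rw [e4] at e2
  exact e2

theorem card_draw (m n D : ℕ) : Fintype.card (Draw m n D) = 2 ^ nbits m n D := by
  unfold Draw nbits
  simp only [Fintype.card_prod, Fintype.card_fin, Fintype.card_bool]
  rw [pow_add, pow_add, pow_add, pow_add]
  ring

theorem choices_bij {m n D K T : ℕ} :
    Function.Bijective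
      (choices : (Fin (K * T * nbits m n D) → Bool) → (Fin K → Fin T → Draw m n D)) := by
  rw [Fintype.bijective_iff_injective_and_card]
  refine ⟨choices_inj, ?_⟩
  rw [Fintype.card_fun, Fintype.card_fun, Fintype.card_fun, card_draw, Fintype.card_fin,
    Fintype.card_fin, Fintype.card_fin, Fintype.card_bool, ← pow_mul, ← pow_mul]
  congr 1
  ring

/-- transport of the law along a bijection -/
theorem lawOf_bij {m n : ℕ} {S S' : Type} [Fintype S] [Fintype S'] (g : S' → S)
    (hg : Function.Bijective g) (out : S → Fin m → Fin n → ℕ) (X : Fin m → Fin n → ℕ) :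
    Vale.P328U.lawOf (fun w => out (g w)) X = Vale.P328U.lawOf out X := by
  classical
  unfold Vale.P328U.lawOf
  have h1 : Fintype.card S' = Fintype.card S := Fintype.card_of_bijective hg
  have h2 : (univ.filter fun w : S' => out (g w) = X).card =
      (univ.filter fun s : S => out s = X).card := by
    refine Finset.card_bij (fun w _ => g w) ?_ ?_ ?_
    · intro w hw
      exact Finset.mem_filter.2 ⟨Finset.mem_univ _, (Finset.mem_filter.1 hw).2⟩
    · intro w _ w' _ h
      exact hg.1 h
    · intro s hs
      obtain ⟨w, rfl⟩ := hg.2 s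
      exact ⟨w, Finset.mem_filter.2 ⟨Finset.mem_univ _, (Finset.mem_filter.1 hs).2⟩, rfl⟩
  rw [h1]
  congr 2

/-- the law of the output does not change when the choices are read from uniform bits -/
theorem lawOf_choices {a b m n D K T : ℕ}
    (out : (Fin K → Fin T → Draw m n D) → Fin a → Fin b → ℕ) (X : Fin a → Fin b → ℕ) :
    Vale.P328U.lawOf (fun w : Fin (K * T * nbits m n D) → Bool => out (choices w)) X =
      Vale.P328U.lawOf out X :=
  lawOf_bij choices choices_bij out X

end FLAT
end Vale.P328B.PT
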