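import Vale.Agent.P328.B.ProgDefs

/-!
# P328, binary margins: the random choices read from one string of random bits (helper5)
-/

namespace Vale.P328B.PT

/-- the number with binary digits `w o, …, w (o + s - 1)` (least significant digit first) -/
def blk {M : ℕ} (w : Fin M → Bool) (o s : ℕ) (h : o + s ≤ M) : Fin (2 ^ s) :=
  ⟨Nat.ofBits fun i : Fin s => w ⟨o + i, by omega⟩, Nat.ofBits_lt_two_pow _⟩

/-- the choices of one step, read from `nbits m n D` bits: first `size m` bits, then `size n` bits,
then `size n` bits, then `size (D + 1)` bits, then one bit -/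
def drawOf {m n D : ℕ} (w : Fin (nbits m n D) → Bool) : Draw m n D :=
  (blk w 0 (Nat.size m) (by unfold nbits; omega),
    blk w (Nat.size m) (Nat.size n) (by unfold nbits; omega),
    blk w (Nat.size m + Nat.size n) (Nat.size n) (by unfold nbits; omega),
    blk w (Nat.size m + Nat.size n + Nat.size n) (Nat.size (D + 1)) (by unfold nbits; omega),
    w ⟨Nat.size m + Nat.size n + Nat.size n + Nat.size (D + 1), by unfold nbits; omega⟩)

theorem idx_lt {K T B i t j : ℕ} (hi : i < K) (ht : t < T) (hj : j < B) :
    (i * T + t) * B + j < K * T * B := by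
  have h1 : i * T + t + 1 ≤ K * T := by
    have h2 : (i + 1) * T ≤ K * T := Nat.mul_le_mul_right T hi
    have h3 : (i + 1) * T = i * T + T := by ring
    omega
  have h4 : (i * T + t + 1) * B ≤ K * T * B := Nat.mul_le_mul_right B h1
  have h5 : (i * T + t + 1) * B = (i * T + t) * B + B := by ring
  omega

/-- the choices of all steps of all attempts, read from one string of `K * T * nbits m n D` bits:
step `t` of attempt `i` uses the block number `i * T + t` of `nbits m n D` consecutive bits -/
def choices {m n D K T : ℕ} (w : Fin (K * T * nbits m n D) → Bool) :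
    Fin K → Fin T → Draw m n D :=
  fun i t => drawOf fun j => w ⟨((i : ℕ) * T + t) * nbits m n D + j, idx_lt i.2 t.2 j.2⟩

end Vale.P328B.PT
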