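import Vale.Agent.P328.B.EndDefs

/-!
# P328, binary margins: numerical glue for the final statement (helper19)
-/

namespace Vale.P328B.GLUN
open Finset BigOperators Vale.P328U

lemma log_le (N D : ℕ) (hN : N < 2 ^ (D + 1)) : Real.log ((N : ℝ) + 2) ≤ (D : ℝ) + 2 := by
  have h1 : (N : ℝ) + 2 ≤ 2 ^ (D + 2) := by
    have : N + 2 ≤ 2 ^ (D + 2) := by
      have h2 : 2 ≤ 2 ^ (D + 1) := by
        calc 2 = 2 ^ 1 := by norm_num
          _ ≤ 2 ^ (D + 1) := Nat.pow_le_pow_right (by norm_num) (by omega)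
      have h3 : 2 ^ (D + 2) = 2 ^ (D + 1) + 2 ^ (D + 1) := by ring
      omega
    exact_mod_cast this
  calc Real.log ((N : ℝ) + 2) ≤ Real.log (2 ^ (D + 2)) :=
        Real.log_le_log (by positivity) h1
    _ = ((D + 2 : ℕ) : ℝ) * Real.log 2 := by rw [Real.log_pow]
    _ ≤ ((D + 2 : ℕ) : ℝ) * 1 := by
        apply mul_le_mul_of_nonneg_left _ (Nat.cast_nonneg _)
        have := Real.log_two_lt_d9
        linarith
    _ = (D : ℝ) + 2 := by push_cast; ring

/-- number of accuracy bits -/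
noncomputable def acc (ε : ℝ) : ℕ := ⌈Real.logb 2 (1 / ε)⌉₊

/-- number of attempts -/
def attempts (m n a : ℕ) : ℕ := 2 * m * n * (a + 2)

/-- number of steps per attempt -/
def steps (m n D a : ℕ) : ℕ :=
  16000 * m ^ 4 * n ^ 11 * (D + 1) ^ 2 * (D + 3) * (m * n * (D + 3) + a + 3)

lemma log_inv_le (ε : ℝ) (h0 : 0 < ε) (h1 : ε < 1) : Real.log (1 / ε) ≤ acc ε := by
  have h2 : Real.logb 2 (1 / ε) ≤ acc ε := Nat.le_ceil _
  have h3 : Real.log (1 / ε) = Real.logb 2 (1 / ε) * Real.log 2 := by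
    unfold Real.logb
    rw [div_mul_cancel₀]
    exact (Real.log_pos (by norm_num)).ne'
  have h4 : 0 ≤ Real.logb 2 (1 / ε) := by
    apply Real.logb_nonneg (by norm_num)
    rw [le_div_iff₀ h0]
    linarith
  have h5 := Real.log_two_lt_d9
  have h6 : 0 < Real.log 2 := Real.log_pos (by norm_num)
  rw [h3]
  nlinarith

lemma acc_le (ε : ℝ) (h0 : 0 < ε) (h1 : ε < 1) : (acc ε : ℝ) ≤ 2 * Real.log (1 / ε) + 1 := by
  have h4 : 0 ≤ Real.logb 2 (1 / ε) := by
    apply Real.logb_nonneg (by norm_num)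
    rw [le_div_iff₀ h0]
    linarith
  have h2 : (acc ε : ℝ) < Real.logb 2 (1 / ε) + 1 := Nat.ceil_lt_add_one h4
  have h3 : Real.log (1 / ε) = Real.logb 2 (1 / ε) * Real.log 2 := by
    unfold Real.logb
    rw [div_mul_cancel₀]
    exact (Real.log_pos (by norm_num)).ne'
  have h5 := Real.log_two_gt_d9
  rw [h3]
  nlinarith

lemma attempts_ge (m n : ℕ) (ε : ℝ) (h0 : 0 < ε) (h1 : ε < 1) :
    2 * m * n * Real.log (4 / ε) ≤ (attempts m n (acc ε) : ℕ) := by
  have h2 := log_inv_le ε h0 h1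
  have h3 : Real.log (4 / ε) ≤ (acc ε : ℝ) + 2 := by
    have : (4 : ℝ) / ε = 4 * (1 / ε) := by ring
    rw [this, Real.log_mul (by norm_num) (by positivity)]
    have h4 : Real.log 4 ≤ 2 := by
      have : (4 : ℝ) = 2 ^ 2 := by norm_num
      rw [this, Real.log_pow]
      have := Real.log_two_lt_d9
      push_cast
      linarith
    linarith
  unfold attempts
  push_cast
  exact mul_le_mul_of_nonneg_left h3 (by positivity)

lemma steps_ge (m n N D : ℕ) (hm : 1 ≤ m) (hn : 1 ≤ n) (hN : N < 2 ^ (D + 1)) (ε : ℝ)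
    (h0 : 0 < ε) (h1 : ε < 1) :
    16000 * (m : ℝ) ^ 4 * (n : ℝ) ^ 11 * ((D : ℝ) + 1) ^ 2 * (1 + Real.log ((N : ℝ) + 2)) *
      (m * n * Real.log (N + 2) + Real.log (8 * m * n / ε)) ≤ (steps m n D (acc ε) : ℕ) := by
  have hm' : (1 : ℝ) ≤ m := by exact_mod_cast hm
  have hn' : (1 : ℝ) ≤ n := by exact_mod_cast hn
  have h2 := log_inv_le ε h0 h1
  have h3 := log_le N D hN
  have hl0 : 0 ≤ Real.log ((N : ℝ) + 2) := Real.log_nonneg (by
    have : (0 : ℝ) ≤ N := Nat.cast_nonneg _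
    linarith)
  have h4 : Real.log (8 * m * n / ε) ≤ 3 + m * n + acc ε := by
    have e1 : (8 : ℝ) * m * n / ε = 8 * (m * n) * (1 / ε) := by ring
    rw [e1, Real.log_mul (by positivity) (by positivity), Real.log_mul (by norm_num)
      (by positivity)]
    have e2 : Real.log 8 ≤ 3 := by
      have : (8 : ℝ) = 2 ^ 3 := by norm_num
      rw [this, Real.log_pow]
      have := Real.log_two_lt_d9
      push_cast
      linarith
    have e3 : Real.log ((m : ℝ) * n) ≤ m * n := by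
      have := Real.log_le_sub_one_of_pos (show (0 : ℝ) < m * n by positivity)
      linarith
    linarith
  have h5 : (m : ℝ) * n * Real.log (N + 2) ≤ m * n * ((D : ℝ) + 2) :=
    mul_le_mul_of_nonneg_left h3 (by positivity)
  have h6 : (m : ℝ) * n * Real.log (N + 2) + Real.log (8 * m * n / ε) ≤
      m * n * (D + 3) + acc ε + 3 := by linarith
  have h7 : 0 ≤ (m : ℝ) * n * (D + 3) + acc ε + 3 := by positivity
  calc 16000 * (m : ℝ) ^ 4 * (n : ℝ) ^ 11 * ((D : ℝ) + 1) ^ 2 * (1 + Real.log ((N : ℝ) + 2)) *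
      (m * n * Real.log (N + 2) + Real.log (8 * m * n / ε))
      ≤ 16000 * (m : ℝ) ^ 4 * (n : ℝ) ^ 11 * ((D : ℝ) + 1) ^ 2 * (1 + Real.log ((N : ℝ) + 2)) *
      (m * n * (D + 3) + acc ε + 3) := mul_le_mul_of_nonneg_left h6 (by positivity)
    _ ≤ 16000 * (m : ℝ) ^ 4 * (n : ℝ) ^ 11 * ((D : ℝ) + 1) ^ 2 * ((D : ℝ) + 3) *
      (m * n * (D + 3) + acc ε + 3) := by
        apply mul_le_mul_of_nonneg_right _ h7
        apply mul_le_mul_of_nonneg_left _ (by positivity)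
        linarith
    _ = (steps m n D (acc ε) : ℕ) := by
        unfold steps
        push_cast
        ring

/-- input length -/
noncomputable def len {m n : ℕ} (r : Fin m → ℕ) (c : Fin n → ℕ) : ℝ :=
  m + n + ∑ i, Real.logb 2 (r i + 2) + ∑ j, Real.logb 2 (c j + 2)

lemma sum_lt_prod {m : ℕ} (r : Fin m → ℕ) : ∑ i, r i < ∏ i, (r i + 2) := by
  have : ∀ s : Finset (Fin m), ∑ i ∈ s, r i < ∏ i ∈ s, (r i + 2) := by
    intro s
    induction s using Finset.induction_on with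
    | empty => simp
    | insert a s ha ih =>
      rw [Finset.sum_insert ha, Finset.prod_insert ha]
      have hP : 1 ≤ ∏ x ∈ s, (r x + 2) := by omega
      have hQ := Nat.mul_le_mul_left (r a) hP
      calc r a + ∑ x ∈ s, r x < r a * ∏ x ∈ s, (r x + 2) + 2 * ∏ x ∈ s, (r x + 2) := by omega
        _ = (r a + 2) * ∏ x ∈ s, (r x + 2) := by ring
  exact this univ

lemma D_le {m n : ℕ} (r : Fin m → ℕ) (c : Fin n → ℕ) (hn : 1 ≤ n) :
    ((Nat.log 2 (∑ i, r i) : ℕ) : ℝ) + (m : ℝ) + n + 1 ≤ len r c := by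
  have h1 : (Nat.log 2 (∑ i, r i) : ℝ) ≤ ∑ i, Real.logb 2 (r i + 2) := by
    have e1 : ∑ i, Real.logb 2 ((r i : ℝ) + 2) = Real.logb 2 (∏ i, ((r i : ℝ) + 2)) := by
      unfold Real.logb
      rw [Real.log_prod (fun i _ => by positivity), Finset.sum_div]
    rw [e1]
    have e2 : ((2 : ℝ) ^ (Nat.log 2 (∑ i, r i))) ≤ ∏ i, ((r i : ℝ) + 2) := by
      have e3 : 2 ^ (Nat.log 2 (∑ i, r i)) ≤ ∏ i, (r i + 2) := by
        by_cases h0 : ∑ i, r i = 0
        · rw [h0]
          simp only [Nat.log_zero_right, pow_zero]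
          exact Nat.succ_le_of_lt (Finset.prod_pos (fun i _ => Nat.succ_pos _))
        · exact (Nat.pow_log_le_self 2 h0).trans (sum_lt_prod r).le
      exact_mod_cast e3
    rw [Real.le_logb_iff_rpow_le (by norm_num) (Finset.prod_pos (fun i _ => by positivity))]
    rw [Real.rpow_natCast]
    exact e2
  have h2 : (1 : ℝ) ≤ ∑ j, Real.logb 2 ((c j : ℝ) + 2) := by
    have e1 : ∀ j, (1 : ℝ) ≤ Real.logb 2 ((c j : ℝ) + 2) := by
      intro j
      rw [Real.le_logb_iff_rpow_le (by norm_num) (by positivity), Real.rpow_one]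
      have : (0 : ℝ) ≤ c j := Nat.cast_nonneg _
      linarith
    calc (1 : ℝ) ≤ n := by exact_mod_cast hn
      _ = ∑ j : Fin n, (1 : ℝ) := by simp
      _ ≤ _ := Finset.sum_le_sum (fun j _ => e1 j)
  unfold len
  linarith

/-- the total number of steps is polynomial in the input length and in `log (1 / ε)` -/
lemma total_le {m n : ℕ} (r : Fin m → ℕ) (c : Fin n → ℕ) (hm : 1 ≤ m) (hn : 1 ≤ n) (ε : ℝ)
    (h0 : 0 < ε) (h1 : ε < 1) :
    ((attempts m n (acc ε) * steps m n (Nat.log 2 (∑ i, r i)) (acc ε) : ℕ) : ℝ) ≤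
      384000 * (len r c + Real.log (1 / ε)) ^ 24 := by
  have hm' : (1 : ℝ) ≤ m := by exact_mod_cast hm
  have hn' : (1 : ℝ) ≤ n := by exact_mod_cast hn
  have hD := D_le r c hn
  have ha := acc_le ε h0 h1
  have hl : 0 ≤ Real.log (1 / ε) := by
    apply Real.log_nonneg
    rw [le_div_iff₀ h0]
    linarith
  set D : ℝ := ((Nat.log 2 (∑ i, r i) : ℕ) : ℝ) with hDdef
  have hD0 : 0 ≤ D := Nat.cast_nonneg _
  set a : ℝ := (acc ε : ℝ) with hadef
  have ha0 : 0 ≤ a := Nat.cast_nonneg _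
  set S : ℝ := len r c + Real.log (1 / ε) with hS
  have hS1 : (m : ℝ) ≤ S := by linarith
  have hS2 : (n : ℝ) ≤ S := by linarith
  have hS3 : D + 1 ≤ S := by linarith
  have hS4 : 3 ≤ S := by linarith
  have hS5 : a + 2 ≤ 2 * S := by linarith
  have hS6 : D + 3 ≤ 2 * S := by linarith
  have hS7 : a + 3 ≤ 2 * S := by linarith
  have hS0 : 0 ≤ S := by linarith
  have hmn : (m : ℝ) * n ≤ S * S := mul_le_mul hS1 hS2 (by linarith) hS0
  have e1 : (m : ℝ) * n * (D + 3) + a + 3 ≤ 3 * S ^ 3 := by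
    have e2 : (m : ℝ) * n * (D + 3) ≤ (S * S) * (2 * S) :=
      mul_le_mul hmn hS6 (by linarith) (by positivity)
    have e3 : 2 * S ≤ S ^ 3 := by nlinarith
    nlinarith
  unfold attempts steps
  push_cast
  calc 2 * (m : ℝ) * n * (a + 2) *
        (16000 * (m : ℝ) ^ 4 * (n : ℝ) ^ 11 * (D + 1) ^ 2 * (D + 3) * (m * n * (D + 3) + a + 3))
      ≤ 2 * S * S * (2 * S) * (16000 * S ^ 4 * S ^ 11 * S ^ 2 * (2 * S) * (3 * S ^ 3)) := by
        gcongr
    _ = 384000 * S ^ 24 := by ring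

end Vale.P328B.GLUN
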