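import Vale.Agent.P328.B.Prog

/-! # P328, program with running time: the hub row (helper3) -/

namespace Vale.P328B.HUBT
open Finset BigOperators Vale.P328B.PT

theorem len_mono {a b : ℕ} (h : a ≤ b) : len a ≤ len b := by
  unfold len
  exact Nat.add_le_add_right (Nat.size_le_size h) 1

/-- one comparison -/
def f {m : ℕ} (r : Fin m → ℕ) (h i : Fin m) : Comp (Fin m) := do
  tick (len m)
  let p ← leC (r h) (r i)
  if p then pure i else pure h

theorem f_val {m : ℕ} (r : Fin m → ℕ) (h i : Fin m) :
    (f r h i).val = if r h ≤ r i then i else h := by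
  unfold f
  change (if decide (r h ≤ r i) = true then (pure i : Comp (Fin m)) else pure h).val = _
  by_cases hh : r h ≤ r i
  · rw [if_pos (by simpa using hh), if_pos hh]
    rfl
  · rw [if_neg (by simpa using hh), if_neg hh]
    rfl

theorem f_time {m : ℕ} (r : Fin m → ℕ) (h i : Fin m) :
    (f r h i).time ≤ len m + 2 * len (∑ i, r i) := by
  have h1 : r h ≤ ∑ i, r i := single_le_sum (f := r) (fun _ _ => Nat.zero_le _) (mem_univ h)
  have h2 : r i ≤ ∑ i, r i := single_le_sum (f := r) (fun _ _ => Nat.zero_le _) (mem_univ i)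
  have h3 := len_mono h1
  have h4 := len_mono h2
  unfold f
  change len m + ((len (r h) + len (r i)) +
    (if decide (r h ≤ r i) = true then (pure i : Comp (Fin m)) else pure h).time) ≤ _
  have h5 : (if decide (r h ≤ r i) = true then (pure i : Comp (Fin m)) else pure h).time = 0 := by
    by_cases hh : r h ≤ r i
    · rw [if_pos (by simpa using hh)]
      rfl
    · rw [if_neg (by simpa using hh)]
      rfl
  rw [h5]
  omega

theorem fold {m : ℕ} (r : Fin m → ℕ) (l : List (Fin m)) : ∀ h0 : Fin m,
    (∀ i ∈ l, r i ≤ r (l.foldlM (f r) h0).val) ∧ r h0 ≤ r (l.foldlM (f r) h0).val ∧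
      (l.foldlM (f r) h0).time ≤ l.length * (len m + 2 * len (∑ i, r i)) := by
  induction l with
  | nil =>
    intro h0
    refine ⟨fun i hi => absurd hi List.not_mem_nil, le_refl _, ?_⟩
    change 0 ≤ _
    exact Nat.zero_le _
  | cons a l ih =>
    intro h0
    obtain ⟨h1, h2, h3⟩ := ih (f r h0 a).val
    have e1 : ((a :: l).foldlM (f r) h0).val = (l.foldlM (f r) (f r h0 a).val).val := rfl
    have e2 : ((a :: l).foldlM (f r) h0).time =
        (f r h0 a).time + (l.foldlM (f r) (f r h0 a).val).time := rfl
    rw [e1, e2]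
    have h4 : r h0 ≤ r (f r h0 a).val ∧ r a ≤ r (f r h0 a).val := by
      rw [f_val]
      by_cases hh : r h0 ≤ r a
      · rw [if_pos hh]
        exact ⟨hh, le_refl _⟩
      · rw [if_neg hh]
        exact ⟨le_refl _, (not_le.1 hh).le⟩
    refine ⟨fun i hi => ?_, h4.1.trans h2, ?_⟩
    · rcases List.mem_cons.1 hi with hi | hi
      · rw [hi]
        exact h4.2.trans h2
      · exact h1 i hi
    · have := f_time r h0 a
      rw [List.length_cons, Nat.succ_mul]
      omega

theorem hub_eq {m : ℕ} [NeZero m] (r : Fin m → ℕ) :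
    hubC r = (List.finRange m).foldlM (f r) 0 := rfl

/-- the hub row has the largest row sum -/
theorem hub_le {m : ℕ} [NeZero m] (r : Fin m → ℕ) (k : Fin m) : r k ≤ r (hubC r).val := by
  rw [hub_eq]
  exact (fold r (List.finRange m) 0).1 k (List.mem_finRange k)

theorem hub_time {m : ℕ} [NeZero m] (r : Fin m → ℕ) :
    (hubC r).time ≤ m * (len m + 2 * len (∑ i, r i)) := by
  rw [hub_eq]
  have := (fold r (List.finRange m) 0).2.2
  rwa [List.length_finRange] at this

end Vale.P328B.HUBT
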