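import Vale.Agent.P328.B.Prog

/-!
# P328, binary margins, running time: module LENP (helper14), comparison with the input length
-/

namespace Vale.P328B.PT
open Finset BigOperators Vale.P328U

/-- the input length `m + n + ∑ log2 (r i + 2) + ∑ log2 (c j + 2)` -/
def Lin {m n : ℕ} (r : Fin m → ℕ) (c : Fin n → ℕ) : ℕ :=
  m + n + ∑ i, Nat.log 2 (r i + 2) + ∑ j, Nat.log 2 (c j + 2)

namespace LENP

lemma sum_lt_prod {κ : Type*} (s : Finset κ) (a : κ → ℕ) :
    ∑ i ∈ s, a i + 1 ≤ ∏ i ∈ s, (a i + 1) := by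
  classical
  induction s using Finset.induction_on with
  | empty => simp
  | insert i s hi ih =>
    rw [Finset.sum_insert hi, Finset.prod_insert hi]
    have h1 : 1 ≤ ∏ i ∈ s, (a i + 1) := by omega
    nlinarith

lemma sum_lt {k : ℕ} (a : Fin k → ℕ) :
    ∑ i, a i + 1 ≤ 2 ^ (k + ∑ i, Nat.log 2 (a i + 2)) := by
  refine (sum_lt_prod univ a).trans ?_
  calc ∏ i, (a i + 1) ≤ ∏ i, 2 ^ (Nat.log 2 (a i + 2) + 1) := by
        apply Finset.prod_le_prod'
        intro i _
        have := Nat.lt_pow_succ_log_self (b := 2) (by norm_num) (a i + 2)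
        omega
    _ = 2 ^ (k + ∑ i, Nat.log 2 (a i + 2)) := by
        rw [Finset.prod_pow_eq_pow_sum, Finset.sum_add_distrib]
        simp [add_comm]

variable {m n : ℕ} (r : Fin m → ℕ) (c : Fin n → ℕ)

theorem sum_r_lt : ∑ i, r i + 1 ≤ 2 ^ Lin r c := by
  refine (sum_lt r).trans (Nat.pow_le_pow_right (by norm_num) ?_)
  unfold Lin
  omega

theorem sum_c_lt : ∑ j, c j + 1 ≤ 2 ^ Lin r c := by
  refine (sum_lt c).trans (Nat.pow_le_pow_right (by norm_num) ?_)
  unfold Lin
  omega

theorem m_le : m ≤ Lin r c := by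
  unfold Lin
  omega

theorem n_le : n ≤ Lin r c := by
  unfold Lin
  omega

theorem size_le_self (k : ℕ) : Nat.size k ≤ k := Nat.size_le.2 Nat.lt_two_pow_self

theorem len_m_le : len m ≤ Lin r c + 1 := by
  unfold len
  have h1 := size_le_self m
  have h2 := m_le r c
  omega

theorem len_n_le : len n ≤ Lin r c + 1 := by
  unfold len
  have h1 := size_le_self n
  have h2 := n_le r c
  omega

theorem size_sum_r : Nat.size (∑ i, r i) ≤ Lin r c := by
  rw [Nat.size_le]
  have := sum_r_lt r c
  omega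

theorem size_sum_c : Nat.size (∑ j, c j) ≤ Lin r c := by
  rw [Nat.size_le]
  have := sum_c_lt r c
  omega

theorem len_sum_r : len (∑ i, r i) ≤ Lin r c + 1 := by
  unfold len
  have := size_sum_r r c
  omega

theorem len_sum_c : len (∑ j, c j) ≤ Lin r c + 1 := by
  unfold len
  have := size_sum_c r c
  omega

theorem len_mono {x y : ℕ} (h : x ≤ y) : len x ≤ len y := by
  unfold len
  have := Nat.size_le_size h
  omega

theorem len_le_of {x : ℕ} (h : x ≤ ∑ j, c j + 1) : len x ≤ Lin r c + 2 := by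
  have h1 : Nat.size x ≤ Lin r c + 1 := by
    rw [Nat.size_le]
    have h2 := sum_c_lt r c
    have h3 : (0 : ℕ) < 2 ^ Lin r c := by positivity
    rw [pow_succ]
    omega
  unfold len
  omega

theorem len_le_of2 {x : ℕ} (h : x ≤ 2 * (∑ j, c j + 1)) : len x ≤ Lin r c + 3 := by
  have h1 : Nat.size x ≤ Lin r c + 2 := by
    rw [Nat.size_le]
    have h2 := sum_c_lt r c
    have h3 : (0 : ℕ) < 2 ^ Lin r c := by positivity
    rw [pow_succ, pow_succ]
    omega
  unfold len
  omega

theorem pD_le : pD c ≤ Lin r c + 1 := by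
  unfold pD
  have h2 := sum_c_lt r c
  have h3 : (0 : ℕ) < 2 ^ Lin r c := by positivity
  have h1 : ∑ j, c j + 2 < 2 ^ (Lin r c + 2) := by
    rw [pow_succ, pow_succ]
    omega
  have := Nat.log_lt_of_lt_pow (b := 2) (by omega) h1
  omega

theorem lt_pD : ∑ j, c j + 2 < 2 ^ (pD c + 1) := by
  unfold pD
  exact Nat.lt_pow_succ_log_self (by norm_num) _

theorem tlen_le (X : Fin m → Fin n → ℕ) (hX : ∀ i j, X i j ≤ ∑ j, c j + 1) :
    tlen X ≤ m * n * (Lin r c + 2) := by
  unfold tlen
  calc ∑ i, ∑ j, len (X i j) ≤ ∑ _i : Fin m, ∑ _j : Fin n, (Lin r c + 2) :=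
        Finset.sum_le_sum fun i _ => Finset.sum_le_sum fun j _ => len_le_of r c (hX i j)
    _ = m * n * (Lin r c + 2) := by
        simp only [Finset.sum_const, Finset.card_univ, Fintype.card_fin, smul_eq_mul]
        ring

/-- all entries bounded by `M` -/
theorem tlen_le_len (X : Fin m → Fin n → ℕ) (M : ℕ) (hX : ∀ i j, X i j ≤ M) :
    tlen X ≤ m * n * len M := by
  unfold tlen
  calc ∑ i, ∑ j, len (X i j) ≤ ∑ _i : Fin m, ∑ _j : Fin n, len M :=
        Finset.sum_le_sum fun i _ => Finset.sum_le_sum fun j _ => len_mono (hX i j)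
    _ = m * n * len M := by
        simp only [Finset.sum_const, Finset.card_univ, Fintype.card_fin, smul_eq_mul]
        ring

theorem card_draw (m n D : ℕ) : Fintype.card (Draw m n D) = 2 ^ nbits m n D := by
  unfold Draw nbits
  simp only [Fintype.card_prod, Fintype.card_fin, Fintype.card_bool]
  rw [pow_add, pow_add, pow_add, pow_add]
  ring

theorem nbits_le : nbits m n (pD c) ≤ 4 * Lin r c + 3 := by
  unfold nbits
  have h1 := size_le_self m
  have h2 := size_le_self n
  have h3 := size_le_self (pD c + 1)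
  have h4 := m_le r c
  have h5 := n_le r c
  have h6 := pD_le r c
  omega

/-- number of attempts -/
theorem pK_le (b : ℕ) : pK m n b ≤ 2 * (Lin r c) ^ 2 * (b + 2) := by
  unfold pK
  have h4 := m_le r c
  have h5 := n_le r c
  have := Nat.mul_le_mul h4 h5
  apply Nat.mul_le_mul_right
  nlinarith

/-- number of steps of one attempt -/
theorem pT_le (A q b : ℕ) : pT A q m n (pD c) b ≤ A * (3 * (Lin r c + b + 1)) ^ q := by
  unfold pT
  apply Nat.mul_le_mul_left
  apply Nat.pow_le_pow_left
  have h6 := pD_le r c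
  have h7 : m + n ≤ Lin r c := by
    unfold Lin
    omega
  omega

end LENP

end Vale.P328B.PT
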