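import Vale.Agent.P328.B.PRE
import Vale.Agent.P328.B.LENP

/-!
# P328, binary margins, running time: module PART (helper5), the parameters `D`, `T`, `K`
-/

namespace Vale.P328B.PT
open Finset BigOperators Vale.P328U Vale.P328B.PRE

namespace PART

theorem size_le_self (k : ℕ) : Nat.size k ≤ k := Nat.size_le.2 Nat.lt_two_pow_self

theorem len_le (x : ℕ) : len x ≤ x + 1 := by
  unfold len
  have := size_le_self x
  omega

theorem one_le_len (x : ℕ) : 1 ≤ len x := by
  unfold len
  omega

theorem size_mul_le (x y : ℕ) : Nat.size (x * y) ≤ Nat.size x + Nat.size y := by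
  rw [Nat.size_le, pow_add]
  have hx := Nat.lt_size_self x
  have hy := Nat.lt_size_self y
  exact Nat.mul_lt_mul'' hx hy

theorem size_pow_le (x k : ℕ) : Nat.size (x ^ k) ≤ k * Nat.size x + 1 := by
  induction k with
  | zero => simp
  | succ k ih =>
    rw [pow_succ]
    have h1 := size_mul_le (x ^ k) x
    have h2 : (k + 1) * Nat.size x = k * Nat.size x + Nat.size x := by ring
    omega

theorem powC_val (x k : ℕ) : (powC x k).val = x ^ k := by
  induction k with
  | zero => rfl
  | succ k ih =>
    unfold powC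
    rw [bind_val, ih, pow_succ]
    rfl

theorem powC_time (x P : ℕ) (hx : x + 1 ≤ P) (hP : 2 ≤ P) (k : ℕ) :
    (powC x k).time ≤ k ^ 2 * P ^ 2 := by
  induction k with
  | zero =>
    have h : (powC x 0).time = 0 := rfl
    rw [h]
    exact Nat.zero_le _
  | succ k ih =>
    have h : (powC x (k + 1)).time = (powC x k).time + len (powC x k).val * len x := rfl
    rw [h, powC_val]
    have h1 : len (x ^ k) ≤ (k + 1) * P := by
      have h2 := size_pow_le x k
      have h3 := size_le_self x
      have h4 : k * Nat.size x ≤ k * P := Nat.mul_le_mul_left _ (by omega)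
      have h5 : (k + 1) * P = k * P + P := by ring
      unfold len
      omega
    have h2 : len x ≤ P := le_trans (len_le x) hx
    have h3 : len (x ^ k) * len x ≤ (k + 1) * P * P := Nat.mul_le_mul h1 h2
    calc (powC x k).time + len (x ^ k) * len x ≤ k ^ 2 * P ^ 2 + (k + 1) * P * P :=
          Nat.add_le_add ih h3
      _ ≤ k ^ 2 * P ^ 2 + (k + 1) * P * P + k * P ^ 2 := Nat.le_add_right _ _
      _ = (k + 1) ^ 2 * P ^ 2 := by ring

theorem preC_full {n : ℕ} (c : Fin n → ℕ) : (preC c n).val = ∑ j, c j := by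
  rw [preC_val]
  unfold NW.pre
  exact Finset.sum_congr rfl fun j _ => if_pos j.2

theorem parC_val (A q m : ℕ) {n : ℕ} (c : Fin n → ℕ) (b : ℕ) :
    (parC A q m c b).val = (pD c, pT A q m n (pD c) b, pK m n b) := by
  have h : (parC A q m c b).val = (Nat.log 2 ((preC c n).val + 2),
      A * (powC (m + n + Nat.log 2 ((preC c n).val + 2) + b + 1) q).val,
      2 * m * n * (b + 2)) := rfl
  rw [h, powC_val, preC_full]
  rfl

theorem one_le_pD {n : ℕ} (c : Fin n → ℕ) : 1 ≤ pD c := by
  unfold pD
  exact Nat.log_pos (by norm_num) (by omega)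

theorem len_sum_le {n : ℕ} (c : Fin n → ℕ) : len (∑ j, c j + 2) ≤ pD c + 2 := by
  have h : Nat.size (∑ j, c j + 2) ≤ pD c + 1 := by
    rw [Nat.size_le]
    exact LENP.lt_pD c
  unfold len
  omega

/-- the running time of the computation of the parameters -/
theorem parC_time (A q m : ℕ) {n : ℕ} (c : Fin n → ℕ) (b : ℕ) :
    (parC A q m c b).time ≤ 20 * (q + 1) ^ 2 * len A * (m + n + pD c + b + 2) ^ 2 := by
  have h : (parC A q m c b).time = (preC c n).time + ((len (preC c n).val + len 2) +
      (len ((preC c n).val + 2) * len ((preC c n).val + 2) +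
      ((len m + len n) + ((len (m + n) + len (Nat.log 2 ((preC c n).val + 2))) +
      ((len (m + n + Nat.log 2 ((preC c n).val + 2)) + len b) +
      ((len (m + n + Nat.log 2 ((preC c n).val + 2) + b) + len 1) +
      ((powC (m + n + Nat.log 2 ((preC c n).val + 2) + b + 1) q).time +
      ((len A * len (powC (m + n + Nat.log 2 ((preC c n).val + 2) + b + 1) q).val) +
      ((len 2 * len m) + ((len (2 * m) * len n) + ((len b + len 2) +
      ((len (2 * m * n) * len (b + 2)) + 0)))))))))))) := rfl
  rw [h, powC_val, preC_full]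
  have hD : Nat.log 2 (∑ j, c j + 2) = pD c := rfl
  rw [hD]
  have hD1 := one_le_pD c
  obtain ⟨P, hP⟩ : ∃ P, P = m + n + pD c + b + 2 := ⟨_, rfl⟩
  rw [← hP]
  have hP3 : 3 ≤ P := by omega
  have a1 : (preC c n).time ≤ 3 * (P * P) := by
    refine (preC_time c n).trans ?_
    have e1 : len n ≤ P := by
      have := len_le n
      omega
    have e2 : len (∑ j, c j) ≤ P := by
      have e3 : len (∑ j, c j) ≤ len (∑ j, c j + 2) := PRE.len_mono (by omega)
      have e4 := len_sum_le c
      omega
    have e3 : n ≤ P := by omega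
    calc n * (len n + 2 * len (∑ j, c j)) ≤ P * (P + 2 * P) :=
          Nat.mul_le_mul e3 (by omega)
      _ = 3 * (P * P) := by ring
  have l2 : len 2 = 3 := by
    unfold len
    have : Nat.size 2 = 2 := by decide
    omega
  have l1 : len 1 = 2 := by
    unfold len
    have : Nat.size 1 = 1 := by decide
    omega
  have a2 : len (∑ j, c j) ≤ P := by
    have e3 : len (∑ j, c j) ≤ len (∑ j, c j + 2) := PRE.len_mono (by omega)
    have e4 := len_sum_le c
    omega
  have a3 : len (∑ j, c j + 2) * len (∑ j, c j + 2) ≤ P * P := by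
    have e4 : len (∑ j, c j + 2) ≤ P := by
      have := len_sum_le c
      omega
    exact Nat.mul_le_mul e4 e4
  have a4 : len m ≤ P := by
    have := len_le m
    omega
  have a5 : len n ≤ P := by
    have := len_le n
    omega
  have a6 : len (m + n) ≤ P := by
    have := len_le (m + n)
    omega
  have a7 : len (pD c) ≤ P := by
    have := len_le (pD c)
    omega
  have a8 : len (m + n + pD c) ≤ P := by
    have := len_le (m + n + pD c)
    omega
  have a9 : len b ≤ P := by
    have := len_le b
    omega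
  have a10 : len (m + n + pD c + b) ≤ P := by
    have := len_le (m + n + pD c + b)
    omega
  have a11 : (powC (m + n + pD c + b + 1) q).time ≤ q ^ 2 * P ^ 2 :=
    powC_time _ P (by omega) (by omega) q
  have a12 : len ((m + n + pD c + b + 1) ^ q) ≤ (q + 1) * P := by
    have h2 := size_pow_le (m + n + pD c + b + 1) q
    have h3 := size_le_self (m + n + pD c + b + 1)
    have h4 : q * Nat.size (m + n + pD c + b + 1) ≤ q * P := Nat.mul_le_mul_left _ (by omega)
    have h5 : (q + 1) * P = q * P + P := by ring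
    unfold len
    omega
  have a13 : len A * len ((m + n + pD c + b + 1) ^ q) ≤ len A * ((q + 1) * P) :=
    Nat.mul_le_mul_left _ a12
  have s1 : Nat.size (2 * m) ≤ m + 1 := by
    have := size_mul_le 2 m
    have e1 : Nat.size 2 = 2 := by decide
    rcases Nat.eq_zero_or_pos m with h0 | h0
    · subst h0
      simp
    · rw [Nat.size_le]
      have e2 : m < 2 ^ m := Nat.lt_two_pow_self
      rw [pow_succ]
      omega
  have a14 : len (2 * m) * len n ≤ P * P := by
    refine Nat.mul_le_mul ?_ a5
    unfold len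
    omega
  have a15 : len (2 * m * n) ≤ P := by
    have e1 := size_mul_le (2 * m) n
    have e2 := size_le_self n
    unfold len
    omega
  have a16 : len (b + 2) ≤ P + 1 := by
    have := len_le (b + 2)
    omega
  have a17 : len (2 * m * n) * len (b + 2) ≤ P * (P + 1) := Nat.mul_le_mul a15 a16
  have hA := one_le_len A
  have hPP : 3 * P ≤ P * P := Nat.mul_le_mul_right _ hP3
  have t1 : 19 * (P * P) + q ^ 2 * P ^ 2 ≤ 19 * ((q + 1) ^ 2 * len A * P ^ 2) := by
    have e1 : 19 * (P * P) + q ^ 2 * P ^ 2 ≤ 19 * ((q + 1) ^ 2 * 1 * P ^ 2) := by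
      have e2 : 19 * ((q + 1) ^ 2 * 1 * P ^ 2) =
          19 * (P * P) + q ^ 2 * P ^ 2 + (18 * (q ^ 2 * P ^ 2) + 38 * (q * P ^ 2)) := by ring
      rw [e2]
      exact Nat.le_add_right _ _
    refine e1.trans (Nat.mul_le_mul_left _ (Nat.mul_le_mul_right _ (Nat.mul_le_mul_left _ hA)))
  have t2 : len A * ((q + 1) * P) ≤ (q + 1) ^ 2 * len A * P ^ 2 := by
    have e1 : len A * ((q + 1) * P) = (q + 1) * len A * P := by ring
    rw [e1]
    refine Nat.mul_le_mul (Nat.mul_le_mul_right _ ?_) ?_
    · exact Nat.le_self_pow (by norm_num) _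
    · exact Nat.le_self_pow (by norm_num) _
  have t3 : 20 * (q + 1) ^ 2 * len A * P ^ 2 =
      19 * ((q + 1) ^ 2 * len A * P ^ 2) + (q + 1) ^ 2 * len A * P ^ 2 := by ring
  have t4 : P * (P + 1) = P * P + P := by ring
  rw [t3, l2, l1]
  rw [t4] at a17
  omega

/-- the running time of the computation of the parameters, in terms of the input length -/
theorem parC_time_Lin (A q : ℕ) {m n : ℕ} (r : Fin m → ℕ) (c : Fin n → ℕ) (b : ℕ) :
    (parC A q m c b).time ≤ 80 * (q + 1) ^ 2 * len A * (Lin r c + b + 2) ^ 2 := by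
  refine (parC_time A q m c b).trans ?_
  have h1 := LENP.pD_le r c
  have h2 : m + n ≤ Lin r c := by
    unfold Lin
    omega
  have h3 : m + n + pD c + b + 2 ≤ 2 * (Lin r c + b + 2) := by omega
  calc 20 * (q + 1) ^ 2 * len A * (m + n + pD c + b + 2) ^ 2
      ≤ 20 * (q + 1) ^ 2 * len A * (2 * (Lin r c + b + 2)) ^ 2 :=
        Nat.mul_le_mul_left _ (Nat.pow_le_pow_left h3 2)
    _ = 80 * (q + 1) ^ 2 * len A * (Lin r c + b + 2) ^ 2 := by ring

end PART

end Vale.P328B.PT
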