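import Vale.Agent.P328.B.ASM1
import Vale.Agent.P328.B.EndDefs

/-! # P328, binary margins: the Poincare inequality in the form used by the sampler (helper8) -/

namespace Vale.P328B.POINC
open Finset BigOperators Vale.P328U Vale.P328B

universe u v

/-- The scale-free Poincare inequality in the form `PoinC`; the constant
`ASM1.KB a b R` is polynomial in the numbers `a`, `b` of (non-hub) rows and columns and linear in
`log (R + 2)`. -/
theorem thm (ι : Type u) [Fintype ι] [DecidableEq ι] (κ : Type v) [Fintype κ] [DecidableEq κ]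
    (r : ι → ℕ) (c : κ → ℕ) (R : ℕ) (hR : ∀ k, r k ≤ R)
    (h1 : ∀ k, ∑ i, r i + r k + 1 ≤ ∑ j, c j) (h2 : ∑ i, r i + 1 ≤ ∑ j, c j) :
    PoinC r c (ASM1.KB (Fintype.card ι) (Fintype.card κ) R) := by
  intro F hF
  exact ASM1.poib ι κ r c R F hR h1 h2 hF

theorem log_mono {R R' : ℕ} (h : R ≤ R') :
    Real.log ((R : ℝ) + 2) ≤ Real.log ((R' : ℝ) + 2) := by
  apply Real.log_le_log (by positivity)
  have : (R : ℝ) ≤ R' := by exact_mod_cast h
  linarith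

/-- the constant is at least `1` (if there is a column) -/
theorem one_le (a b R : ℕ) (hb : 1 ≤ b) : 1 ≤ ASM1.KB a b R := by
  unfold ASM1.KB
  have hlog := ASM1.log_nn R
  have ha : (0 : ℝ) ≤ a := Nat.cast_nonneg a
  have hb1 : (1 : ℝ) ≤ b := by exact_mod_cast hb
  have hb3 : (1 : ℝ) ≤ (b : ℝ) ^ 3 := one_le_pow₀ hb1
  have t1 : (0 : ℝ) ≤ (a : ℝ) * ((a : ℝ) + 1) * (1 + 4 * (b : ℝ) ^ 3) := by positivity
  have t2 : (0 : ℝ) ≤ 2 * (a : ℝ) * (b : ℝ) * (100 * (b : ℝ) ^ 4) *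
      (2 * (b : ℝ) ^ 3 * (1 + (b : ℝ) * (1 + Real.log ((R : ℝ) + 2)))) := by positivity
  have t3 : (1 : ℝ) ≤ 4 * (b : ℝ) ^ 3 + (a : ℝ) * ((a : ℝ) + 1) * (1 + 4 * (b : ℝ) ^ 3) +
    2 * (a : ℝ) * (b : ℝ) * (100 * (b : ℝ) ^ 4) *
      (2 * (b : ℝ) ^ 3 * (1 + (b : ℝ) * (1 + Real.log ((R : ℝ) + 2)))) := by linarith
  calc (1 : ℝ) ≤ 1 * 1 := by norm_num
    _ ≤ _ := mul_le_mul (by linarith) t3 zero_le_one (by positivity)

/-- a simple polynomial bound for the constant -/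
theorem KB_le (a b R : ℕ) (hb : 1 ≤ b) :
    ASM1.KB a b R ≤ 2000 * ((a : ℝ) + 1) ^ 3 * (b : ℝ) ^ 9 * (1 + Real.log ((R : ℝ) + 2)) := by
  unfold ASM1.KB
  have hlog := ASM1.log_nn R
  set l := Real.log ((R : ℝ) + 2) with hl
  have ha : (0 : ℝ) ≤ a := Nat.cast_nonneg a
  have hb1 : (1 : ℝ) ≤ b := by exact_mod_cast hb
  set x : ℝ := (a : ℝ) with hx
  set y : ℝ := (b : ℝ) with hy
  have hy3 : y ^ 3 ≤ y ^ 9 := pow_le_pow_right₀ hb1 (by norm_num)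
  have hy8 : y ^ 8 ≤ y ^ 9 := pow_le_pow_right₀ hb1 (by norm_num)
  have hy0 : (1 : ℝ) ≤ y ^ 9 := one_le_pow₀ hb1
  have hL : (1 : ℝ) ≤ 1 + l := by linarith
  have p1 : 4 * y ^ 3 ≤ 4 * (y ^ 9 * (1 + l)) * (x + 1) ^ 2 := by
    have e1 : y ^ 9 ≤ y ^ 9 * (1 + l) := le_mul_of_one_le_right (by positivity) hL
    have e2 : y ^ 9 * (1 + l) ≤ y ^ 9 * (1 + l) * (x + 1) ^ 2 :=
      le_mul_of_one_le_right (by positivity) (by nlinarith)
    nlinarith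
  have p2 : x * (x + 1) * (1 + 4 * y ^ 3) ≤ 5 * (y ^ 9 * (1 + l)) * (x + 1) ^ 2 := by
    have e1 : y ^ 9 ≤ y ^ 9 * (1 + l) := le_mul_of_one_le_right (by positivity) hL
    have e2 : 1 + 4 * y ^ 3 ≤ 5 * (y ^ 9 * (1 + l)) := by linarith
    have e3 : x * (x + 1) ≤ (x + 1) ^ 2 := by nlinarith
    calc x * (x + 1) * (1 + 4 * y ^ 3) ≤ (x + 1) ^ 2 * (5 * (y ^ 9 * (1 + l))) :=
          mul_le_mul e3 e2 (by positivity) (by positivity)
      _ = _ := by ring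
  have p3 : 2 * x * y * (100 * y ^ 4) * (2 * y ^ 3 * (1 + y * (1 + l))) ≤
      800 * (y ^ 9 * (1 + l)) * (x + 1) ^ 2 := by
    have e1 : 1 + y * (1 + l) ≤ 2 * (y * (1 + l)) := by nlinarith
    have e2 : 2 * x * y * (100 * y ^ 4) * (2 * y ^ 3 * (1 + y * (1 + l))) ≤
        2 * x * y * (100 * y ^ 4) * (2 * y ^ 3 * (2 * (y * (1 + l)))) := by
      refine mul_le_mul_of_nonneg_left ?_ (by positivity)
      exact mul_le_mul_of_nonneg_left e1 (by positivity)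
    refine e2.trans ?_
    have e3 : 2 * x * y * (100 * y ^ 4) * (2 * y ^ 3 * (2 * (y * (1 + l)))) =
        800 * (y ^ 9 * (1 + l)) * x := by ring
    rw [e3]
    refine mul_le_mul_of_nonneg_left (by nlinarith) (by positivity)
  have p4 : 4 * y ^ 3 + x * (x + 1) * (1 + 4 * y ^ 3) +
      2 * x * y * (100 * y ^ 4) * (2 * y ^ 3 * (1 + y * (1 + l))) ≤
      809 * (y ^ 9 * (1 + l)) * (x + 1) ^ 2 := by linarith
  calc (x + 2) * (4 * y ^ 3 + x * (x + 1) * (1 + 4 * y ^ 3) +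
      2 * x * y * (100 * y ^ 4) * (2 * y ^ 3 * (1 + y * (1 + l))))
      ≤ (2 * (x + 1)) * (809 * (y ^ 9 * (1 + l)) * (x + 1) ^ 2) :=
        mul_le_mul (by linarith) p4 (by positivity) (by positivity)
    _ = 1618 * (x + 1) ^ 3 * y ^ 9 * (1 + l) := by ring
    _ ≤ 2000 * (x + 1) ^ 3 * y ^ 9 * (1 + l) := by
        have : 0 ≤ (x + 1) ^ 3 * y ^ 9 * (1 + l) := by positivity
        nlinarith

end Vale.P328B.POINC
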