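import Vale.Agent.P328.B.Prog

/-! # P328, binary margins: value and running time of `preC`, `nwC` (helper18) -/

namespace Vale.P328B.PRE
open Finset BigOperators Vale.P328U Vale.P328B.PT

theorem bind_val {α β : Type} (x : Comp α) (f : α → Comp β) : (x >>= f).val = (f x.val).val := rfl

theorem bind_time {α β : Type} (x : Comp α) (f : α → Comp β) :
    (x >>= f).time = x.time + (f x.val).time := rfl

theorem pure_val {α : Type} (a : α) : (pure a : Comp α).val = a := rfl

theorem pure_time {α : Type} (a : α) : (pure a : Comp α).time = 0 := rfl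

theorem len_mono {x y : ℕ} (h : x ≤ y) : len x ≤ len y := by
  unfold len
  have := Nat.size_le_size h
  omega

/-- the loop body of `preC` -/
def body {k : ℕ} (a : Fin k → ℕ) (i : ℕ) : ℕ → Fin k → Comp ℕ := fun (s : ℕ) (j : Fin k) => do
    tick (len k)
    if (j : ℕ) < i then addC s (a j) else pure s

theorem body_val {k : ℕ} (a : Fin k → ℕ) (i : ℕ) (s : ℕ) (j : Fin k) :
    (body a i s j).val = s + if (j : ℕ) < i then a j else 0 := by
  unfold body
  rw [bind_val]
  split_ifs with h
  · rfl
  · rfl

theorem body_time {k : ℕ} (a : Fin k → ℕ) (i : ℕ) (s : ℕ) (j : Fin k) :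
    (body a i s j).time ≤ len k + (len s + len (a j)) := by
  unfold body
  rw [bind_time]
  split_ifs with h
  · exact le_rfl
  · rw [pure_time]
    exact Nat.add_le_add_left (Nat.zero_le _) _

theorem fold_val {k : ℕ} (a : Fin k → ℕ) (i : ℕ) (l : List (Fin k)) (s : ℕ) :
    (l.foldlM (body a i) s).val = s + (l.map fun j : Fin k => if (j : ℕ) < i then a j else 0).sum := by
  induction l generalizing s with
  | nil =>
    rw [List.foldlM_nil, pure_val]
    simp
  | cons j l ih =>
    rw [List.foldlM_cons, bind_val, ih, body_val, List.map_cons, List.sum_cons]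
    ring

theorem fold_time {k : ℕ} (a : Fin k → ℕ) (i : ℕ) (l : List (Fin k)) (s S : ℕ)
    (hS : s + (l.map a).sum ≤ S) :
    (l.foldlM (body a i) s).time ≤ l.length * (len k + 2 * len S) := by
  induction l generalizing s with
  | nil =>
    rw [List.foldlM_nil, pure_time]
    exact Nat.zero_le _
  | cons j l ih =>
    rw [List.foldlM_cons, bind_time, List.length_cons]
    rw [List.map_cons, List.sum_cons] at hS
    have hs : s ≤ S := by omega
    have ha : a j ≤ S := by omega
    have h1 := body_time a i s j
    have h2 := len_mono hs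
    have h3 := len_mono ha
    have h4 : (body a i s j).val + (l.map a).sum ≤ S := by
      rw [body_val]
      split_ifs <;> omega
    have h5 := ih _ h4
    calc (body a i s j).time + (l.foldlM (body a i) (body a i s j).val).time
        ≤ (len k + 2 * len S) + l.length * (len k + 2 * len S) :=
          Nat.add_le_add (by omega) h5
      _ = (l.length + 1) * (len k + 2 * len S) := by ring

theorem sum_finRange {k : ℕ} (f : Fin k → ℕ) : ((List.finRange k).map f).sum = ∑ j, f j := by
  rw [← List.ofFn_eq_map, List.sum_ofFn]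

theorem preC_val {k : ℕ} (a : Fin k → ℕ) (i : ℕ) : (preC a i).val = NW.pre a i := by
  have h : preC a i = (List.finRange k).foldlM (body a i) 0 := rfl
  rw [h, fold_val, sum_finRange, zero_add]
  rfl

theorem preC_time {k : ℕ} (a : Fin k → ℕ) (i : ℕ) :
    (preC a i).time ≤ k * (len k + 2 * len (∑ j, a j)) := by
  have h : preC a i = (List.finRange k).foldlM (body a i) 0 := rfl
  rw [h]
  have h1 := fold_time a i (List.finRange k) 0 (∑ j, a j) (by rw [sum_finRange, zero_add])
  rw [List.length_finRange] at h1
  exact h1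

theorem pre_le {k : ℕ} (a : Fin k → ℕ) (i : ℕ) : NW.pre a i ≤ ∑ j, a j := by
  unfold NW.pre
  refine Finset.sum_le_sum fun j _ => ?_
  split_ifs
  · exact le_rfl
  · exact Nat.zero_le _

theorem minC_val (x y : ℕ) : (minC x y).val = min x y := by
  unfold minC
  rw [bind_val]
  unfold leC
  by_cases h : x ≤ y
  · simp only [h, decide_true, if_true]
    rw [pure_val, min_eq_left h]
  · simp only [h, decide_false]
    rw [if_neg (by simp), pure_val, min_eq_right (by omega)]

theorem maxC_val (x y : ℕ) : (maxC x y).val = max x y := by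
  unfold maxC
  rw [bind_val]
  unfold leC
  by_cases h : x ≤ y
  · simp only [h, decide_true, if_true]
    rw [pure_val, max_eq_right h]
  · simp only [h, decide_false]
    rw [if_neg (by simp), pure_val, max_eq_left (by omega)]

theorem minC_time (x y : ℕ) : (minC x y).time = len x + len y := by
  unfold minC
  rw [bind_time]
  split_ifs
  · rfl
  · rfl

theorem maxC_time (x y : ℕ) : (maxC x y).time = len x + len y := by
  unfold maxC
  rw [bind_time]
  split_ifs
  · rfl
  · rfl

variable {m n : ℕ}

/-- one entry of the north-west corner table -/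
def entry (r : Fin m → ℕ) (c : Fin n → ℕ) (i : Fin m) (j : Fin n) : Comp ℕ := do
    let p1 ← preC r ((i : ℕ) + 1)
    let p2 ← preC c ((j : ℕ) + 1)
    let p3 ← preC r (i : ℕ)
    let p4 ← preC c (j : ℕ)
    let x ← minC p1 p2
    let y ← maxC p3 p4
    subC x y

theorem nwC_eq (r : Fin m → ℕ) (c : Fin n → ℕ) : nwC r c = buildC (entry r c) := rfl

theorem entry_val (r : Fin m → ℕ) (c : Fin n → ℕ) (i : Fin m) (j : Fin n) :
    (entry r c i j).val = NW.nw r c i j := by
  unfold entry NW.nw
  simp only [bind_val, preC_val, minC_val, maxC_val]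
  rfl

theorem entry_time (r : Fin m → ℕ) (c : Fin n → ℕ) (i : Fin m) (j : Fin n) :
    (entry r c i j).time ≤ 2 * (m * (len m + 2 * len (∑ i, r i))) +
      2 * (n * (len n + 2 * len (∑ j, c j))) + 3 * (len (∑ i, r i) + len (∑ j, c j)) := by
  have e1 := preC_time r ((i : ℕ) + 1)
  have e2 := preC_time c ((j : ℕ) + 1)
  have e3 := preC_time r (i : ℕ)
  have e4 := preC_time c (j : ℕ)
  have l1 := len_mono (pre_le r ((i : ℕ) + 1))
  have l2 := len_mono (pre_le c ((j : ℕ) + 1))
  have l3 := len_mono (pre_le r (i : ℕ))
  have l4 := len_mono (pre_le c (j : ℕ))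
  have l5 : len (min (NW.pre r ((i : ℕ) + 1)) (NW.pre c ((j : ℕ) + 1))) ≤ len (∑ i, r i) :=
    len_mono (le_trans (min_le_left _ _) (pre_le r _))
  have l6 : len (max (NW.pre r (i : ℕ)) (NW.pre c (j : ℕ))) ≤
      len (∑ i, r i) + len (∑ j, c j) := by
    rcases le_total (NW.pre r (i : ℕ)) (NW.pre c (j : ℕ)) with h | h
    · rw [max_eq_right h]
      omega
    · rw [max_eq_left h]
      omega
  have hsub : ∀ x y : ℕ, (subC x y).time = len x + len y := fun _ _ => rfl
  unfold entry
  simp only [bind_time, preC_val, minC_val, maxC_val, minC_time, maxC_time, hsub]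
  -- the last subtraction is charged `len x + len y`
  have l7 : len (max (NW.pre r (i : ℕ)) (NW.pre c (j : ℕ))) ≤
      max (len (∑ i, r i)) (len (∑ j, c j)) := by
    rcases le_total (NW.pre r (i : ℕ)) (NW.pre c (j : ℕ)) with h | h
    · rw [max_eq_right h]
      exact le_trans l4 (le_max_right _ _)
    · rw [max_eq_left h]
      exact le_trans l3 (le_max_left _ _)
  have l8 : len (min (NW.pre r ((i : ℕ) + 1)) (NW.pre c ((j : ℕ) + 1))) ≤
      min (len (∑ i, r i)) (len (∑ j, c j)) := by
    refine le_min l5 ?_
    exact len_mono (le_trans (min_le_right _ _) (pre_le c _))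
  have l9 : min (len (∑ i, r i)) (len (∑ j, c j)) + max (len (∑ i, r i)) (len (∑ j, c j)) =
      len (∑ i, r i) + len (∑ j, c j) := min_add_max _ _
  omega

theorem nwC_val (r : Fin m → ℕ) (c : Fin n → ℕ) : (nwC r c).val = NW.nw r c := by
  rw [nwC_eq]
  funext i j
  exact entry_val r c i j

theorem nwC_time (r : Fin m → ℕ) (c : Fin n → ℕ) :
    (nwC r c).time ≤ 8 * m * n * (m + n + 1) *
      (len m + len n + len (∑ i, r i) + len (∑ j, c j)) := by
  rw [nwC_eq]
  have h : ∀ i : Fin m, ∀ j : Fin n, (entry r c i j).time + len (entry r c i j).val ≤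
      8 * (m + n + 1) * (len m + len n + len (∑ i, r i) + len (∑ j, c j)) := by
    intro i j
    have h1 := entry_time r c i j
    have h2 : len (entry r c i j).val ≤ len (∑ i, r i) := by
      rw [entry_val]
      unfold NW.nw
      exact len_mono (le_trans (Nat.sub_le _ _) (le_trans (min_le_left _ _) (pre_le r _)))
    have h3 : 8 * (m + n + 1) * (len m + len n + len (∑ i, r i) + len (∑ j, c j)) =
        (2 * (m * (len m + 2 * len (∑ i, r i))) +
          2 * (n * (len n + 2 * len (∑ j, c j))) + 3 * (len (∑ i, r i) + len (∑ j, c j))) +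
        len (∑ i, r i) +
        (6 * m * len m + 8 * m * len n + 4 * m * len (∑ i, r i) + 8 * m * len (∑ j, c j) +
         8 * n * len m + 6 * n * len n + 8 * n * len (∑ i, r i) + 4 * n * len (∑ j, c j) +
         8 * len m + 8 * len n + 4 * len (∑ i, r i) + 5 * len (∑ j, c j)) := by ring
    rw [h3]
    omega
  have h0 : (buildC (entry r c)).time =
      ∑ i : Fin m, ∑ j : Fin n, ((entry r c i j).time + len (entry r c i j).val) := rfl
  rw [h0]
  calc (∑ i : Fin m, ∑ j : Fin n, ((entry r c i j).time + len (entry r c i j).val))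
      ≤ ∑ _i : Fin m, ∑ _j : Fin n,
        8 * (m + n + 1) * (len m + len n + len (∑ i, r i) + len (∑ j, c j)) :=
        Finset.sum_le_sum fun i _ => Finset.sum_le_sum fun j _ => h i j
    _ = _ := by
        simp only [Finset.sum_const, Finset.card_univ, Fintype.card_fin, smul_eq_mul]
        ring

end Vale.P328B.PRE
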