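import Vale.Agent.P328.B.Prog
import Vale.Agent.P328.B.DPR

/-! # P328, program version, module STV (helper28): value and running time of one step -/

namespace Vale.P328B.PT.STV
open Finset BigOperators Vale.P328U Vale.P328B Vale.P328B.PT

theorem bind_val {α β : Type} (x : Comp α) (f : α → Comp β) : (x >>= f).val = (f x.val).val := rfl

theorem bind_time {α β : Type} (x : Comp α) (f : α → Comp β) :
    (x >>= f).time = x.time + (f x.val).time := rfl

theorem pure_val {α : Type} (a : α) : (pure a : Comp α).val = a := rfl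

theorem pure_time {α : Type} (a : α) : (pure a : Comp α).time = 0 := rfl

/-- overwrite one entry -/
def upd {m n : ℕ} (X : Fin m → Fin n → ℕ) (i : Fin m) (j : Fin n) (v : ℕ) : Fin m → Fin n → ℕ :=
  Function.update X i (Function.update (X i) j v)

theorem upd_apply {m n : ℕ} (X : Fin m → Fin n → ℕ) (i : Fin m) (j : Fin n) (v : ℕ)
    (a : Fin m) (b : Fin n) : upd X i j v a b = if a = i ∧ b = j then v else X a b := by
  unfold upd
  by_cases ha : a = i
  · subst ha
    rw [Function.update_self]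
    by_cases hb : b = j
    · subst hb
      rw [Function.update_self]
      simp
    · rw [Function.update_of_ne hb]
      simp [hb]
  · rw [Function.update_of_ne ha]
    simp [ha]

theorem table_eq {m n : ℕ} (X : Fin m → Fin n → ℕ) (k h : Fin m) (a b : Fin n) (s : ℕ)
    (hk : k ≠ h) (hab : a ≠ b) (h1 : s ≤ X k a) (h2 : s ≤ X h b) :
    upd (upd (upd (upd X k a (X k a - s)) k b ((upd X k a (X k a - s)) k b + s)) h b
        (X h b - s)) h a
      ((upd (upd (upd X k a (X k a - s)) k b ((upd X k a (X k a - s)) k b + s)) h b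
        (X h b - s)) h a + s) =
      X + s • E k b + s • E h a - s • E k a - s • E h b := by
  funext i j
  simp only [upd_apply, Pi.add_apply, Pi.sub_apply, Pi.smul_apply, smul_eq_mul, DPR.E_apply]
  by_cases hi : i = k
  · subst hi
    by_cases hja : j = a
    · subst hja
      simp [hk, hab]
    · by_cases hjb : j = b
      · subst hjb
        simp [hk, hja]
      · simp [hk, hja, hjb]
  · by_cases hi' : i = h
    · subst hi'
      by_cases hja : j = a
      · subst hja
        simp [hi, hab, Ne.symm hk]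
      · by_cases hjb : j = b
        · subst hjb
          simp [hi, hja]
        · simp [hi, hja, hjb]
    · simp [hi, hi']

/-- the legality condition of a draw -/
def legal {m n D : ℕ} (h : Fin m) (u : Draw m n D) : Prop :=
  (u.1 : ℕ) < m ∧ (u.2.1 : ℕ) < n ∧ (u.2.2.1 : ℕ) < n ∧ (u.2.2.2.1 : ℕ) < D + 1 ∧
      u.2.2.2.2 = true ∧ (u.1 : ℕ) ≠ h ∧ (u.2.1 : ℕ) ≠ u.2.2.1

/-- last part -/
def tail4 {m n : ℕ} (h : Fin m) (X : Fin m → Fin n → ℕ) (a : Fin n) (s : ℕ) :
    Comp (Fin m → Fin n → ℕ) := do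
  let w ← getC X h a
  let w' ← addC w s
  setC X h a w'

/-- third part -/
def tail3 {m n : ℕ} (h : Fin m) (X : Fin m → Fin n → ℕ) (a b : Fin n) (s y : ℕ) :
    Comp (Fin m → Fin n → ℕ) := do
  let y' ← subC y s
  let X3 ← setC X h b y'
  tail4 h X3 a s

/-- second part -/
def tail2 {m n : ℕ} (h : Fin m) (X : Fin m → Fin n → ℕ) (k : Fin m) (a b : Fin n) (s y : ℕ) :
    Comp (Fin m → Fin n → ℕ) := do
  let z ← getC X k b
  let z' ← addC z s
  let X2 ← setC X k b z'
  tail3 h X2 a b s y

/-- first part -/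
def tail1 {m n : ℕ} (h : Fin m) (X : Fin m → Fin n → ℕ) (k : Fin m) (a b : Fin n) (s x y : ℕ) :
    Comp (Fin m → Fin n → ℕ) := do
  let x' ← subC x s
  let X1 ← setC X k a x'
  tail2 h X1 k a b s y

/-- the body of the step for legal draws -/
def body {m n : ℕ} (h : Fin m) (X : Fin m → Fin n → ℕ) (k : Fin m) (a b : Fin n) (d : ℕ) :
    Comp (Fin m → Fin n → ℕ) := do
  let s ← pow2C d
  let x ← getC X k a
  let y ← getC X h b
  let p ← leC s x
  let q ← leC s y
  if p && q then tail1 h X k a b s x y else pure X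

theorem stepC_legal {m n D : ℕ} (h : Fin m) (X : Fin m → Fin n → ℕ) (u : Draw m n D)
    (hu : legal h u) :
    stepC h X u = (do
      tick (nbits m n D + 2 * (len m + len n + len n + len D))
      body h X ⟨u.1, hu.1⟩ ⟨u.2.1, hu.2.1⟩ ⟨u.2.2.1, hu.2.2.1⟩ u.2.2.2.1) := by
  have hu' := hu
  unfold legal at hu'
  unfold stepC
  rw [dif_pos hu']
  rfl

theorem stepC_illegal {m n D : ℕ} (h : Fin m) (X : Fin m → Fin n → ℕ) (u : Draw m n D)
    (hu : ¬ legal h u) :
    stepC h X u = (do
      tick (nbits m n D + 2 * (len m + len n + len n + len D))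
      pure X) := by
  have hu' := hu
  unfold legal at hu'
  unfold stepC
  rw [dif_neg hu']

theorem tail1_val {m n : ℕ} (h : Fin m) (X : Fin m → Fin n → ℕ) (k : Fin m) (a b : Fin n) (s : ℕ) :
    (tail1 h X k a b s (X k a) (X h b)).val =
    upd (upd (upd (upd X k a (X k a - s)) k b ((upd X k a (X k a - s)) k b + s)) h b
        (X h b - s)) h a
      ((upd (upd (upd X k a (X k a - s)) k b ((upd X k a (X k a - s)) k b + s)) h b
        (X h b - s)) h a + s) := rfl

theorem body_val0 {m n : ℕ} (h : Fin m) (X : Fin m → Fin n → ℕ) (k : Fin m) (a b : Fin n)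
    (d : ℕ) :
    (body h X k a b d).val = (if decide (2 ^ d ≤ X k a) && decide (2 ^ d ≤ X h b) then
      tail1 h X k a b (2 ^ d) (X k a) (X h b) else pure X : Comp (Fin m → Fin n → ℕ)).val := rfl

theorem body_time0 {m n : ℕ} (h : Fin m) (X : Fin m → Fin n → ℕ) (k : Fin m) (a b : Fin n)
    (d : ℕ) :
    (body h X k a b d).time = (d + 1) * len d + ((tlen X + len m + len n) +
      ((tlen X + len m + len n) + ((len (2 ^ d) + len (X k a)) + ((len (2 ^ d) + len (X h b)) +
      (if decide (2 ^ d ≤ X k a) && decide (2 ^ d ≤ X h b) then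
      tail1 h X k a b (2 ^ d) (X k a) (X h b) else
        pure X : Comp (Fin m → Fin n → ℕ)).time)))) := rfl

theorem body_val {m n : ℕ} (h : Fin m) (X : Fin m → Fin n → ℕ) (k : Fin m) (a b : Fin n) (d : ℕ)
    (hk : k ≠ h) (hab : a ≠ b) :
    (body h X k a b d).val = if 2 ^ d ≤ X k a ∧ 2 ^ d ≤ X h b then
      X + 2 ^ d • E k b + 2 ^ d • E h a - 2 ^ d • E k a - 2 ^ d • E h b else X := by
  rw [body_val0]
  by_cases hc : 2 ^ d ≤ X k a ∧ 2 ^ d ≤ X h b
  · rw [if_pos hc, if_pos (by simpa using hc), tail1_val]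
    exact table_eq X k h a b (2 ^ d) hk hab hc.1 hc.2
  · rw [if_neg hc, if_neg (by simpa using hc)]
    rfl

theorem tail4_time {m n : ℕ} (h : Fin m) (X : Fin m → Fin n → ℕ) (a : Fin n) (s : ℕ) :
    (tail4 h X a s).time = (tlen X + len m + len n) + ((len (X h a) + len s) +
      (tlen X + len m + len n + len (X h a + s))) := rfl

theorem tail3_time {m n : ℕ} (h : Fin m) (X : Fin m → Fin n → ℕ) (a b : Fin n) (s y : ℕ) :
    (tail3 h X a b s y).time = (len y + len s) + ((tlen X + len m + len n + len (y - s)) +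
      (tail4 h (upd X h b (y - s)) a s).time) := rfl

theorem tail2_time {m n : ℕ} (h : Fin m) (X : Fin m → Fin n → ℕ) (k : Fin m) (a b : Fin n)
    (s y : ℕ) :
    (tail2 h X k a b s y).time = (tlen X + len m + len n) + ((len (X k b) + len s) +
      ((tlen X + len m + len n + len (X k b + s)) +
      (tail3 h (upd X k b (X k b + s)) a b s y).time)) := rfl

theorem tail1_time {m n : ℕ} (h : Fin m) (X : Fin m → Fin n → ℕ) (k : Fin m) (a b : Fin n)
    (s x y : ℕ) :
    (tail1 h X k a b s x y).time = (len x + len s) + ((tlen X + len m + len n + len (x - s)) +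
      (tail2 h (upd X k a (x - s)) k a b s y).time) := rfl

/-- VALUE of one step -/
theorem val {m n D : ℕ} (h : Fin m) (X : Fin m → Fin n → ℕ) (u : Draw m n D) :
    (stepC h X u).val = pStep h X u := by
  by_cases hu : legal h u
  · rw [stepC_legal h X u hu, bind_val]
    have hk : (⟨u.1, hu.1⟩ : Fin m) ≠ h := by
      intro he
      exact hu.2.2.2.2.2.1 (congrArg (fun z : Fin m => (z : ℕ)) he)
    have hab : (⟨u.2.1, hu.2.1⟩ : Fin n) ≠ ⟨u.2.2.1, hu.2.2.1⟩ := by
      intro he
      exact hu.2.2.2.2.2.2 (congrArg (fun z : Fin n => (z : ℕ)) he)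
    rw [body_val h X _ _ _ _ hk hab]
    unfold pStep dyStep
    rw [dif_pos ⟨hu.1, hu.2.1, hu.2.2.1, hu.2.2.2.1⟩]
    by_cases hc : 2 ^ (u.2.2.2.1 : ℕ) ≤ X ⟨u.1, hu.1⟩ ⟨u.2.1, hu.2.1⟩ ∧
        2 ^ (u.2.2.2.1 : ℕ) ≤ X h ⟨u.2.2.1, hu.2.2.1⟩
    · rw [if_pos hc, if_pos ⟨hu.2.2.2.2.1, hk, hab, hc.1, hc.2⟩]
    · rw [if_neg hc, if_neg]
      rintro ⟨_, _, _, h4, h5⟩
      exact hc ⟨h4, h5⟩
  · rw [stepC_illegal h X u hu, bind_val, pure_val]
    unfold pStep dyStep
    split_ifs with h1 h2
    · exfalso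
      apply hu
      refine ⟨h1.1, h1.2.1, h1.2.2.1, h1.2.2.2, h2.1, ?_, ?_⟩
      · intro he
        exact h2.2.1 (Fin.ext he)
      · intro he
        exact h2.2.2.1 (Fin.ext he)
    · rfl
    · rfl

theorem len_mono {x y : ℕ} (h : x ≤ y) : len x ≤ len y := by
  unfold len
  exact Nat.add_le_add_right (Nat.size_le_size h) 1

theorem len_two_pow (d : ℕ) : len (2 ^ d) = d + 2 := by
  unfold len
  rw [Nat.size_pow]

theorem tlen_le {m n : ℕ} (X : Fin m → Fin n → ℕ) (M : ℕ) (h : ∀ i j, X i j ≤ M) :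
    tlen X ≤ m * n * len M := by
  unfold tlen
  calc ∑ i, ∑ j, len (X i j) ≤ ∑ i : Fin m, ∑ j : Fin n, len M :=
        Finset.sum_le_sum fun i _ => Finset.sum_le_sum fun j _ => len_mono (h i j)
    _ = m * n * len M := by
        rw [Finset.sum_const, Finset.sum_const, Finset.card_univ, Finset.card_univ,
          Fintype.card_fin, Fintype.card_fin, smul_eq_mul, smul_eq_mul]
        ring

theorem upd_le {m n : ℕ} (X : Fin m → Fin n → ℕ) (i : Fin m) (j : Fin n) (v M : ℕ)
    (h : ∀ i j, X i j ≤ M) (hv : v ≤ M) : ∀ a b, upd X i j v a b ≤ M := by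
  intro a b
  rw [upd_apply]
  split_ifs
  · exact hv
  · exact h a b

theorem pow2_time (d D : ℕ) (h : d ≤ D) : (d + 1) * len d ≤ (D + 1) * len D :=
  Nat.mul_le_mul (by omega) (len_mono h)

/-- bound of the running time of one step -/
def stepB (m n D M : ℕ) : ℕ :=
  nbits m n D + 2 * (len m + len n + len n + len D) + (D + 1) * len D +
    (2 * (m * n * len (2 * M) + len m + len n) + 2 * (D + 2 + len (2 * M))) +
    (6 * (m * n * len (2 * M) + len m + len n) + (12 * len (2 * M) + 1))

theorem tail4_le {m n : ℕ} (h : Fin m) (X : Fin m → Fin n → ℕ) (a : Fin n) (s M : ℕ)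
    (hs : s ≤ M) (hX : ∀ i j, X i j ≤ 2 * M) :
    (tail4 h X a s).time ≤ 2 * (m * n * len (2 * M) + len m + len n) +
      (3 * len (2 * M) + 1) := by
  rw [tail4_time]
  have t := tlen_le X (2 * M) hX
  have l1 : len (X h a) ≤ len (2 * M) := len_mono (hX h a)
  have l2 : len s ≤ len (2 * M) := len_mono (le_trans hs (by omega))
  have hw : X h a + s ≤ 2 * (2 * M) := by
    have := hX h a
    omega
  have l6 : len (X h a + s) ≤ len (2 * M) + 1 := by
    refine le_trans (len_mono hw) ?_
    unfold len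
    have h5 : Nat.size (2 * (2 * M)) ≤ Nat.size (2 * M) + 1 := by
      rw [Nat.size_le, pow_succ]
      have := Nat.lt_size_self (2 * M)
      omega
    omega
  omega

theorem tail3_le {m n : ℕ} (h : Fin m) (X : Fin m → Fin n → ℕ) (a b : Fin n) (s y M : ℕ)
    (hs : s ≤ M) (hX : ∀ i j, X i j ≤ 2 * M) (hy : y ≤ 2 * M) :
    (tail3 h X a b s y).time ≤ 3 * (m * n * len (2 * M) + len m + len n) +
      (6 * len (2 * M) + 1) := by
  rw [tail3_time]
  have t := tlen_le X (2 * M) hX
  have hy' : y - s ≤ 2 * M := le_trans (Nat.sub_le _ _) hy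
  have l0 : len y ≤ len (2 * M) := len_mono hy
  have l1 : len (y - s) ≤ len (2 * M) := len_mono hy'
  have l2 : len s ≤ len (2 * M) := len_mono (le_trans hs (by omega))
  have l3 := tail4_le h (upd X h b (y - s)) a s M hs (upd_le X h b _ (2 * M) hX hy')
  omega

theorem tail2_le {m n : ℕ} (h : Fin m) (X : Fin m → Fin n → ℕ) (k : Fin m) (a b : Fin n)
    (s y M : ℕ) (hs : s ≤ M) (hX : ∀ i j, X i j ≤ M) (hy : y ≤ 2 * M) :
    (tail2 h X k a b s y).time ≤ 5 * (m * n * len (2 * M) + len m + len n) +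
      (9 * len (2 * M) + 1) := by
  rw [tail2_time]
  have hX2 : ∀ i j, X i j ≤ 2 * M := fun i j => le_trans (hX i j) (by omega)
  have t := tlen_le X (2 * M) hX2
  have hz : X k b + s ≤ 2 * M := by
    have := hX k b
    omega
  have l0 : len (X k b) ≤ len (2 * M) := len_mono (hX2 k b)
  have l1 : len (X k b + s) ≤ len (2 * M) := len_mono hz
  have l2 : len s ≤ len (2 * M) := len_mono (le_trans hs (by omega))
  have l3 := tail3_le h (upd X k b (X k b + s)) a b s y M hs (upd_le X k b _ (2 * M) hX2 hz) hy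
  omega

theorem tail1_le {m n : ℕ} (h : Fin m) (X : Fin m → Fin n → ℕ) (k : Fin m) (a b : Fin n)
    (s x y M : ℕ) (hs : s ≤ M) (hX : ∀ i j, X i j ≤ M) (hx : x ≤ M) (hy : y ≤ M) :
    (tail1 h X k a b s x y).time ≤ 6 * (m * n * len (2 * M) + len m + len n) +
      (12 * len (2 * M) + 1) := by
  rw [tail1_time]
  have hX2 : ∀ i j, X i j ≤ 2 * M := fun i j => le_trans (hX i j) (by omega)
  have t := tlen_le X (2 * M) hX2
  have hx' : x - s ≤ M := le_trans (Nat.sub_le _ _) hx
  have l0 : len x ≤ len (2 * M) := len_mono (le_trans hx (by omega))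
  have l1 : len (x - s) ≤ len (2 * M) := len_mono (le_trans hx' (by omega))
  have l2 : len s ≤ len (2 * M) := len_mono (le_trans hs (by omega))
  have l3 := tail2_le h (upd X k a (x - s)) k a b s y M hs (upd_le X k a _ M hX hx')
    (le_trans hy (by omega))
  omega

theorem body_time {m n : ℕ} (h : Fin m) (X : Fin m → Fin n → ℕ) (k : Fin m) (a b : Fin n)
    (d D M : ℕ) (hd : d ≤ D) (hX : ∀ i j, X i j ≤ M) :
    (body h X k a b d).time ≤ (D + 1) * len D +
      (2 * (m * n * len (2 * M) + len m + len n) + 2 * (D + 2 + len (2 * M))) +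
      (6 * (m * n * len (2 * M) + len m + len n) + (12 * len (2 * M) + 1)) := by
  rw [body_time0]
  have hX2 : ∀ i j, X i j ≤ 2 * M := fun i j => le_trans (hX i j) (by omega)
  have t0 := tlen_le X (2 * M) hX2
  have hp := pow2_time d D hd
  have hs : len (2 ^ d) ≤ D + 2 := by
    rw [len_two_pow]
    omega
  have hx : len (X k a) ≤ len (2 * M) := len_mono (hX2 k a)
  have hy : len (X h b) ≤ len (2 * M) := len_mono (hX2 h b)
  by_cases hc : 2 ^ d ≤ X k a ∧ 2 ^ d ≤ X h b
  · rw [if_pos (by simpa using hc)]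
    have l3 := tail1_le h X k a b (2 ^ d) (X k a) (X h b) M (le_trans hc.1 (hX k a)) hX
      (hX k a) (hX h b)
    omega
  · rw [if_neg (by simpa using hc), pure_time]
    omega

/-- RUNNING TIME of one step -/
theorem time {m n D : ℕ} (h : Fin m) (X : Fin m → Fin n → ℕ) (u : Draw m n D) (M : ℕ)
    (hX : ∀ i j, X i j ≤ M) : (stepC h X u).time ≤ stepB m n D M := by
  unfold stepB
  by_cases hu : legal h u
  · rw [stepC_legal h X u hu, bind_time]
    have hb := body_time h X ⟨u.1, hu.1⟩ ⟨u.2.1, hu.2.1⟩ ⟨u.2.2.1, hu.2.2.1⟩ u.2.2.2.1 D M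
      (Nat.lt_succ_iff.1 hu.2.2.2.1) hX
    change nbits m n D + 2 * (len m + len n + len n + len D) + _ ≤ _
    omega
  · rw [stepC_illegal h X u hu, bind_time, pure_time]
    change nbits m n D + 2 * (len m + len n + len n + len D) + 0 ≤ _
    omega

end Vale.P328B.PT.STV
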