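import Vale.Agent.P328.B.LENP

/-!
# P328, binary margins, running time: the numbers of steps and attempts suffice (helper14)
-/

namespace Vale.P328B.PT
open Finset BigOperators Vale.P328U

namespace TARI

lemma log_le (N : ℕ) : Real.log (N + 2) ≤ (Nat.log 2 (N + 2) : ℝ) + 1 := by
  have h1 : N + 2 < 2 ^ (Nat.log 2 (N + 2) + 1) := Nat.lt_pow_succ_log_self (by norm_num) _
  have h2 : ((N : ℝ) + 2) ≤ 2 ^ (Nat.log 2 (N + 2) + 1) := by exact_mod_cast h1.le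
  have h3 : Real.log ((N : ℝ) + 2) ≤ Real.log (2 ^ (Nat.log 2 (N + 2) + 1)) :=
    Real.log_le_log (by positivity) h2
  rw [Real.log_pow] at h3
  have h4 : Real.log 2 ≤ 1 := by
    have := Real.log_le_sub_one_of_pos (show (0 : ℝ) < 2 by norm_num)
    linarith
  push_cast at h3
  have h5 : (0 : ℝ) ≤ (Nat.log 2 (N + 2) : ℝ) + 1 := by positivity
  calc Real.log ((N : ℝ) + 2) ≤ ((Nat.log 2 (N + 2) : ℝ) + 1) * Real.log 2 := h3
    _ ≤ ((Nat.log 2 (N + 2) : ℝ) + 1) * 1 := mul_le_mul_of_nonneg_left h4 h5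
    _ = _ := mul_one _

lemma log_nonneg (N : ℕ) : 0 ≤ Real.log ((N : ℝ) + 2) :=
  Real.log_nonneg (by
    have : (0 : ℝ) ≤ N := by positivity
    linarith)

lemma one_le_log (N : ℕ) : 1 ≤ Nat.log 2 (N + 2) := by
  have h : 2 ^ 1 ≤ N + 2 := by omega
  exact Nat.le_log_of_pow_le (by norm_num) h

lemma log_eps {m n b : ℕ} (hm : 1 ≤ m) (hn : 1 ≤ n) {ε : ℝ} (hε : (1 / 2 : ℝ) ^ b ≤ ε) :
    Real.log (8 * m * n / ε) ≤ 3 + m + n + b := by
  have hε0 : 0 < ε := lt_of_lt_of_le (by positivity) hε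
  have hm' : (0 : ℝ) < m := by exact_mod_cast hm
  have hn' : (0 : ℝ) < n := by exact_mod_cast hn
  have h1 : 8 * (m : ℝ) * n / ε ≤ 2 ^ (3 + m + n + b) := by
    rw [div_le_iff₀ hε0]
    have e1 : ((m : ℝ)) ≤ 2 ^ m := by exact_mod_cast (Nat.lt_two_pow_self (n := m)).le
    have e2 : ((n : ℝ)) ≤ 2 ^ n := by exact_mod_cast (Nat.lt_two_pow_self (n := n)).le
    have e3 : (1 : ℝ) ≤ 2 ^ b * ε := by
      calc (1 : ℝ) = 2 ^ b * (1 / 2) ^ b := by
            rw [← mul_pow]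
            norm_num
        _ ≤ 2 ^ b * ε := mul_le_mul_of_nonneg_left hε (by positivity)
    calc 8 * (m : ℝ) * n ≤ 8 * 2 ^ m * 2 ^ n := by gcongr
      _ = (2 ^ 3 * 2 ^ m * 2 ^ n) * 1 := by norm_num
      _ ≤ (2 ^ 3 * 2 ^ m * 2 ^ n) * (2 ^ b * ε) := by gcongr
      _ = 2 ^ (3 + m + n + b) * ε := by
          rw [pow_add, pow_add, pow_add]
          ring
  have h2 : Real.log (8 * m * n / ε) ≤ Real.log (2 ^ (3 + m + n + b)) :=
    Real.log_le_log (by positivity) h1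
  rw [Real.log_pow] at h2
  have h4 : Real.log 2 ≤ 1 := by
    have := Real.log_le_sub_one_of_pos (show (0 : ℝ) < 2 by norm_num)
    linarith
  push_cast at h2
  have h5 : (0 : ℝ) ≤ 3 + m + n + b := by positivity
  calc Real.log (8 * m * n / ε) ≤ (3 + m + n + b) * Real.log 2 := h2
    _ ≤ (3 + m + n + b) * 1 := mul_le_mul_of_nonneg_left h4 h5
    _ = _ := mul_one _

lemma T_aux (m n b D l e s : ℝ) (hm : 1 ≤ m) (hn : 1 ≤ n) (hD : 1 ≤ D) (hb : 0 ≤ b)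
    (hs : s = m + n + D + b + 1) (hl0 : 0 ≤ l) (hl : l ≤ D + 1) (he : e ≤ 3 + m + n + b) :
    16 * (16000 * m ^ 4 * n ^ 11 * (D + 1) ^ 2 * (1 + l)) * (m * n * l + e) ≤
      512000 * s ^ 21 := by
  have s4 : 4 ≤ s := by linarith
  have s0 : 0 ≤ s := by linarith
  have hm0 : 0 ≤ m := by linarith
  have hn0 : 0 ≤ n := by linarith
  have hD0 : 0 ≤ D + 1 := by linarith
  have hl10 : 0 ≤ 1 + l := by linarith
  have hms : m ≤ s := by linarith
  have hns : n ≤ s := by linarith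
  have hDs : D + 1 ≤ s := by linarith
  have hls : l ≤ s := by linarith
  have hls1 : 1 + l ≤ s := by linarith
  have h1 : m ^ 4 ≤ s ^ 4 := pow_le_pow_left₀ hm0 hms 4
  have h2 : n ^ 11 ≤ s ^ 11 := pow_le_pow_left₀ hn0 hns 11
  have h3 : (D + 1) ^ 2 ≤ s ^ 2 := pow_le_pow_left₀ hD0 hDs 2
  have h4 : m ^ 4 * n ^ 11 ≤ s ^ 4 * s ^ 11 := mul_le_mul h1 h2 (by positivity) (by positivity)
  have h5 : m ^ 4 * n ^ 11 * (D + 1) ^ 2 ≤ s ^ 4 * s ^ 11 * s ^ 2 :=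
    mul_le_mul h4 h3 (by positivity) (by positivity)
  have h6 : m ^ 4 * n ^ 11 * (D + 1) ^ 2 * (1 + l) ≤ s ^ 4 * s ^ 11 * s ^ 2 * s :=
    mul_le_mul h5 hls1 hl10 (by positivity)
  have h7 : m * n * l ≤ s * s * s :=
    mul_le_mul (mul_le_mul hms hns hn0 s0) hls hl0 (mul_nonneg s0 s0)
  have h8 : e ≤ s * s * s := by
    have h9 : s + 1 ≤ s * s * s := by nlinarith [mul_nonneg s0 s0]
    linarith
  have h10 : 0 ≤ m ^ 4 * n ^ 11 * (D + 1) ^ 2 * (1 + l) := by positivity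
  calc 16 * (16000 * m ^ 4 * n ^ 11 * (D + 1) ^ 2 * (1 + l)) * (m * n * l + e)
      = 256000 * (m ^ 4 * n ^ 11 * (D + 1) ^ 2 * (1 + l)) * (m * n * l + e) := by ring
    _ ≤ 256000 * (m ^ 4 * n ^ 11 * (D + 1) ^ 2 * (1 + l)) * (s * s * s + s * s * s) := by
        apply mul_le_mul_of_nonneg_left (by linarith)
        positivity
    _ ≤ 256000 * (s ^ 4 * s ^ 11 * s ^ 2 * s) * (s * s * s + s * s * s) := by
        apply mul_le_mul_of_nonneg_right _ (by positivity)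
        linarith
    _ = 512000 * s ^ 21 := by ring

/-- the number of steps `pT 512000 21` suffices -/
theorem T_ineq (m n N b : ℕ) (hm : 1 ≤ m) (hn : 1 ≤ n) {ε : ℝ} (hε : (1 / 2 : ℝ) ^ b ≤ ε) :
    16 * (16000 * (m : ℝ) ^ 4 * (n : ℝ) ^ 11 * ((Nat.log 2 (N + 2) : ℝ) + 1) ^ 2 *
      (1 + Real.log (N + 2))) * (m * n * Real.log (N + 2) + Real.log (8 * m * n / ε)) ≤
      (pT 512000 21 m n (Nat.log 2 (N + 2)) b : ℝ) := by
  have h := T_aux m n b (Nat.log 2 (N + 2)) (Real.log (N + 2)) (Real.log (8 * m * n / ε)) _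
    (by exact_mod_cast hm) (by exact_mod_cast hn) (by exact_mod_cast one_le_log N)
    (Nat.cast_nonneg b) rfl (log_nonneg N) (log_le N) (log_eps hm hn hε)
  refine h.trans (le_of_eq ?_)
  unfold pT
  rw [Nat.cast_mul, Nat.cast_pow]
  push_cast
  rfl

/-- the number of attempts `pK` suffices -/
theorem K_ineq (m n b : ℕ) {ε : ℝ} (hε : (1 / 2 : ℝ) ^ b ≤ ε) :
    2 * m * n * Real.log (4 / ε) ≤ (pK m n b : ℝ) := by
  unfold pK
  push_cast
  have hε0 : 0 < ε := lt_of_lt_of_le (by positivity) hε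
  have h1 : 4 / ε ≤ 2 ^ (b + 2) := by
    rw [div_le_iff₀ hε0]
    have e3 : (1 : ℝ) ≤ 2 ^ b * ε := by
      calc (1 : ℝ) = 2 ^ b * (1 / 2) ^ b := by
            rw [← mul_pow]
            norm_num
        _ ≤ 2 ^ b * ε := mul_le_mul_of_nonneg_left hε (by positivity)
    calc (4 : ℝ) = 2 ^ 2 * 1 := by norm_num
      _ ≤ 2 ^ 2 * (2 ^ b * ε) := by gcongr
      _ = 2 ^ (b + 2) * ε := by
          rw [pow_add]
          ring
  have h2 : Real.log (4 / ε) ≤ Real.log (2 ^ (b + 2)) := Real.log_le_log (by positivity) h1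
  rw [Real.log_pow] at h2
  have h4 : Real.log 2 ≤ 1 := by
    have := Real.log_le_sub_one_of_pos (show (0 : ℝ) < 2 by norm_num)
    linarith
  push_cast at h2
  have h5 : Real.log (4 / ε) ≤ b + 2 := by
    calc Real.log (4 / ε) ≤ (b + 2) * Real.log 2 := h2
      _ ≤ (b + 2) * 1 := mul_le_mul_of_nonneg_left h4 (by positivity)
      _ = _ := mul_one _
  gcongr

end TARI

end Vale.P328B.PT
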