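import Vale.Agent.P328.B.TARI
import Vale.Agent.P328.B.STV
import Vale.Agent.P328.B.PART

/-!
# P328, binary margins, running time: module TIMB (helper14), the polynomial bound of the total
running time and of the number of random bits
-/

namespace Vale.P328B.PT
open Finset BigOperators Vale.P328U

namespace TIMB

/-- the total running time without the computation of the parameters -/
def tot (m n lm ln lr lc l1 l2 L S T lT K lK : ℕ) : ℕ :=
  m * (lm + 2 * lr) + 8 * m * n * (m + n + 1) * (lm + ln + lr + lc) + (L + lm + ln) +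
    (l1 + len 1) + (L + lm + ln + l2) +
    K * (lK + (T * (lT + S) + (5 * L + 2 * lm + 2 * ln + 4)))

lemma len_one : len 1 = 2 := by
  unfold len
  simp

lemma aux (A P m n lm ln lr lc l1 l2 L S T lT K lK : ℕ) (hP : 1 ≤ P) (hm : m ≤ P) (hn : n ≤ P)
    (hmn : m + n + 1 ≤ P) (hlm : lm ≤ P) (hln : ln ≤ P) (hlr : lr ≤ P) (hlc : lc ≤ P)
    (hl1 : l1 ≤ 2 * P) (hl2 : l2 ≤ 2 * P) (hL : L ≤ 2 * P ^ 3) (hS : S ≤ 85 * P ^ 3)
    (hT : T ≤ A * P ^ 21) (hlT : lT ≤ 63 * P) (hK : K ≤ 2 * P ^ 3) (hlK : lK ≤ 3 * P ^ 3) :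
    tot m n lm ln lr lc l1 l2 L S T lT K lK ≤ (296 * A + 100) * P ^ 27 := by
  unfold tot
  rw [len_one]
  have e1 : m * (lm + 2 * lr) ≤ P * (P + 2 * P) := Nat.mul_le_mul hm (by omega)
  have e2 : 8 * m * n * (m + n + 1) * (lm + ln + lr + lc) ≤ 8 * P * P * P * (4 * P) := by
    apply Nat.mul_le_mul _ (by omega)
    apply Nat.mul_le_mul _ hmn
    apply Nat.mul_le_mul _ hn
    exact Nat.mul_le_mul_left 8 hm
  have e3 : lT + S ≤ 148 * P ^ 3 := by
    have : P ≤ P ^ 3 := Nat.le_self_pow (by norm_num) P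
    omega
  have e4 : T * (lT + S) ≤ (A * P ^ 21) * (148 * P ^ 3) := Nat.mul_le_mul hT e3
  have e5 : 5 * L + 2 * lm + 2 * ln + 4 ≤ 18 * P ^ 3 := by
    have : P ≤ P ^ 3 := Nat.le_self_pow (by norm_num) P
    omega
  have e6 : K * (lK + (T * (lT + S) + (5 * L + 2 * lm + 2 * ln + 4))) ≤
      2 * P ^ 3 * (3 * P ^ 3 + ((A * P ^ 21) * (148 * P ^ 3) + 18 * P ^ 3)) :=
    Nat.mul_le_mul hK (by omega)
  have e7 : 2 * P ^ 3 * (3 * P ^ 3 + ((A * P ^ 21) * (148 * P ^ 3) + 18 * P ^ 3)) =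
      296 * (A * P ^ 27) + 42 * P ^ 6 := by ring
  have e8 : P * (P + 2 * P) = 3 * P ^ 2 := by ring
  have e9 : 8 * P * P * P * (4 * P) = 32 * P ^ 4 := by ring
  have p1 : P ≤ P ^ 27 := Nat.le_self_pow (by norm_num) P
  have p2 : P ^ 2 ≤ P ^ 27 := Nat.pow_le_pow_right hP (by norm_num)
  have p3 : P ^ 3 ≤ P ^ 27 := Nat.pow_le_pow_right hP (by norm_num)
  have p4 : P ^ 4 ≤ P ^ 27 := Nat.pow_le_pow_right hP (by norm_num)
  have p6 : P ^ 6 ≤ P ^ 27 := Nat.pow_le_pow_right hP (by norm_num)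
  have e10 : (296 * A + 100) * P ^ 27 = 296 * (A * P ^ 27) + 100 * P ^ 27 := by ring
  rw [e7] at e6
  rw [e8] at e1
  rw [e9] at e2
  rw [e10]
  omega

section
variable {m n : ℕ} (r : Fin m → ℕ) (c : Fin n → ℕ) (b : ℕ)

theorem two_le_Lin (hm : 1 ≤ m) (hn : 1 ≤ n) : 2 ≤ Lin r c := by
  unfold Lin
  omega

theorem mn_le : m + n ≤ Lin r c := by
  unfold Lin
  omega

theorem stepB_le (hm : 1 ≤ m) (hn : 1 ≤ n) :
    STV.stepB m n (pD c) (∑ j, c j + 1) ≤ 85 * (Lin r c + b + 1) ^ 3 := by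
  obtain ⟨P, hP⟩ : ∃ P, P = Lin r c + b + 1 := ⟨_, rfl⟩
  rw [← hP]
  have h2 := two_le_Lin r c hm hn
  have hmn := mn_le r c
  have hP3 : 3 ≤ P := by omega
  unfold STV.stepB
  have a1 : nbits m n (pD c) ≤ 4 * P := by
    have := LENP.nbits_le r c
    omega
  have a2 : len m ≤ P := by
    have := LENP.len_m_le r c
    omega
  have a3 : len n ≤ P := by
    have := LENP.len_n_le r c
    omega
  have a4 : pD c ≤ P := by
    have := LENP.pD_le r c
    omega
  have a5 : len (pD c) ≤ 2 * P := by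
    have := PART.len_le (pD c)
    omega
  have a6 : len (2 * (∑ j, c j + 1)) ≤ 2 * P := by
    have := LENP.len_le_of2 r c (le_refl (2 * (∑ j, c j + 1)))
    omega
  have a7 : m * n * len (2 * (∑ j, c j + 1)) ≤ P * P * (2 * P) :=
    Nat.mul_le_mul (Nat.mul_le_mul (by omega) (by omega)) a6
  have a8 : (pD c + 1) * len (pD c) ≤ (P + 1) * (2 * P) := Nat.mul_le_mul (by omega) a5
  have a9 : P * P * (2 * P) = 2 * P ^ 3 := by ring
  have a10 : (P + 1) * (2 * P) = 2 * P ^ 2 + 2 * P := by ring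
  have p1 : P ≤ P ^ 3 := Nat.le_self_pow (by norm_num) P
  have p2 : P ^ 2 ≤ P ^ 3 := Nat.pow_le_pow_right (by omega) (by norm_num)
  rw [a9] at a7
  rw [a10] at a8
  have p3 : 9 * P ≤ P ^ 3 := by
    have : 3 * 3 ≤ P * P := Nat.mul_le_mul hP3 hP3
    calc 9 * P ≤ (P * P) * P := Nat.mul_le_mul_right P (by omega)
      _ = P ^ 3 := by ring
  have p4 : 3 * P ^ 2 ≤ P ^ 3 := by
    calc 3 * P ^ 2 ≤ P * P ^ 2 := Nat.mul_le_mul_right _ hP3
      _ = P ^ 3 := by ring
  omega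

theorem pT_le' (A q : ℕ) : pT A q m n (pD c) b ≤ (A * 2 ^ q) * (Lin r c + b + 1) ^ q := by
  unfold pT
  have h6 := LENP.pD_le r c
  have h7 := mn_le r c
  calc A * (m + n + pD c + b + 1) ^ q ≤ A * (2 * (Lin r c + b + 1)) ^ q :=
        Nat.mul_le_mul_left _ (Nat.pow_le_pow_left (by omega) q)
    _ = (A * 2 ^ q) * (Lin r c + b + 1) ^ q := by rw [mul_pow, mul_assoc]

theorem len_pT (A q : ℕ) :
    len (pT A q m n (pD c) b) ≤ Nat.size A + q * (2 * (Lin r c + b + 1)) + 2 := by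
  unfold pT len
  have h6 := LENP.pD_le r c
  have h7 := mn_le r c
  have h1 := PART.size_mul_le A ((m + n + pD c + b + 1) ^ q)
  have h2 := PART.size_pow_le (m + n + pD c + b + 1) q
  have h3 := PART.size_le_self (m + n + pD c + b + 1)
  have h4 : q * Nat.size (m + n + pD c + b + 1) ≤ q * (2 * (Lin r c + b + 1)) :=
    Nat.mul_le_mul_left _ (by omega)
  omega

theorem pK_le' (hm : 1 ≤ m) (hn : 1 ≤ n) : pK m n b ≤ 2 * (Lin r c + b + 1) ^ 3 := by
  unfold pK
  have h2 := two_le_Lin r c hm hn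
  have h7 := mn_le r c
  calc 2 * m * n * (b + 2) ≤ 2 * (Lin r c + b + 1) * (Lin r c + b + 1) * (Lin r c + b + 1) := by
        apply Nat.mul_le_mul _ (by omega)
        apply Nat.mul_le_mul _ (by omega)
        apply Nat.mul_le_mul_left
        omega
    _ = 2 * (Lin r c + b + 1) ^ 3 := by ring

/-- the running time of everything but the parameters -/
theorem tot_le (A : ℕ) (hA : Nat.size A ≤ 19) (hm : 1 ≤ m) (hn : 1 ≤ n) :
    tot m n (len m) (len n) (len (∑ i, r i)) (len (∑ j, c j)) (len (∑ j, c j + 1))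
      (len (∑ j, c j + 2)) (m * n * len (∑ j, c j + 1)) (STV.stepB m n (pD c) (∑ j, c j + 1))
      (pT A 21 m n (pD c) b) (len (pT A 21 m n (pD c) b)) (pK m n b) (len (pK m n b)) ≤
      (296 * (A * 2 ^ 21) + 100) * (Lin r c + b + 1) ^ 27 := by
  have h2 := two_le_Lin r c hm hn
  have hmn := mn_le r c
  have b1 := LENP.len_m_le r c
  have b2 := LENP.len_n_le r c
  have b3 := LENP.len_sum_r r c
  have b4 := LENP.len_sum_c r c
  have b5 := LENP.len_le_of r c (le_refl (∑ j, c j + 1))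
  have b6 := LENP.len_le_of2 r c (show ∑ j, c j + 2 ≤ 2 * (∑ j, c j + 1) by omega)
  have b7 := len_pT r c b A 21
  have b8 := pK_le' r c b hm hn
  have b9 := PART.len_le (pK m n b)
  have p1 : Lin r c + b + 1 ≤ (Lin r c + b + 1) ^ 3 := Nat.le_self_pow (by norm_num) _
  apply aux
  · omega
  · omega
  · omega
  · omega
  · omega
  · omega
  · omega
  · omega
  · omega
  · omega
  · calc m * n * len (∑ j, c j + 1)
        ≤ (Lin r c + b + 1) * (Lin r c + b + 1) * (2 * (Lin r c + b + 1)) :=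
          Nat.mul_le_mul (Nat.mul_le_mul (by omega) (by omega)) (by omega)
      _ = 2 * (Lin r c + b + 1) ^ 3 := by ring
  · exact stepB_le r c b hm hn
  · exact pT_le' r c b A 21
  · omega
  · exact b8
  · omega

/-- the number of random bits -/
theorem bits_le (A : ℕ) (hm : 1 ≤ m) (hn : 1 ≤ n) :
    pK m n b * pT A 21 m n (pD c) b * nbits m n (pD c) ≤
      8 * (A * 2 ^ 21) * (Lin r c + b + 1) ^ 25 := by
  have a1 := LENP.nbits_le r c
  calc pK m n b * pT A 21 m n (pD c) b * nbits m n (pD c)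
      ≤ (2 * (Lin r c + b + 1) ^ 3) * ((A * 2 ^ 21) * (Lin r c + b + 1) ^ 21) *
          (4 * (Lin r c + b + 1)) :=
        Nat.mul_le_mul (Nat.mul_le_mul (pK_le' r c b hm hn) (pT_le' r c b A 21)) (by omega)
    _ = 8 * (A * 2 ^ 21) * (Lin r c + b + 1) ^ 25 := by ring

lemma size_A : Nat.size 512000 ≤ 19 := by
  rw [Nat.size_le]
  norm_num

/-- everything but the parameters, `A = 512000` -/
theorem tot_le_A (hm : 1 ≤ m) (hn : 1 ≤ n) :
    tot m n (len m) (len n) (len (∑ i, r i)) (len (∑ j, c j)) (len (∑ j, c j + 1))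
      (len (∑ j, c j + 2)) (m * n * len (∑ j, c j + 1)) (STV.stepB m n (pD c) (∑ j, c j + 1))
      (pT 512000 21 m n (pD c) b) (len (pT 512000 21 m n (pD c) b)) (pK m n b)
      (len (pK m n b)) ≤ 4 * 10 ^ 14 * (Lin r c + b + 1) ^ 27 := by
  refine (tot_le r c b 512000 size_A hm hn).trans ?_
  apply Nat.mul_le_mul_right
  norm_num

/-- the computation of the parameters, `A = 512000` -/
theorem par_le_A : (parC 512000 21 m c b).time ≤ 10 ^ 7 * (Lin r c + b + 1) ^ 2 := by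
  refine (PART.parC_time_Lin 512000 21 r c b).trans ?_
  have h1 : len 512000 ≤ 20 := by
    unfold len
    have := size_A
    omega
  calc 80 * (21 + 1) ^ 2 * len 512000 * (Lin r c + b + 2) ^ 2
      ≤ 80 * (21 + 1) ^ 2 * 20 * (2 * (Lin r c + b + 1)) ^ 2 :=
        Nat.mul_le_mul (Nat.mul_le_mul_left _ h1) (Nat.pow_le_pow_left (by omega) 2)
    _ = 3097600 * (Lin r c + b + 1) ^ 2 := by ring
    _ ≤ 10 ^ 7 * (Lin r c + b + 1) ^ 2 := Nat.mul_le_mul_right _ (by norm_num)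

/-- total running time: parameters and everything else -/
theorem all_le (hm : 1 ≤ m) (hn : 1 ≤ n) :
    (parC 512000 21 m c b).time +
    tot m n (len m) (len n) (len (∑ i, r i)) (len (∑ j, c j)) (len (∑ j, c j + 1))
      (len (∑ j, c j + 2)) (m * n * len (∑ j, c j + 1)) (STV.stepB m n (pD c) (∑ j, c j + 1))
      (pT 512000 21 m n (pD c) b) (len (pT 512000 21 m n (pD c) b)) (pK m n b)
      (len (pK m n b)) ≤ 10 ^ 15 * (Lin r c + b + 1) ^ 27 := by
  have h1 := tot_le_A r c b hm hn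
  have h2 := par_le_A r c b
  have h3 : (Lin r c + b + 1) ^ 2 ≤ (Lin r c + b + 1) ^ 27 :=
    Nat.pow_le_pow_right (by omega) (by norm_num)
  have h4 : 10 ^ 7 * (Lin r c + b + 1) ^ 2 ≤ 10 ^ 7 * (Lin r c + b + 1) ^ 27 :=
    Nat.mul_le_mul_left _ h3
  omega

/-- number of random bits, `A = 512000` -/
theorem bits_le_A (hm : 1 ≤ m) (hn : 1 ≤ n) :
    pK m n b * pT 512000 21 m n (pD c) b * nbits m n (pD c) ≤
      10 ^ 13 * (Lin r c + b + 1) ^ 25 := by
  refine (bits_le r c b 512000 hm hn).trans ?_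
  apply Nat.mul_le_mul_right
  norm_num

end

end TIMB

end Vale.P328B.PT
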