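import Vale.Agent.P328.B.BSTAR
import Vale.Agent.P328.B.ATTT
import Vale.Agent.P328.B.STV
import Vale.Agent.P328.B.HUBT
import Vale.Agent.P328.B.PRE
import Vale.Agent.P328.B.TARI
import Vale.Agent.P328.B.PART
import Vale.Agent.P328.B.ATT
import Vale.Agent.P328.B.TIMB

/-! # P328, binary margins: the program is an almost uniform sampler (helper2) -/

namespace Vale.P328B.PTS
open Finset BigOperators Vale.P328U Vale.P328B Vale.P328U.STAR Vale.P328B.PT

variable {m n : ℕ}

theorem setC_E (X : Fin m → Fin n → ℕ) (h : Fin m) (J : Fin n) :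
    Function.update X h (Function.update (X h) J (X h J + 1)) = X + E h J := by
  funext i j
  rw [Pi.add_apply, Pi.add_apply, E_apply]
  by_cases hi : i = h
  · subst hi
    rw [Function.update_self]
    by_cases hj : j = J
    · subst hj
      rw [Function.update_self]
      simp
    · rw [Function.update_of_ne hj]
      simp [hj]
  · rw [Function.update_of_ne hi]
    simp [hi]

theorem entry_le {r : Fin m → ℕ} {c : Fin n → ℕ} {X : Fin m → Fin n → ℕ} (hX : X ∈ Tables r c)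
    (i : Fin m) (j : Fin n) : X i j ≤ ∑ j, c j := by
  have h := mem_Tables.mp hX
  have h1 : X i j ≤ ∑ i, X i j :=
    single_le_sum (f := fun i => X i j) (fun _ _ => Nat.zero_le _) (mem_univ i)
  have h2 : c j ≤ ∑ j, c j := single_le_sum (f := c) (fun _ _ => Nat.zero_le _) (mem_univ j)
  rw [h.2 j] at h1
  exact h1.trans h2

theorem sum_extra (c : Fin n → ℕ) (J : Fin n) :
    ∑ j, (c + Pi.single J 1 : Fin n → ℕ) j = ∑ j, c j + 1 := by
  simp only [Pi.add_apply]
  rw [sum_add_distrib]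
  congr 1
  rw [Finset.sum_pi_single']
  simp

theorem extra_mem {r : Fin m → ℕ} {c : Fin n → ℕ} {X : Fin m → Fin n → ℕ} (hX : X ∈ Tables r c)
    (h : Fin m) (J : Fin n) :
    X + E h J ∈ Tables (r + Pi.single h 1) (c + Pi.single J 1) := by
  obtain ⟨hG, -⟩ := ACC.thm m n r c h J
  have : X + E h J ∈
      ((Tables (r + Pi.single h 1) (c + Pi.single J 1)).filter fun Y => 1 ≤ Y h J) := by
    rw [hG]
    exact Finset.mem_map.mpr ⟨X, hX, rfl⟩
  exact (Finset.mem_filter.mp this).1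

theorem pRun_mem {D T : ℕ} {r : Fin m → ℕ} {c : Fin n → ℕ} (h : Fin m) {X : Fin m → Fin n → ℕ}
    (hX : X ∈ Tables r c) (ω : Fin T → Draw m n D) : pRun h X ω ∈ Tables r c := by
  unfold pRun
  have : ∀ (L : List (Draw m n D)) (X : Fin m → Fin n → ℕ), X ∈ Tables r c →
      L.foldl (pStep h) X ∈ Tables r c := by
    intro L
    induction L with
    | nil => intro X hX; simpa using hX
    | cons a L ih => intro X hX; rw [List.foldl_cons]; exact ih _ (BSTAR.pStep_mem h hX a)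
  exact this _ _ hX

/-- total variation distance of the padded sampler -/
theorem gsam_law (r : Fin m → ℕ) (c : Fin n → ℕ) (hrc : ∑ i, r i = ∑ j, c j) (h : Fin m)
    (hmax : ∀ k, r k ≤ r h) (J : Fin n) (ε : ℝ) (hε0 : 0 < ε) (hε1 : ε < 1)
    (K T : ℕ) (hK : 2 * m * n * Real.log (4 / ε) ≤ K)
    (hT : 16 * (16000 * (m : ℝ) ^ 4 * (n : ℝ) ^ 11 * ((pD c : ℝ) + 1) ^ 2 *
      (1 + Real.log ((∑ j, c j : ℕ) + 2))) *
        (m * n * Real.log ((∑ j, c j : ℕ) + 2) + Real.log (8 * m * n / ε)) ≤ (T : ℝ))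
    (X₀ : Fin m → Fin n → ℕ) (hX₀ : X₀ ∈ Tables r c) :
    (1 / 2) * ∑ X ∈ Tables r c, |lawOf (fun ω : Fin K → Fin T → Draw m n (pD c) =>
        GEN.gsam h J (fun w => pRun h (X₀ + E h J) w) X₀ ω) X -
      1 / ((Tables r c).card : ℝ)| ≤ ε := by
  have hm : 1 ≤ m := by have := h.2; omega
  have hn : 1 ≤ n := by have := J.2; omega
  have : Nonempty (Fin m) := ⟨h⟩
  have : Nonempty (Fin n) := ⟨J⟩
  have hmR : (1 : ℝ) ≤ m := by exact_mod_cast hm
  have hnR : (1 : ℝ) ≤ n := by exact_mod_cast hn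
  obtain ⟨N, hN⟩ : ∃ N, N = ∑ j, c j := ⟨_, rfl⟩
  have hr : ∑ i, r i = N := by rw [hrc, hN]
  have hD : pD c = Nat.log 2 (N + 2) := by rw [hN]; rfl
  have hND : N + 2 < 2 ^ (pD c + 1) := by
    rw [hD]
    exact Nat.lt_pow_succ_log_self (by norm_num) _
  have hrk : ∀ k, r k ≤ N := by
    intro k
    rw [← hr]
    exact Finset.single_le_sum (f := r) (fun _ _ => Nat.zero_le _) (Finset.mem_univ k)
  have e2 : (r + Pi.single h 1 : Fin m → ℕ) h = r h + 1 := by simp
  have e1 : ∀ k, k ≠ h → (r + Pi.single h 1 : Fin m → ℕ) k = r k := by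
    intro k hk
    simp [hk]
  have hC1 : (1 : ℝ) ≤ ASM1.KB (m - 1) n N := POINC.one_le _ _ _ hn
  have : Nonempty (Draw m n (pD c)) :=
    ⟨(⟨0, by positivity⟩, ⟨0, by positivity⟩, ⟨0, by positivity⟩, ⟨0, by positivity⟩, true)⟩
  rw [← hN] at hT
  have hmix := BSTAR.pad_mix (r + Pi.single h 1) (c + Pi.single J 1) h (pD c)
    T (ASM1.KB (m - 1) n N) (X₀ + E h J) hn
    (by
      intro k hk
      rw [e1 k hk]
      have := hrk k
      omega) hC1
    (PEX.extra ASM1.poib m n N r c h J hmax hr hN.symm) (extra_mem hX₀ h J)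
  refine GEN.gen r c h J _ ε K X₀ hX₀ hε0 hε1 hK (hmix.trans ?_)
  refine FINB.delta_le N (pD c) hm hn ε (16 * ASM1.KB (m - 1) n N) hε0 hε1 (by linarith) _ _ ?_ ?_
  · apply FIN.card_tables
    intro i
    by_cases hi : i = h
    · rw [hi, e2]
      have := hrk h
      omega
    · rw [e1 i hi]
      have := hrk i
      omega
  · refine le_trans ?_ hT
    have hlog := ASM1.log_nn N
    have hKB := POINC.KB_le (m - 1) n N hn
    have hcast : (((m - 1 : ℕ) : ℝ) + 1) = m := by
      rw [Nat.cast_sub hm]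
      push_cast
      ring
    rw [hcast] at hKB
    have hl2 : 0 ≤ Real.log (8 * m * n / ε) := by
      apply Real.log_nonneg
      rw [le_div_iff₀ hε0]
      nlinarith [mul_le_mul hmR hnR (by norm_num) (by linarith)]
    have hnn : 0 ≤ m * n * Real.log (N + 2) + Real.log (8 * m * n / ε) := by positivity
    refine mul_le_mul_of_nonneg_right ?_ hnn
    calc 8 * (m : ℝ) * (n : ℝ) ^ 2 * ((pD c : ℝ) + 1) ^ 2 * (16 * ASM1.KB (m - 1) n N)
        = (8 * (m : ℝ) * (n : ℝ) ^ 2 * ((pD c : ℝ) + 1) ^ 2 * 16) * ASM1.KB (m - 1) n N := by ring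
      _ ≤ (8 * (m : ℝ) * (n : ℝ) ^ 2 * ((pD c : ℝ) + 1) ^ 2 * 16) *
          (2000 * (m : ℝ) ^ 3 * (n : ℝ) ^ 9 * (1 + Real.log ((N : ℝ) + 2))) :=
          mul_le_mul_of_nonneg_left hKB (by positivity)
      _ = _ := by ring

/-- running time of the main loop -/
theorem loop_le (r : Fin m → ℕ) (c : Fin n → ℕ) (h : Fin m) (J : Fin n) {D K T : ℕ}
    (X₀ : Fin m → Fin n → ℕ) (hX₀ : X₀ ∈ Tables r c) (ω : Fin K → Fin T → Draw m n D) :
    (loopC h J (X₀ + E h J) ω).time ≤ K * (len K + (T * (len T +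
        STV.stepB m n D (∑ j, c j + 1)) +
        (5 * (m * n * len (∑ j, c j + 1)) + 2 * len m + 2 * len n + 4))) := by
  have hX₁ := extra_mem hX₀ h J
  have hent : ∀ X ∈ Tables (r + Pi.single h 1) (c + Pi.single J 1),
      ∀ i j, X i j ≤ ∑ j, c j + 1 := by
    intro X hX i j
    have := entry_le hX i j
    rw [sum_extra] at this
    exact this
  have hS : ∀ X, ∀ u : Draw m n D, X ∈ Tables (r + Pi.single h 1) (c + Pi.single J 1) →
      (stepC h X u).val ∈ Tables (r + Pi.single h 1) (c + Pi.single J 1) ∧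
      (stepC h X u).time ≤ STV.stepB m n D (∑ j, c j + 1) := by
    intro X u hX
    constructor
    · rw [STV.val]
      exact BSTAR.pStep_mem _ hX u
    · exact STV.time _ X u _ (hent X hX)
  have hL : ∀ X, X ∈ Tables (r + Pi.single h 1) (c + Pi.single J 1) →
      tlen X ≤ m * n * len (∑ j, c j + 1) := fun X hX => LENP.tlen_le_len _ _ (hent X hX)
  generalize Tables (r + Pi.single h 1) (c + Pi.single J 1) = TT at hX₁ hS hL
  generalize X₀ + E h J = X₁ at hX₁ ⊢
  generalize STV.stepB m n D (∑ j, c j + 1) = S at hS ⊢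
  generalize m * n * len (∑ j, c j + 1) = L at hL ⊢
  exact ATTT.loop_time h J X₁ (fun X => X ∈ TT) S L hX₁ hS hL ω

theorem add_key (P h h' w w' t t' lm ln l l' o l2 l2' lp lp' : ℕ) (a1 : h ≤ h') (a2 : w ≤ w')
    (a3 : t ≤ t') (a4 : l ≤ l') (a5 : l2 ≤ l2') (a6 : lp ≤ lp') :
    P + (h + (w + ((t + lm + ln) + ((l + o) + ((t + lm + ln + l2) + (lp + 0)))))) ≤
      P + (h' + w' + (t' + lm + ln) + (l' + o) + (t' + lm + ln + l2') + lp') := by
  omega

variable [NeZero m] [NeZero n]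

/-- the program, unfolded -/
theorem sampler_val (A q : ℕ) (r : Fin m → ℕ) (c : Fin n → ℕ) (b : ℕ)
    (ω : Fin (pK m n b) → Fin (pT A q m n (pD c) b) → Draw m n (pD c)) :
    (samplerC A q r c b ω).val =
      ((loopC (hubC r).val 0 (NW.nw r c + E (hubC r).val 0) ω).val).getD (NW.nw r c) := by
  have h1 : (samplerC A q r c b ω).val =
      ((loopC (hubC r).val 0 (Function.update (nwC r c).val (hubC r).val
        (Function.update ((nwC r c).val (hubC r).val) 0
          ((nwC r c).val (hubC r).val 0 + 1))) ω).val).getD (nwC r c).val := by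
    rfl
  rw [h1, setC_E, PRE.nwC_val]

theorem sampler_time (A q : ℕ) (r : Fin m → ℕ) (c : Fin n → ℕ) (b : ℕ)
    (ω : Fin (pK m n b) → Fin (pT A q m n (pD c) b) → Draw m n (pD c)) :
    (samplerC A q r c b ω).time = (parC A q m c b).time + ((hubC r).time + ((nwC r c).time +
      ((tlen (NW.nw r c) + len m + len n) + ((len (NW.nw r c (hubC r).val 0) + len 1) +
      ((tlen (NW.nw r c) + len m + len n + len (NW.nw r c (hubC r).val 0 + 1)) +
      ((loopC (hubC r).val 0 (NW.nw r c + E (hubC r).val 0) ω).time + 0)))))) := by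
  have h1 : (samplerC A q r c b ω).time = (parC A q m c b).time + ((hubC r).time + ((nwC r c).time +
      ((tlen (nwC r c).val + len m + len n) + ((len ((nwC r c).val (hubC r).val 0) + len 1) +
      ((tlen (nwC r c).val + len m + len n + len ((nwC r c).val (hubC r).val 0 + 1)) +
      ((loopC (hubC r).val 0 (Function.update (nwC r c).val (hubC r).val
        (Function.update ((nwC r c).val (hubC r).val) 0
          ((nwC r c).val (hubC r).val 0 + 1))) ω).time + 0)))))) := by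
    rfl
  rw [h1, setC_E, PRE.nwC_val]


theorem sampler_time_le (A q : ℕ) (r : Fin m → ℕ) (c : Fin n → ℕ) (hrc : ∑ i, r i = ∑ j, c j)
    (b : ℕ) (ω : Fin (pK m n b) → Fin (pT A q m n (pD c) b) → Draw m n (pD c)) :
    (samplerC A q r c b ω).time ≤ (parC A q m c b).time +
      (m * (len m + 2 * len (∑ i, r i)) +
      8 * m * n * (m + n + 1) * (len m + len n + len (∑ i, r i) + len (∑ j, c j)) +
      (m * n * len (∑ j, c j + 1) + len m + len n) + (len (∑ j, c j + 1) + len 1) +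
      (m * n * len (∑ j, c j + 1) + len m + len n + len (∑ j, c j + 2)) +
      pK m n b * (len (pK m n b) + (pT A q m n (pD c) b * (len (pT A q m n (pD c) b) +
        STV.stepB m n (pD c) (∑ j, c j + 1)) +
        (5 * (m * n * len (∑ j, c j + 1)) + 2 * len m + 2 * len n + 4)))) := by
  rw [sampler_time]
  have hX₀ := NW.nw_mem r c hrc
  have a1 := HUBT.hub_time r
  have a2 := PRE.nwC_time r c
  have a3 : tlen (NW.nw r c) ≤ m * n * len (∑ j, c j + 1) :=
    LENP.tlen_le_len _ _ fun i j => (entry_le hX₀ i j).trans (Nat.le_succ _)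
  have a4 : len (NW.nw r c (hubC r).val 0) ≤ len (∑ j, c j + 1) :=
    LENP.len_mono ((entry_le hX₀ _ _).trans (Nat.le_succ _))
  have a5 : len (NW.nw r c (hubC r).val 0 + 1) ≤ len (∑ j, c j + 2) :=
    LENP.len_mono (by have := entry_le hX₀ (hubC r).val 0; omega)
  have a6 := loop_le r c (hubC r).val 0 (NW.nw r c) hX₀ ω
  exact add_key _ _ _ _ _ _ _ _ _ _ _ _ _ _ _ _ a1 a2 a3 a4 a5 a6

/-- the value of the program -/
theorem sampler_eq (A q : ℕ) (r : Fin m → ℕ) (c : Fin n → ℕ) (b : ℕ)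
    (ω : Fin (pK m n b) → Fin (pT A q m n (pD c) b) → Draw m n (pD c)) :
    (samplerC A q r c b ω).val =
      GEN.gsam (hubC r).val 0 (fun w => pRun (hubC r).val (NW.nw r c + E (hubC r).val 0) w)
        (NW.nw r c) ω := by
  rw [sampler_val]
  exact ATT.loop_val _ _ _ _ (fun X u => STV.val _ X u) ω

/-- the output is always a table with the given margins -/
theorem sampler_mem (A q : ℕ) (r : Fin m → ℕ) (c : Fin n → ℕ) (hrc : ∑ i, r i = ∑ j, c j) (b : ℕ)
    (ω : Fin (pK m n b) → Fin (pT A q m n (pD c) b) → Draw m n (pD c)) :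
    (samplerC A q r c b ω).val ∈ Tables r c := by
  rw [sampler_eq]
  have hX₀ := NW.nw_mem r c hrc
  exact GEN.gsam_mem r c _ 0 _ _ hX₀ (fun w => pRun_mem _ (extra_mem hX₀ _ 0) w) ω

/-- the law of the output is almost uniform -/
theorem sampler_tv (r : Fin m → ℕ) (c : Fin n → ℕ) (hrc : ∑ i, r i = ∑ j, c j) (b : ℕ) (ε : ℝ)
    (hε0 : 0 < ε) (hε1 : ε < 1) (hb : (1 / 2 : ℝ) ^ b ≤ ε) :
    (1 / 2) * ∑ X ∈ Tables r c, |lawOf (fun ω : Fin (pK m n b) →
        Fin (pT 512000 21 m n (pD c) b) → Draw m n (pD c) =>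
        (samplerC 512000 21 r c b ω).val) X - 1 / ((Tables r c).card : ℝ)| ≤ ε := by
  have hm : 1 ≤ m := Nat.one_le_iff_ne_zero.mpr (NeZero.ne m)
  have hn : 1 ≤ n := Nat.one_le_iff_ne_zero.mpr (NeZero.ne n)
  simp only [sampler_eq]
  have hT := TARI.T_ineq m n (∑ j, c j) b hm hn hb
  have hK := TARI.K_ineq m n b hb
  change _ ≤ ((pT 512000 21 m n (pD c) b : ℕ) : ℝ) at hT
  generalize pT 512000 21 m n (pD c) b = T at hT ⊢
  generalize pK m n b = K at hK ⊢
  exact gsam_law r c hrc (hubC r).val (fun k => HUBT.hub_le r k) 0 ε hε0 hε1 K T hK hT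
    (NW.nw r c) (NW.nw_mem r c hrc)

/-- the running time -/
theorem sampler_time_poly (r : Fin m → ℕ) (c : Fin n → ℕ) (hrc : ∑ i, r i = ∑ j, c j) (b : ℕ)
    (ω : Fin (pK m n b) → Fin (pT 512000 21 m n (pD c) b) → Draw m n (pD c)) :
    (samplerC 512000 21 r c b ω).time ≤ 10 ^ 15 * (Lin r c + b + 1) ^ 27 := by
  have hm : 1 ≤ m := Nat.one_le_iff_ne_zero.mpr (NeZero.ne m)
  have hn : 1 ≤ n := Nat.one_le_iff_ne_zero.mpr (NeZero.ne n)
  exact (sampler_time_le 512000 21 r c hrc b ω).trans (TIMB.all_le r c b hm hn)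

end Vale.P328B.PTS
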