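import Vale.Agent.P328.B.ProgDefs
import Vale.Agent.P328.B.EndDefs
import Vale.Agent.P328.Bin.NW

/-!
# P328, binary margins: the specification of the program of `ProgDefs` (helper2)
-/

namespace Vale.P328B.PT
open Finset BigOperators Vale.P328U

variable {m n : ℕ}

/-! ## Specification (no running time) -/

/-- the step without running time: `dyStep`, idle if one of the indices is out of range -/
def pStep {D : ℕ} (h : Fin m) (X : Fin m → Fin n → ℕ) (u : Draw m n D) : Fin m → Fin n → ℕ :=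
  if hu : (u.1 : ℕ) < m ∧ (u.2.1 : ℕ) < n ∧ (u.2.2.1 : ℕ) < n ∧ (u.2.2.2.1 : ℕ) < D + 1 then
    dyStep h X (⟨u.1, hu.1⟩, ⟨u.2.1, hu.2.1⟩, ⟨u.2.2.1, hu.2.2.1⟩, ⟨u.2.2.2.1, hu.2.2.2⟩,
      u.2.2.2.2)
  else X

/-- `T` steps without running time -/
def pRun {D T : ℕ} (h : Fin m) (X₁ : Fin m → Fin n → ℕ) (ω : Fin T → Draw m n D) :
    Fin m → Fin n → ℕ :=
  (List.ofFn ω).foldl (pStep h) X₁

end Vale.P328B.PT
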