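import Mathlib

/-!
# P328, binary margins: the sampler as a program with a running time (helper2)

`Comp α` is a computation with a value and a number of bit operations.  The program below only
uses the primitives `tick`, `addC`, `subC`, `mulC`, `leC`, `pow2C`, `log2C`, `getC`, `setC`,
each charged (at least) the number of bits of its operands; reading or writing one entry of a table
is charged the total length of the table, as on a multitape Turing machine.
-/

namespace Vale.P328B.PT
open Finset

/-- A computation: the value and the number of bit operations used. -/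
structure Comp (α : Type) where
  /-- the value returned -/
  val : α
  /-- the number of bit operations -/
  time : ℕ

/-- return a value at no cost -/
def retC {α : Type} (a : α) : Comp α := ⟨a, 0⟩

/-- run `x`, then `f` on its value; the costs add up -/
def bindC {α β : Type} (x : Comp α) (f : α → Comp β) : Comp β :=
  ⟨(f x.val).val, x.time + (f x.val).time⟩

instance : Monad Comp where
  pure := retC
  bind := bindC
  map f x := bindC x fun a => retC (f a)
  mapConst a x := bindC x fun _ => retC a
  seq f x := bindC f fun g => bindC (x ()) fun a => retC (g a)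
  seqLeft x y := bindC x fun a => bindC (y ()) fun _ => retC a
  seqRight x y := bindC x fun _ => y ()

/-- length of a number written in binary (with a separator) -/
def len (x : ℕ) : ℕ := Nat.size x + 1

/-- spend `t` operations -/
def tick (t : ℕ) : Comp Unit := ⟨(), t⟩

/-- addition -/
def addC (x y : ℕ) : Comp ℕ := ⟨x + y, len x + len y⟩

/-- (truncated) subtraction -/
def subC (x y : ℕ) : Comp ℕ := ⟨x - y, len x + len y⟩

/-- multiplication -/
def mulC (x y : ℕ) : Comp ℕ := ⟨x * y, len x * len y⟩

/-- comparison -/
def leC (x y : ℕ) : Comp Bool := ⟨decide (x ≤ y), len x + len y⟩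

/-- a power of two -/
def pow2C (d : ℕ) : Comp ℕ := ⟨2 ^ d, (d + 1) * len d⟩

/-- the number of binary digits minus one -/
def log2C (x : ℕ) : Comp ℕ := ⟨Nat.log 2 x, len x * len x⟩

variable {m n : ℕ}

/-- length of a table -/
def tlen (X : Fin m → Fin n → ℕ) : ℕ := ∑ i, ∑ j, len (X i j)

/-- read an entry of a table (scan the whole table) -/
def getC (X : Fin m → Fin n → ℕ) (i : Fin m) (j : Fin n) : Comp ℕ := ⟨X i j, tlen X + len m + len n⟩

/-- write an entry of a table (scan the whole table) -/
def setC (X : Fin m → Fin n → ℕ) (i : Fin m) (j : Fin n) (v : ℕ) : Comp (Fin m → Fin n → ℕ) :=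
  ⟨Function.update X i (Function.update (X i) j v), tlen X + len m + len n + len v⟩

/-- compute all entries of a table and write them down one after the other -/
def buildC (f : Fin m → Fin n → Comp ℕ) : Comp (Fin m → Fin n → ℕ) :=
  ⟨fun i j => (f i j).val, ∑ i, ∑ j, ((f i j).time + len (f i j).val)⟩

/-- sum of the first `i` entries of a vector -/
def preC {k : ℕ} (a : Fin k → ℕ) (i : ℕ) : Comp ℕ :=
  (List.finRange k).foldlM (fun (s : ℕ) (j : Fin k) => do
    tick (len k)
    if (j : ℕ) < i then addC s (a j) else pure s) 0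

/-- minimum -/
def minC (x y : ℕ) : Comp ℕ := do
  let p ← leC x y
  if p then pure x else pure y

/-- maximum -/
def maxC (x y : ℕ) : Comp ℕ := do
  let p ← leC x y
  if p then pure y else pure x

/-- the start table: north-west corner rule -/
def nwC (r : Fin m → ℕ) (c : Fin n → ℕ) : Comp (Fin m → Fin n → ℕ) :=
  buildC fun i j => do
    let p1 ← preC r ((i : ℕ) + 1)
    let p2 ← preC c ((j : ℕ) + 1)
    let p3 ← preC r (i : ℕ)
    let p4 ← preC c (j : ℕ)
    let x ← minC p1 p2
    let y ← maxC p3 p4
    subC x y

/-- the hub row: a row with the largest row sum -/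
def hubC {m : ℕ} [NeZero m] (r : Fin m → ℕ) : Comp (Fin m) :=
  (List.finRange m).foldlM (fun (h i : Fin m) => do
    tick (len m)
    let p ← leC (r h) (r i)
    if p then pure i else pure h) 0

/-- the random choices of one step: five independent uniform numbers with
`size m`, `size n`, `size n`, `size (D + 1)` and `1` random bits. -/
abbrev Draw (m n D : ℕ) : Type :=
  Fin (2 ^ Nat.size m) × Fin (2 ^ Nat.size n) × Fin (2 ^ Nat.size n) × Fin (2 ^ Nat.size (D + 1)) ×
    Bool

/-- number of random bits of one step -/
def nbits (m n D : ℕ) : ℕ := Nat.size m + Nat.size n + Nat.size n + Nat.size (D + 1) + 1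

/-- one step of the chain: read the random bits `(k, a, b, d, coin)`; if they are legal indices,
the coin is `true`, `k ≠ h`, `a ≠ b`, `2 ^ d ≤ X k a` and `2 ^ d ≤ X h b`, then move `2 ^ d` units
of row `k` from column `a` to column `b`, and `2 ^ d` units of row `h` from column `b` to column
`a`. -/
def stepC {D : ℕ} (h : Fin m) (X : Fin m → Fin n → ℕ) (u : Draw m n D) :
    Comp (Fin m → Fin n → ℕ) := do
  tick (nbits m n D + 2 * (len m + len n + len n + len D))
  if hu : (u.1 : ℕ) < m ∧ (u.2.1 : ℕ) < n ∧ (u.2.2.1 : ℕ) < n ∧ (u.2.2.2.1 : ℕ) < D + 1 ∧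
      u.2.2.2.2 = true ∧ (u.1 : ℕ) ≠ h ∧ (u.2.1 : ℕ) ≠ u.2.2.1 then
    let k : Fin m := ⟨u.1, hu.1⟩
    let a : Fin n := ⟨u.2.1, hu.2.1⟩
    let b : Fin n := ⟨u.2.2.1, hu.2.2.1⟩
    let s ← pow2C u.2.2.2.1
    let x ← getC X k a
    let y ← getC X h b
    let p ← leC s x
    let q ← leC s y
    if p && q then
      let x' ← subC x s
      let X1 ← setC X k a x'
      let z ← getC X1 k b
      let z' ← addC z s
      let X2 ← setC X1 k b z'
      let y' ← subC y s
      let X3 ← setC X2 h b y'
      let w ← getC X3 h a
      let w' ← addC w s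
      setC X3 h a w'
    else pure X
  else pure X

/-- one attempt: `T` steps from `X₁`, then remove one unit from the cell `(h, J)` if possible -/
def attemptC {D T : ℕ} (h : Fin m) (J : Fin n) (X₁ : Fin m → Fin n → ℕ) (ω : Fin T → Draw m n D) :
    Comp (Option (Fin m → Fin n → ℕ)) := do
  let Y ← (List.ofFn ω).foldlM (fun X u => do
    tick (len T)
    stepC h X u) X₁
  let v ← getC Y h J
  let p ← leC 1 v
  if p then
    let v' ← subC v 1
    let Y' ← setC Y h J v'
    pure (some Y')
  else pure none

/-- repeat the attempt until the first success -/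
def loopC {D T K : ℕ} (h : Fin m) (J : Fin n) (X₁ : Fin m → Fin n → ℕ)
    (ω : Fin K → Fin T → Draw m n D) : Comp (Option (Fin m → Fin n → ℕ)) :=
  (List.ofFn ω).foldlM (fun s w => do
    tick (len K)
    match s with
    | some X => pure (some X)
    | none => attemptC h J X₁ w) none

/-- `x ^ k` by repeated multiplication -/
def powC (x : ℕ) : ℕ → Comp ℕ
  | 0 => pure 1
  | k + 1 => do
    let y ← powC x k
    mulC y x

/-- the largest exponent of a switch (`N` = total sum) -/
def pD (c : Fin n → ℕ) : ℕ := Nat.log 2 (∑ j, c j + 2)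

/-- number of attempts -/
def pK (m n b : ℕ) : ℕ := 2 * m * n * (b + 2)

/-- number of steps of one attempt; `A`, `q` are absolute constants -/
def pT (A q m n D b : ℕ) : ℕ := A * (m + n + D + b + 1) ^ q

/-- compute the parameters `D`, `T`, `K` -/
def parC (A q m : ℕ) (c : Fin n → ℕ) (b : ℕ) : Comp (ℕ × ℕ × ℕ) := do
  let N ← preC c n
  let N2 ← addC N 2
  let D ← log2C N2
  let s1 ← addC m n
  let s2 ← addC s1 D
  let s3 ← addC s2 b
  let s4 ← addC s3 1
  let p ← powC s4 q
  let T ← mulC A p
  let k1 ← mulC 2 m
  let k2 ← mulC k1 n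
  let b2 ← addC b 2
  let K ← mulC k2 b2
  pure (D, T, K)

/-- the sampler: input `r`, `c` and the precision `b` (total variation distance `2 ^ (-b)`),
random bits `ω` -/
def samplerC [NeZero m] [NeZero n] (A q : ℕ) (r : Fin m → ℕ) (c : Fin n → ℕ) (b : ℕ)
    (ω : Fin (pK m n b) → Fin (pT A q m n (pD c) b) → Draw m n (pD c)) :
    Comp (Fin m → Fin n → ℕ) := do
  let _ ← parC A q m c b
  let h ← hubC r
  let X₀ ← nwC r c
  let v ← getC X₀ h 0
  let v' ← addC v 1
  let X₁ ← setC X₀ h 0 v'
  let s ← loopC h 0 X₁ ω
  pure (s.getD X₀)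

end Vale.P328B.PT
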