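import Vale.Agent.P328.B.DualDefs
import Vale.Agent.P328.Bin.SMEAR

/-! # P328, binary margins: SMEAR in the form used by the assembly (helper20) -/

namespace Vale.P328B.SMEAR
open Finset BigOperators Vale.P328U

universe u v

theorem thm : Vale.P328B.StmtSMEAR.{u, v} (fun n => 100 * (n : ℝ) ^ 4) := by
  intro ι _ _ κ _ _ r c k k' jk jl ψ hk h1 _ hψ
  obtain ⟨eta, e1, e2, e3⟩ := Vale.P328U.SMEAR.thmk ι κ r c k k' ψ jk jl hk h1 (by
    intro X hX h0
    obtain ⟨g1, g2, g3, g4⟩ := hψ X hX h0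
    exact ⟨by unfold hb; omega, by unfold hb; omega, g3, g4⟩)
  exact ⟨eta, e1, e2, e3⟩

end Vale.P328B.SMEAR
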